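import Vale.Agent.P004E.Blk

/-!
# P004E, module F3: the main value of the first moment (statement)

The model: independent `X_p`, with `X_p = 1` for `p ∣ N`, and for `p ∤ N`
`P(X_p = 0) = 1/(p+1)` if `p ≤ D`, `= 1/p` if `p > D`, the signs `±1` being equally likely.
-/

open Real MeasureTheory Set Filter
open scoped ENNReal Topology

namespace P004E.H156

open P004G

/-- the mean value of `m ↦ (m/n)` over the `m ≡ 1 mod N` which are free of `p²` for all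
`p ≤ D`, `p ∤ N` : the expectation of `X_n` in the model -/
noncomputable def rhoN (N D n : ℕ) : ℝ :=
  if n = 0 then 0 else ∏ p ∈ n.primeFactors,
    if p ∣ N then 1 else if Even (n.factorization p) then
      (if p ≤ D then (p : ℝ) / (p + 1) else 1 - 1 / (p : ℝ)) else 0

variable [Crv]

/-- Module F3 : the main value. -/
def StMainVal : Prop := ∀ C₀ c₀ η : ℝ, 1 ≤ C₀ → 0 < c₀ → 0 < η → η ≤ 1 →
  ∀ N : ℕ, 0 < N → ∃ c₁ y₀ : ℝ, 0 < c₁ ∧ 2 ≤ y₀ ∧ (N : ℝ) ≤ y₀ ∧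
  ∀ θ η₁ : ℝ, 0 < θ → θ ≤ 1 / 10 → 0 < η₁ → η₁ ≤ 1 / 4 → ∃ z₀ : ℝ, 0 < z₀ ∧
  ∀ z : ℝ, 0 < z → z ≤ z₀ → ∀ D : ℕ, y₀ ≤ D → ∃ Y₀ : ℕ,
    ∀ (Y : ℕ) (S : ℕ → Finset ℕ) (c : ℕ → ℕ → ℝ), Y₀ ≤ Y →
    BlkOK C₀ c₀ η y₀ θ z (Real.log Y) S c →
    ∀ (A : Finset ℕ) (m : ℕ → ℝ), (∀ a ∈ A, a ≠ 0) →
    (∀ X : ℕ → ℝ, P004.CM X →
      ∏ i ∈ Finset.range (nb θ z (Real.log Y) + 1), Mi S c i X = ∑ a ∈ A, m a * X a) →
    c₁ ≤ ∑ a ∈ A, m a *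
      ∑' n : ℕ, bet (cfY Y (hmain (z ^ (1 - η₁)) Y)) n * rhoN N D (a * n)

end P004E.H156
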