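import Vale.Agent.P004E.H156.NF

/-!
# P004E, module F3 (part 12): the expectation near and far from `s = 1`
-/

open Finset Real

namespace P004E.H156

open P004G

lemma prod3_near {A B C : ℂ} {a δ : ℝ} (ha : 0 ≤ a) (hδ : 0 ≤ δ) (hδ1 : δ ≤ 1)
    (hA : ‖A - a‖ ≤ δ * a) (hB : ‖B - 1‖ ≤ 2 * δ) (hC : ‖C - 1‖ ≤ 2 * δ) :
    ‖A * B * C - a‖ ≤ 17 * δ * a := by
  have hB3 : ‖B‖ ≤ 3 := by
    have h := norm_add_le (B - 1) 1
    rw [sub_add_cancel, norm_one] at h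
    linarith
  have hC3 : ‖C‖ ≤ 3 := by
    have h := norm_add_le (C - 1) 1
    rw [sub_add_cancel, norm_one] at h
    linarith
  have e : A * B * C - a = (A - a) * B * C + a * ((B - 1) * C + (C - 1)) := by ring
  rw [e]
  refine (norm_add_le _ _).trans ?_
  rw [norm_mul, norm_mul, norm_mul, Complex.norm_real, Real.norm_of_nonneg ha]
  have h1 : ‖(B - 1) * C + (C - 1)‖ ≤ 2 * δ * 3 + 2 * δ := by
    refine (norm_add_le _ _).trans ?_
    rw [norm_mul]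
    gcongr
  have h2 : ‖A - a‖ * ‖B‖ * ‖C‖ ≤ δ * a * 3 * 3 := by gcongr
  have h3 : a * ‖(B - 1) * C + (C - 1)‖ ≤ a * (2 * δ * 3 + 2 * δ) := by gcongr
  nlinarith

variable [Crv]

section

variable {C₀ c₀ η θ z L : ℝ} {y N D K : ℕ} {S : ℕ → Finset ℕ} {c : ℕ → ℕ → ℝ}

omit [Crv] in
lemma w_re (L τ : ℝ) : (((1 / L : ℝ) : ℂ) + τ * Complex.I).re = 1 / L := by simp

omit [Crv] in
lemma w_norm (hL : 0 < L) (τ : ℝ) :
    ‖((1 / L : ℝ) : ℂ) + τ * Complex.I‖ * L ≤ 1 + |L * τ| := by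
  have h1 : ‖((1 / L : ℝ) : ℂ) + τ * Complex.I‖ ≤ 1 / L + |τ| := by
    refine (norm_add_le _ _).trans ?_
    rw [Complex.norm_real, Real.norm_of_nonneg (by positivity), norm_mul, Complex.norm_I, mul_one,
      Complex.norm_real, Real.norm_eq_abs]
  calc _ ≤ (1 / L + |τ|) * L := by gcongr
    _ = 1 + |L * τ| := by
      rw [abs_mul, abs_of_pos hL]
      field_simp

theorem aak_near {C δ T : ℝ} (hC : ∀ x : ℝ, 1 ≤ x →
    |∑ p ∈ gp x, (lam p ^ 2 - 1) * Real.log p / p| ≤ C) (hCn : 0 ≤ C)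
    (hC₀ : 1 ≤ C₀) (hθ : 0 ≤ θ) (hc₀ : 0 ≤ c₀) (hz : 0 < z) (hz1 : z ≤ 1 / 2)
    (h2 : z ^ θ ≤ 1 / 2) (h3 : z ^ (θ * (θ * c₀ / 2)) ≤ 1 / 2) (hLz : 5 ≤ L * z)
    (hB : BlkOK C₀ c₀ η (y : ℝ) θ z L S c) (hN : 0 < N) (hNy : N ≤ y) (hy : 2 ≤ y)
    (hyD : y ≤ D) (hD : (D : ℝ) ≤ Real.exp (L * z)) (hK : Real.exp (L * z) + 1 ≤ K)
    (hδ0 : 0 ≤ δ) (hδ1 : δ ≤ 1) {r : ℝ}
    (hr : ∀ D : ℕ, y ≤ D → ∀ z : ℂ,
      ‖z‖ ≤ r → ‖∏ p ∈ (y + 1).primesBelow, Ge N D p (1 + z) - AA0 N y‖ ≤ δ * AA0 N y)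
    (hT : (1 + T) / L ≤ r)
    (hδb : 2 * √C₀ * (2 * z ^ (θ * c₀ / 2) + 6 * ((1 + T) * z) + 600 * (y : ℝ) ^ (-1 / 8 : ℝ)) ≤ δ)
    (hδl : C * (3 / (L * z) + 2 * ((1 + T) / L) * Real.log (1 + 1 / (2 * z))) +
      1092 / Real.exp (L * z) ≤ δ) {τ : ℝ} (hτ : |L * τ| ≤ T) :
    ‖AAK N D K S c (nb θ z L + 1) (((1 / L : ℝ) : ℂ) + τ * Complex.I) - AA0 N y‖ ≤
      17 * δ * AA0 N y := by
  have hL10 : 10 ≤ L := by
    by_contra hcon
    rw [not_le] at hcon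
    rcases le_or_gt L 0 with h | h
    · nlinarith
    · nlinarith
  have hL0 : 0 < L := by linarith
  have hw := w_norm hL0 τ
  have hre := w_re L τ
  set w : ℂ := ((1 / L : ℝ) : ℂ) + τ * Complex.I with hwd
  have hre0 : 0 < w.re := by rw [hre]; positivity
  have hre1 : w.re ≤ 1 := by rw [hre, div_le_one hL0]; linarith
  have hwn : ‖w‖ ≤ (1 + T) / L := by
    rw [le_div_iff₀ hL0]
    linarith
  rw [AAK_eq hθ hz (by linarith) h2 (by linarith) hB hN hNy hyD hD hK]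
  refine prod3_near (AA0_pos N y).le hδ0 hδ1 (hr D hyD w (hwn.trans hT)) ?_ ?_
  · exact blocks_near hC₀ hθ hc₀ hz (by linarith) h2 h3 (by linarith) hB hN hNy hy hre0.le hre1
      (hw.trans (by linarith)) hδ1 hδb
  · refine large_near hC hre0 hLz hδ1 ?_ hK
    refine le_trans ?_ hδl
    have e : 2 * w.re * (L * z) = 2 * z := by rw [hre]; field_simp
    rw [e]
    have hlog : 0 ≤ Real.log (1 + 1 / (2 * z)) := Real.log_nonneg (by
      have : 0 ≤ 1 / (2 * z) := by positivity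
      linarith)
    gcongr

theorem aak_far (hC₀ : 1 ≤ C₀) (hη : η ≤ 1) (hθ : 0 < θ) (hθ1 : θ ≤ 1)
    (hc₀ : 0 ≤ c₀) (hz : 0 < z)
    (hz1 : z ≤ 1 / 2) (h2 : z ^ θ ≤ 1 / 2) (h3 : z ^ (θ * (θ * c₀ / 2)) ≤ 1 / 2)
    (h4 : 1 ≤ θ * Real.log (1 / z)) (hLz : 5 ≤ L * z)
    (hB : BlkOK C₀ c₀ η (y : ℝ) θ z L S c) (hN : 0 < N) (hNy : N ≤ y) (hy : 2 ≤ y)
    (hyD : y ≤ D) (hD : (D : ℝ) ≤ Real.exp (L * z)) (hK : Real.exp (L * z) + 1 ≤ K) (τ : ℝ) :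
    ‖AAK N D K S c (nb θ z L + 1) (((1 / L : ℝ) : ℂ) + τ * Complex.I)‖ ≤
      (25 / 4) ^ (y + 1) * Real.exp (1216 * √C₀) * Real.exp 1792 * z ^ (-792 : ℝ) *
        (1 + |L * τ|) ^ (4 * (24001 + C₀)) := by
  have hL10 : 10 ≤ L := by
    by_contra hcon
    rw [not_le] at hcon
    rcases le_or_gt L 0 with h | h
    · nlinarith
    · nlinarith
  have hL0 : 0 < L := by linarith
  have hw := w_norm hL0 τ
  have hre := w_re L τ
  set w : ℂ := ((1 / L : ℝ) : ℂ) + τ * Complex.I with hwd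
  have hre0 : 0 < w.re := by rw [hre]; positivity
  have hre1 : w.re ≤ 1 := by rw [hre, div_le_one hL0]; linarith
  rw [AAK_eq hθ.le hz (by linarith) h2 (by linarith) hB hN hNy hyD hD hK, norm_mul, norm_mul]
  have a1 := small_far N y D (z := w) hre0.le
  have a2 := blocks_far (D := D) hC₀ hη hθ hθ1 hc₀ hz hz1 h2 h3 h4 (by linarith) hB hN hNy hy
    hre0.le hre1 (τ := 1 + |L * τ|) (by linarith [abs_nonneg (L * τ)]) hw
  have a3 := large_far (w := w) (L := L) (u₀ := L * z) (by linarith) hre (by linarith) K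
  have a4 : Real.exp (1000 + 792 * (1 + Real.log (1 + L / (2 * (L * z))))) ≤
      Real.exp 1792 * z ^ (-792 : ℝ) := by
    have e1 : L / (2 * (L * z)) = 1 / (2 * z) := by field_simp
    have e2 : (1000 + 792 * (1 + Real.log (1 + 1 / (2 * z)))) =
        1792 + 792 * Real.log (1 + 1 / (2 * z)) := by ring
    rw [e1, e2, Real.exp_add]
    have h5 : 0 < 1 + 1 / (2 * z) := by positivity
    have h6 : 1 + 1 / (2 * z) ≤ z⁻¹ := by
      have : 1 / (2 * z) = z⁻¹ / 2 := by field_simp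
      rw [this]
      have h7 : 2 ≤ z⁻¹ := by
        rw [show (2 : ℝ) = (1 / 2)⁻¹ by norm_num]
        exact inv_anti₀ hz hz1
      linarith
    have h8 : Real.exp (792 * Real.log (1 + 1 / (2 * z))) ≤ z ^ (-792 : ℝ) := by
      have h9 : Real.log (1 + 1 / (2 * z)) ≤ -Real.log z := by
        rw [← Real.log_inv]
        exact Real.log_le_log h5 h6
      rw [Real.rpow_def_of_pos hz]
      apply Real.exp_le_exp.2
      linarith
    gcongr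
  calc _ ≤ (25 / 4 : ℝ) ^ (y + 1) *
        (Real.exp (1216 * √C₀) * (1 + |L * τ|) ^ (4 * (24001 + C₀))) *
        (Real.exp 1792 * z ^ (-792 : ℝ)) := by
        have := a3.trans a4
        have h5 := abs_nonneg (L * τ)
        gcongr
    _ = _ := by ring

end

end P004E.H156
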