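import Vale.Agent.P004E.Blk
import Vale.Agent.P004.H293.PrimeSums
import Vale.Agent.P004G.H293.RA

/-!
# P004E, module F3 (part 5): the boundaries of the blocks
-/

open Finset Real

namespace P004E.H156

open P004G
open P004.H293 (sum_rpow_tail' sum_log_div sum_inv_range)

section zi

variable {θ z L : ℝ}

lemma zi_zero (θ z : ℝ) : zi θ z 0 = z := by
  unfold zi
  rw [pow_zero, Real.rpow_one]

lemma zi_pos (hz : 0 < z) (i : ℕ) : 0 < zi θ z i := Real.rpow_pos_of_pos hz _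

lemma zi_succ (hz : 0 < z) (i : ℕ) : zi θ z (i + 1) = zi θ z i * zi θ z i ^ θ := by
  unfold zi
  rw [← Real.rpow_mul hz.le, ← Real.rpow_add hz]
  congr 1
  rw [pow_succ]
  ring

lemma zi_le (hθ : 0 ≤ θ) (hz : 0 < z) (hz1 : z ≤ 1) (i : ℕ) : zi θ z i ≤ z := by
  unfold zi
  calc z ^ ((1 + θ) ^ i : ℝ) ≤ z ^ (1 : ℝ) :=
        Real.rpow_le_rpow_of_exponent_ge hz hz1 (one_le_pow₀ (by linarith))
    _ = z := Real.rpow_one z

lemma zi_half (hθ : 0 ≤ θ) (hz : 0 < z) (hz1 : z ≤ 1) (h2 : z ^ θ ≤ 1 / 2) (i : ℕ) :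
    zi θ z (i + 1) ≤ zi θ z i / 2 := by
  rw [zi_succ hz]
  have h1 : zi θ z i ^ θ ≤ z ^ θ :=
    Real.rpow_le_rpow (zi_pos hz i).le (zi_le hθ hz hz1 i) hθ
  have h3 := zi_pos (θ := θ) hz i
  calc zi θ z i * zi θ z i ^ θ ≤ zi θ z i * (1 / 2) := by gcongr; exact h1.trans h2
    _ = _ := by ring

lemma zi_pow (hθ : 0 ≤ θ) (hz : 0 < z) (hz1 : z ≤ 1) (h2 : z ^ θ ≤ 1 / 2) (i j : ℕ) :
    zi θ z (i + j) ≤ zi θ z i * (1 / 2) ^ j := by
  induction j with
  | zero => simp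
  | succ j ih =>
    have h := zi_half hθ hz hz1 h2 (i + j)
    rw [← add_assoc, pow_succ]
    linarith

lemma zi_anti (hθ : 0 ≤ θ) (hz : 0 < z) (hz1 : z ≤ 1) {i j : ℕ} (hij : i ≤ j) :
    zi θ z j ≤ zi θ z i := by
  unfold zi
  exact Real.rpow_le_rpow_of_exponent_ge hz hz1 (pow_le_pow_right₀ (by linarith) hij)

lemma nb_set_nonempty (hθ : 0 ≤ θ) (hz : 0 < z) (hz1 : z ≤ 1) (h2 : z ^ θ ≤ 1 / 2) (L : ℝ) :
    {n : ℕ | L * zi θ z (n + 1) < 1}.Nonempty := by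
  obtain ⟨n, hn⟩ := exists_nat_gt |L|
  refine ⟨n, ?_⟩
  have h3 := zi_pow hθ hz hz1 h2 0 (n + 1)
  rw [zero_add, zi_zero] at h3
  have h4 : |L| < 2 ^ (n + 1) := by
    have h5 : (n : ℝ) < 2 ^ n := by exact_mod_cast Nat.lt_two_pow_self
    rw [pow_succ]
    have : (0 : ℝ) < 2 ^ n := by positivity
    linarith
  have h5 : zi θ z (n + 1) ≤ (1 / 2) ^ (n + 1) :=
    h3.trans (mul_le_of_le_one_left (by positivity) hz1)
  have h6 := zi_pos (θ := θ) hz (n + 1)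
  show L * zi θ z (n + 1) < 1
  calc L * zi θ z (n + 1) ≤ |L| * zi θ z (n + 1) := by gcongr; exact le_abs_self L
    _ ≤ |L| * (1 / 2) ^ (n + 1) := by gcongr
    _ < 2 ^ (n + 1) * (1 / 2) ^ (n + 1) := by gcongr
    _ = 1 := by rw [← mul_pow]; norm_num

lemma nb_spec (hθ : 0 ≤ θ) (hz : 0 < z) (hz1 : z ≤ 1) (h2 : z ^ θ ≤ 1 / 2) (L : ℝ) :
    L * zi θ z (nb θ z L + 1) < 1 := Nat.sInf_mem (nb_set_nonempty hθ hz hz1 h2 L)

lemma one_le_of_le_nb (hLz : 1 ≤ L * z) {i : ℕ} (hi : i ≤ nb θ z L) : 1 ≤ L * zi θ z i := by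
  rcases Nat.eq_zero_or_pos i with rfl | h
  · rw [zi_zero]; exact hLz
  · by_contra hcon
    rw [not_le] at hcon
    have h1 : nb θ z L ≤ i - 1 := Nat.sInf_le (by
      show L * zi θ z (i - 1 + 1) < 1
      rwa [Nat.sub_add_cancel h])
    omega

lemma log_zi (hz : 0 < z) (i : ℕ) : Real.log (1 / zi θ z i) = (1 + θ) ^ i * Real.log (1 / z) := by
  unfold zi
  rw [one_div, one_div, Real.log_inv, Real.log_inv, Real.log_rpow hz]
  ring

lemma li_eq (hz : 0 < z) (i : ℕ) : li θ z i = θ * ((1 + θ) ^ i * Real.log (1 / z)) := by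
  unfold li
  rw [log_zi hz]

lemma li_nonneg (hθ : 0 ≤ θ) (hz : 0 < z) (hz1 : z ≤ 1) (i : ℕ) : 0 ≤ li θ z i := by
  rw [li_eq hz]
  have : 0 ≤ Real.log (1 / z) := Real.log_nonneg (by rw [le_div_iff₀ hz]; linarith)
  positivity

/-- `exp (-li) = zi^θ` -/
lemma exp_neg_li (hz : 0 < z) (i : ℕ) : Real.exp (-li θ z i) = zi θ z i ^ θ := by
  have h := zi_pos (θ := θ) hz i
  unfold li
  rw [Real.rpow_def_of_pos h, one_div, Real.log_inv]
  congr 1
  ring

lemma exp_li (hz : 0 < z) (i : ℕ) : Real.exp (li θ z i) * zi θ z (i + 1) = zi θ z i := by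
  have h := zi_pos (θ := θ) hz i
  rw [zi_succ hz, ← exp_neg_li hz, mul_left_comm, ← Real.exp_add]
  simp

/-- geometric decrease -/
lemma sum_geom_le {a : ℕ → ℝ} (ha : ∀ i, a (i + 1) ≤ a i / 2) (ha0 : ∀ i, 0 ≤ a i) {b : ℝ}
    (hb0 : 0 ≤ b) (R : Finset ℕ) (hR : ∀ i ∈ R, a i ≤ b) : ∑ i ∈ R, a i ≤ 2 * b := by
  classical
  rcases R.eq_empty_or_nonempty with rfl | hne
  · simp [hb0]
  set m := R.min' hne with hm
  have hmb : a m ≤ b := hR m (R.min'_mem hne)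
  have hpow : ∀ j, a (m + j) ≤ a m * (1 / 2) ^ j := by
    intro j
    induction j with
    | zero => simp
    | succ j ih =>
      have := ha (m + j)
      rw [← add_assoc, pow_succ]
      linarith
  have hsub : R ⊆ (range (R.sup id + 1)).image (fun j => m + j) := by
    intro i hi
    rw [mem_image]
    have h1 : m ≤ i := R.min'_le i hi
    have h2 : i ≤ R.sup id := Finset.le_sup (f := id) hi
    exact ⟨i - m, mem_range.2 (by omega), by omega⟩
  calc ∑ i ∈ R, a i ≤ ∑ i ∈ (range (R.sup id + 1)).image (fun j => m + j), a i :=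
        Finset.sum_le_sum_of_subset_of_nonneg hsub fun i _ _ => ha0 i
    _ = ∑ j ∈ range (R.sup id + 1), a (m + j) := by
        rw [Finset.sum_image]
        intro i _ j _ h
        simpa using h
    _ ≤ ∑ j ∈ range (R.sup id + 1), a m * (1 / 2) ^ j := Finset.sum_le_sum fun j _ => hpow j
    _ = a m * ∑ j ∈ range (R.sup id + 1), (1 / 2 : ℝ) ^ j := by rw [Finset.mul_sum]
    _ ≤ b * 2 := by
        have h3 : ∑ j ∈ range (R.sup id + 1), (1 / 2 : ℝ) ^ j ≤ 2 := by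
          have := Summable.sum_le_tsum (range (R.sup id + 1)) (fun j _ => by positivity)
            (summable_geometric_of_lt_one (by norm_num : (0 : ℝ) ≤ 1 / 2) (by norm_num))
          rw [tsum_geometric_of_lt_one (by norm_num) (by norm_num)] at this
          linarith
        have h4 : 0 ≤ ∑ j ∈ range (R.sup id + 1), (1 / 2 : ℝ) ^ j :=
          Finset.sum_nonneg fun _ _ => by positivity
        have := ha0 m
        gcongr
    _ = _ := by ring

/-- geometric increase -/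
lemma sum_geom_incr {q Λ : ℝ} (hq : 1 < q) (hΛ : 0 ≤ Λ) (R : Finset ℕ) (hR : ∀ i ∈ R, q ^ i ≤ Λ) :
    ∑ i ∈ R, q ^ i ≤ q * Λ / (q - 1) := by
  classical
  have hq1 : 0 < q - 1 := by linarith
  rcases R.eq_empty_or_nonempty with rfl | hne
  · simp only [Finset.sum_empty]
    positivity
  set m := R.max' hne with hm
  have hsub : R ⊆ range (m + 1) := fun i hi => mem_range.2 (Nat.lt_succ_of_le (R.le_max' i hi))
  have h1 : ∑ i ∈ R, q ^ i ≤ ∑ i ∈ range (m + 1), q ^ i :=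
    Finset.sum_le_sum_of_subset_of_nonneg hsub fun i _ _ => by positivity
  have h2 : ∑ i ∈ range (m + 1), q ^ i = (q ^ (m + 1) - 1) / (q - 1) :=
    geom_sum_eq (by linarith) _
  rw [h2] at h1
  refine h1.trans ?_
  have h3 := hR m (R.max'_mem hne)
  rw [div_le_div_iff_of_pos_right hq1, pow_succ]
  nlinarith

end zi

variable [Crv]

lemma mem_gp {x : ℝ} (hx : 0 ≤ x) {p : ℕ} : p ∈ gp x ↔ (p : ℝ) ≤ x ∧ p.Prime ∧ ¬ p ∣ bd := by
  unfold gp
  rw [mem_filter, mem_range, Nat.lt_succ_iff, Nat.le_floor_iff hx]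

lemma mem_Ib {y₀ θ z L : ℝ} {i p : ℕ} : p ∈ Ib y₀ θ z L i ↔
    (p : ℝ) ≤ Real.exp (L * zi θ z i) ∧ p.Prime ∧ ¬ p ∣ bd ∧ y₀ < p ∧
      (i < nb θ z L → Real.exp (L * zi θ z (i + 1)) < p) := by
  unfold Ib
  rw [mem_filter, mem_gp (Real.exp_pos _).le]
  tauto

section
variable {y₀ θ z L : ℝ} (hθ : 0 ≤ θ) (hz : 0 < z) (hz1 : z ≤ 1) (h2 : z ^ θ ≤ 1 / 2)
  (hLz : 1 ≤ L * z)
include hθ hz hz1 h2 hLz

lemma Ib_disj {i j : ℕ} (hi : i ≤ nb θ z L) (hj : j ≤ nb θ z L) (hij : i ≠ j) :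
    Disjoint (Ib y₀ θ z L i) (Ib y₀ θ z L j) := by
  have hL0 : 0 < L := by
    by_contra hcon
    rw [not_lt] at hcon
    nlinarith
  wlog h : i < j generalizing i j with H
  · exact (H hj hi hij.symm (by omega)).symm
  rw [Finset.disjoint_left]
  intro p hp hq
  have hp' := mem_Ib.1 hp
  have hq' := mem_Ib.1 hq
  have h3 := hp'.2.2.2.2 (by omega)
  have h4 : Real.exp (L * zi θ z j) ≤ Real.exp (L * zi θ z (i + 1)) := by
    apply Real.exp_le_exp.2
    have := zi_anti hθ hz hz1 (show i + 1 ≤ j by omega)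
    gcongr
  linarith [hq'.1]

lemma Ib_cover {p : ℕ} (hp : p.Prime) (hb : ¬ p ∣ bd) (hy : y₀ < p)
    (hpz : (p : ℝ) ≤ Real.exp (L * z)) : ∃ i ≤ nb θ z L, p ∈ Ib y₀ θ z L i := by
  classical
  set R := (range (nb θ z L + 1)).filter (fun i => (p : ℝ) ≤ Real.exp (L * zi θ z i)) with hR
  have h0 : 0 ∈ R := by
    rw [hR, mem_filter, zi_zero]
    exact ⟨mem_range.2 (by omega), hpz⟩
  have hne : R.Nonempty := ⟨0, h0⟩
  set i := R.max' hne with hi
  have hiR := R.max'_mem hne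
  rw [← hi, hR, mem_filter, mem_range] at hiR
  refine ⟨i, by omega, mem_Ib.2 ⟨hiR.2, hp, hb, hy, fun hlt => ?_⟩⟩
  by_contra hcon
  rw [not_lt] at hcon
  have h3 : i + 1 ∈ R := by
    rw [hR, mem_filter, mem_range]
    exact ⟨by omega, hcon⟩
  have h4 := R.le_max' (i + 1) h3
  rw [← hi] at h4
  omega

omit hz1 h2 hθ in
lemma sum_log_sq {i : ℕ} (hi : i ≤ nb θ z L) :
    ∑ p ∈ Ib y₀ θ z L i, Real.log p ^ 2 / p ≤ 8 * (L * zi θ z i) ^ 2 := by
  have h1 := one_le_of_le_nb hLz hi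
  have hx : (2 : ℝ) ≤ Real.exp (L * zi θ z i) := by
    have := Real.add_one_le_exp (L * zi θ z i)
    linarith
  have h3 := sum_log_div (S := Ib y₀ θ z L i) (fun p hp => (mem_Ib.1 hp).2.1) hx
    (fun p hp => (mem_Ib.1 hp).1)
  rw [Real.log_exp] at h3
  calc ∑ p ∈ Ib y₀ θ z L i, Real.log p ^ 2 / p
      ≤ ∑ p ∈ Ib y₀ θ z L i, (L * zi θ z i) * (Real.log p / p) := by
        refine Finset.sum_le_sum fun p hp => ?_
        have hp' := mem_Ib.1 hp
        have hp0 : (0 : ℝ) < p := by exact_mod_cast hp'.2.1.pos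
        have h4 : Real.log p ≤ L * zi θ z i := by
          rw [Real.log_le_iff_le_exp hp0]; exact hp'.1
        have h5 : 0 ≤ Real.log p := Real.log_natCast_nonneg p
        rw [sq, mul_div_assoc]
        gcongr
    _ = (L * zi θ z i) * ∑ p ∈ Ib y₀ θ z L i, Real.log p / p := by rw [Finset.mul_sum]
    _ ≤ (L * zi θ z i) * (8 * (L * zi θ z i)) := by gcongr
    _ = _ := by ring

omit hz1 in
lemma sum_inv_Ib (hz1 : z ≤ 1) {i : ℕ} (hi : i ≤ nb θ z L) :
    ∑ p ∈ Ib y₀ θ z L i, (1 : ℝ) / p ≤ 16 + 8 * li θ z i := by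
  have h1 := one_le_of_le_nb hLz hi
  have hzi := zi_pos (θ := θ) hz i
  have hzi1 := zi_pos (θ := θ) hz (i + 1)
  have hL0 : 0 < L := by
    by_contra hcon
    rw [not_lt] at hcon
    nlinarith
  have hx : (2 : ℝ) ≤ Real.exp (L * zi θ z i) := by
    have := Real.add_one_le_exp (L * zi θ z i)
    linarith
  have hll : 1 / 2 ≤ Real.log 2 := by linarith [Real.log_two_gt_d9]
  have hl2 : Real.log 2 < 1 := by linarith [Real.log_two_lt_d9]
  have hl0 := li_nonneg hθ hz hz1 i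
  -- the ratio
  have key : ∀ y : ℝ, 2 ≤ y → y ≤ Real.exp (L * zi θ z i) → L * zi θ z (i + 1) ≤ 2 * Real.log y →
      (∀ p ∈ Ib y₀ θ z L i, y ≤ p) → ∑ p ∈ Ib y₀ θ z L i, (1 : ℝ) / p ≤ 16 + 8 * li θ z i := by
    intro y hy hyx hyl hyp
    have h3 := sum_inv_range (S := Ib y₀ θ z L i) (fun p hp => (mem_Ib.1 hp).2.1) hy hyx hyp
      (fun p hp => (mem_Ib.1 hp).1)
    rw [Real.log_exp] at h3
    have hly : 0 < Real.log y := Real.log_pos (by linarith)
    have h4 : L * zi θ z i / Real.log y ≤ 2 * Real.exp (li θ z i) := by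
      rw [div_le_iff₀ hly]
      calc L * zi θ z i = Real.exp (li θ z i) * (L * zi θ z (i + 1)) := by
            rw [← exp_li hz i]; ring
        _ ≤ Real.exp (li θ z i) * (2 * Real.log y) := by gcongr
        _ = _ := by ring
    have h5 : Real.log (L * zi θ z i / Real.log y) ≤ Real.log 2 + li θ z i := by
      refine (Real.log_le_log (by positivity) h4).trans (le_of_eq ?_)
      rw [Real.log_mul (by norm_num) (Real.exp_pos _).ne', Real.log_exp]
    linarith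
  by_cases hlt : i < nb θ z L
  · have h6 := one_le_of_le_nb hLz (show i + 1 ≤ nb θ z L from hlt)
    refine key (Real.exp (L * zi θ z (i + 1))) ?_ ?_ ?_ fun p hp => ((mem_Ib.1 hp).2.2.2.2 hlt).le
    · have := Real.add_one_le_exp (L * zi θ z (i + 1))
      linarith
    · apply Real.exp_le_exp.2
      have := zi_anti hθ hz hz1 (Nat.le_succ i)
      gcongr
    · rw [Real.log_exp]
      linarith
  · have hin : i = nb θ z L := by omega
    have h6 := nb_spec hθ hz hz1 h2 L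
    rw [← hin] at h6
    refine key 2 le_rfl hx (by linarith) fun p hp => ?_
    exact_mod_cast (mem_Ib.1 hp).2.1.two_le

omit hθ hz hz1 h2 hLz in
lemma sum_three_half {S : Finset ℕ} (hS : ∀ p ∈ S, p.Prime) {x : ℝ} (hx : 2 ≤ x)
    (hS2 : ∀ p ∈ S, x ≤ p) :
    ∑ p ∈ S, (p : ℝ) ^ (-3 / 2 : ℝ) ≤ 1056 * x ^ (-1 / 2 : ℝ) := by
  have h1 := sum_rpow_tail' hS hx (σ := 1 / 2) (by norm_num) (by norm_num) hS2
  have e1 : (-1 - 1 / 2 : ℝ) = -3 / 2 := by norm_num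
  rw [e1] at h1
  refine h1.trans ?_
  have hx0 : 0 < x := by linarith
  have hlx : 1 / 2 ≤ Real.log x := by
    have h3 := Real.log_le_log (by norm_num) hx
    linarith [Real.log_two_gt_d9]
  have h2 : Real.exp (-(1 / 2) * Real.log x) = x ^ (-1 / 2 : ℝ) := by
    rw [Real.rpow_def_of_pos hx0]
    congr 1
    ring
  rw [h2]
  have hl2 : (0.693 : ℝ) ≤ Real.log x := by
    have h3 := Real.log_le_log (by norm_num) hx
    linarith [Real.log_two_gt_d9]
  have h3 : Real.log (1 + 1 / (1 / 2 * Real.log x)) ≤ 3 := by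
    have h4 : 1 / (1 / 2 * Real.log x) ≤ 3 := by
      rw [div_le_iff₀ (by positivity)]
      linarith
    have h5 : 0 < 1 / (1 / 2 * Real.log x) := by positivity
    refine (Real.log_le_sub_one_of_pos (by linarith)).trans ?_
    linarith
  have h6 : 0 < x ^ (-1 / 2 : ℝ) := Real.rpow_pos_of_pos hx0 _
  calc 264 * x ^ (-1 / 2 : ℝ) * (1 + Real.log (1 + 1 / (1 / 2 * Real.log x)))
      ≤ 264 * x ^ (-1 / 2 : ℝ) * (1 + 3) := by gcongr
    _ = _ := by ring

/-- the contribution of the third term of `close` -/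
noncomputable def bI (y₀ θ z L : ℝ) (i : ℕ) : ℝ :=
  √(∑ p ∈ Ib y₀ θ z L i, (p : ℝ) ^ (-3 / 2 : ℝ))

omit hLz in
lemma sum_bI (hLz : 1 ≤ L * z) (hy : 2 ≤ y₀) :
    ∑ i ∈ range (nb θ z L + 1), bI y₀ θ z L i ≤ 600 * y₀ ^ (-1 / 8 : ℝ) := by
  have hy0 : 0 < y₀ := by linarith
  have hL0 : 0 < L := by
    by_contra hcon
    rw [not_lt] at hcon
    nlinarith
  have hY : 0 < y₀ ^ (-1 / 8 : ℝ) := Real.rpow_pos_of_pos hy0 _
  have hY1 : y₀ ^ (-1 / 8 : ℝ) ≤ 1 := Real.rpow_le_one_of_one_le_of_nonpos (by linarith) (by norm_num)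
  have hs33 : √(1056 : ℝ) ≤ 33 := by
    rw [Real.sqrt_le_left (by norm_num)]; norm_num
  have hb1 : ∀ i, bI y₀ θ z L i ≤ 33 * (y₀ ^ (-1 / 8 : ℝ)) ^ 2 := by
    intro i
    have h1 := sum_three_half (S := Ib y₀ θ z L i) (fun p hp => (mem_Ib.1 hp).2.1) hy
      (fun p hp => (mem_Ib.1 hp).2.2.2.1.le)
    unfold bI
    refine (Real.sqrt_le_sqrt h1).trans ?_
    rw [Real.sqrt_mul (by norm_num)]
    have e : y₀ ^ (-1 / 2 : ℝ) = ((y₀ ^ (-1 / 8 : ℝ)) ^ 2) ^ 2 := by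
      rw [← pow_mul, ← Real.rpow_natCast, ← Real.rpow_mul hy0.le]
      norm_num
    rw [e, Real.sqrt_sq (by positivity)]
    gcongr
  have hb2 : ∀ i < nb θ z L, bI y₀ θ z L i ≤
      33 * (Real.exp (-(L * zi θ z (i + 1)) / 8)) ^ 2 := by
    intro i hi
    have h6 := one_le_of_le_nb hLz (show i + 1 ≤ nb θ z L from hi)
    have hx : (2 : ℝ) ≤ Real.exp (L * zi θ z (i + 1)) := by
      have := Real.add_one_le_exp (L * zi θ z (i + 1))
      linarith
    have h1 := sum_three_half (S := Ib y₀ θ z L i) (fun p hp => (mem_Ib.1 hp).2.1) hx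
      (fun p hp => ((mem_Ib.1 hp).2.2.2.2 hi).le)
    unfold bI
    refine (Real.sqrt_le_sqrt h1).trans ?_
    rw [Real.sqrt_mul (by norm_num)]
    have e : Real.exp (L * zi θ z (i + 1)) ^ (-1 / 2 : ℝ) =
        ((Real.exp (-(L * zi θ z (i + 1)) / 8)) ^ 2) ^ 2 := by
      rw [← pow_mul, ← Real.exp_nat_mul, ← Real.exp_mul]
      congr 1
      push_cast
      ring
    rw [e, Real.sqrt_sq (by positivity)]
    gcongr
  have hb3 : ∀ i < nb θ z L, bI y₀ θ z L i ≤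
      264 * y₀ ^ (-1 / 8 : ℝ) * (1 / 2) ^ (nb θ z L - 1 - i) := by
    intro i hi
    set k := nb θ z L - 1 - i with hk
    have h6 := one_le_of_le_nb hLz (le_refl (nb θ z L))
    have h7 : zi θ z (nb θ z L) ≤ zi θ z (i + 1) * (1 / 2) ^ k := by
      have := zi_pow hθ hz hz1 h2 (i + 1) k
      rwa [show i + 1 + k = nb θ z L by omega] at this
    have h8 : (2 : ℝ) ^ k ≤ L * zi θ z (i + 1) := by
      have h9 : 1 ≤ L * (zi θ z (i + 1) * (1 / 2) ^ k) := h6.trans (by gcongr)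
      have h10 : (1 / 2 : ℝ) ^ k * 2 ^ k = 1 := by rw [← mul_pow]; norm_num
      calc (2 : ℝ) ^ k = 1 * 2 ^ k := (one_mul _).symm
        _ ≤ L * (zi θ z (i + 1) * (1 / 2) ^ k) * 2 ^ k := by gcongr
        _ = L * zi θ z (i + 1) * ((1 / 2) ^ k * 2 ^ k) := by ring
        _ = _ := by rw [h10, mul_one]
    set E := Real.exp (-(L * zi θ z (i + 1)) / 8) with hE
    have hE0 : 0 < E := Real.exp_pos _
    have hEle : E ≤ 8 * (1 / 2) ^ k := by
      have h11 : E ≤ Real.exp (-(2 ^ k / 8)) := by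
        rw [hE]
        apply Real.exp_le_exp.2
        linarith
      refine h11.trans ?_
      rw [Real.exp_neg]
      have h12 := Real.add_one_le_exp ((2 : ℝ) ^ k / 8)
      have h13 : (0 : ℝ) < 2 ^ k := by positivity
      rw [inv_le_iff_one_le_mul₀ (Real.exp_pos _)]
      have h10 : (1 / 2 : ℝ) ^ k * 2 ^ k = 1 := by rw [← mul_pow]; norm_num
      calc (1 : ℝ) = 8 * (1 / 2) ^ k * (2 ^ k / 8) := by linear_combination -h10
        _ ≤ 8 * (1 / 2) ^ k * Real.exp (2 ^ k / 8) := by gcongr; linarith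
        _ = _ := by ring
    have hmin : bI y₀ θ z L i ≤ 33 * (y₀ ^ (-1 / 8 : ℝ) * E) := by
      have a1 := hb1 i
      have a2 := hb2 i hi
      have hb0 : 0 ≤ bI y₀ θ z L i := Real.sqrt_nonneg _
      refine abs_le_of_sq_le_sq' ?_ (by positivity) |>.2
      calc bI y₀ θ z L i ^ 2 = bI y₀ θ z L i * bI y₀ θ z L i := sq _
        _ ≤ (33 * (y₀ ^ (-1 / 8 : ℝ)) ^ 2) * (33 * E ^ 2) := by gcongr
        _ = _ := by ring
    calc bI y₀ θ z L i ≤ 33 * (y₀ ^ (-1 / 8 : ℝ) * E) := hmin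
      _ ≤ 33 * (y₀ ^ (-1 / 8 : ℝ) * (8 * (1 / 2) ^ k)) := by gcongr
      _ = _ := by ring
  rw [Finset.sum_range_succ]
  have hlast : bI y₀ θ z L (nb θ z L) ≤ 33 * y₀ ^ (-1 / 8 : ℝ) := by
    refine (hb1 _).trans ?_
    nlinarith
  have hfirst : ∑ i ∈ range (nb θ z L), bI y₀ θ z L i ≤ 264 * y₀ ^ (-1 / 8 : ℝ) * 2 := by
    calc ∑ i ∈ range (nb θ z L), bI y₀ θ z L i
        ≤ ∑ i ∈ range (nb θ z L), 264 * y₀ ^ (-1 / 8 : ℝ) * (1 / 2) ^ (nb θ z L - 1 - i) :=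
          Finset.sum_le_sum fun i hi => hb3 i (mem_range.1 hi)
      _ = 264 * y₀ ^ (-1 / 8 : ℝ) * ∑ i ∈ range (nb θ z L), (1 / 2 : ℝ) ^ (nb θ z L - 1 - i) := by
          rw [Finset.mul_sum]
      _ = 264 * y₀ ^ (-1 / 8 : ℝ) * ∑ i ∈ range (nb θ z L), (1 / 2 : ℝ) ^ i := by
          rw [Finset.sum_range_reflect (fun i => (1 / 2 : ℝ) ^ i)]
      _ ≤ _ := by
          have := Summable.sum_le_tsum (range (nb θ z L)) (fun j _ => by positivity)
            (summable_geometric_of_lt_one (by norm_num : (0 : ℝ) ≤ 1 / 2) (by norm_num))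
          rw [tsum_geometric_of_lt_one (by norm_num) (by norm_num)] at this
          have h3 : ∑ i ∈ range (nb θ z L), (1 / 2 : ℝ) ^ i ≤ 2 := by linarith
          gcongr
  linarith

end

end P004E.H156
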