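import Vale.Agent.P004E.H156.Large
import Vale.Agent.P004E.H156.Zi

/-!
# P004E, module F3 (part 6): the expectation over one block
-/

open Finset Real

namespace P004E.H156

open P004G
open P004.H293 (E1 EE E1_mono E1_const E1_mul_left EE_mono EE_nonneg EE_mul_left EE_prod EE_const
  Adm)
open P004G.H293 (Lp tt norm_tt_le norm_tt_le' norm_tt abs_lam_le three_le norm_tt_sq ffx E1_Lp2)

/-- the density is bounded -/
lemma prod_sq_le (S : Finset ℕ) (hS : ∀ p ∈ S, 2 ≤ p) :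
    ∏ p ∈ S, (p : ℝ) ^ 2 / ((p : ℝ) ^ 2 - 1) ≤ 2 := by
  obtain ⟨b, hb, hb2⟩ : ∃ b, 2 ≤ b ∧ ∀ p ∈ S, p ≤ b :=
    ⟨max 2 (S.sup id), le_max_left _ _, fun p hp =>
      (Finset.le_sup (f := id) hp).trans (le_max_right _ _)⟩
  have hge : ∀ p : ℕ, 2 ≤ p → 1 ≤ (p : ℝ) ^ 2 / ((p : ℝ) ^ 2 - 1) := by
    intro p hp
    have h2 : (2 : ℝ) ≤ p := by exact_mod_cast hp
    rw [le_div_iff₀ (by nlinarith)]
    linarith
  have h1 : ∏ p ∈ S, (p : ℝ) ^ 2 / ((p : ℝ) ^ 2 - 1) ≤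
      ∏ p ∈ Finset.Icc 2 b, (p : ℝ) ^ 2 / ((p : ℝ) ^ 2 - 1) := by
    have hsub : S ⊆ Finset.Icc 2 b := fun p hp => mem_Icc.2 ⟨hS p hp, hb2 p hp⟩
    rw [← Finset.prod_sdiff hsub]
    refine le_mul_of_one_le_left (Finset.prod_nonneg fun p hp => ?_)
      (P004.H293.one_le_prod_real fun p hp => hge p (mem_Icc.1 (mem_sdiff.1 hp).1).1)
    have := hge p (hS p hp)
    linarith
  refine h1.trans ?_
  have h3 : ∀ b : ℕ, 2 ≤ b → ∏ p ∈ Finset.Icc 2 b, (p : ℝ) ^ 2 / ((p : ℝ) ^ 2 - 1) =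
      2 * (b : ℝ) / (b + 1) := by
    intro b hb
    induction b, hb using Nat.le_induction with
    | base => norm_num
    | succ b hb ih =>
      rw [Finset.prod_Icc_succ_top (by omega), ih]
      have h2 : (2 : ℝ) ≤ b := by exact_mod_cast hb
      have h4 : ((b : ℝ) + 1) ^ 2 - 1 = b * (b + 2) := by ring
      push_cast
      rw [h4]
      have h5 : (b : ℝ) + 1 + 1 ≠ 0 := by positivity
      have h6 : (b : ℝ) ≠ 0 := by positivity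
      field_simp
      ring
  rw [h3 b hb, div_le_iff₀ (by positivity)]
  linarith

variable [Crv]

/-- the expectation over one block -/
noncomputable def Eb (N D : ℕ) (S : ℕ → Finset ℕ) (c : ℕ → ℕ → ℝ) (I : Finset ℕ) (i : ℕ)
    (w : ℂ) : ℂ :=
  EC I (fun ω => (Mi S c i (ffx ω) : ℂ) * ∏ p ∈ I, Gf N D p (1 + w) (ω p))

section

variable {N D : ℕ} {S : ℕ → Finset ℕ} {c : ℕ → ℕ → ℝ} {I : Finset ℕ} {i : ℕ}
  (hI : ∀ p ∈ I, p.Prime ∧ ¬ p ∣ bd ∧ ¬ p ∣ N)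
include hI

lemma Gf_prod (w : ℂ) (ω : ℕ → ℝ) : ∏ p ∈ I, Gf N D p (1 + w) (ω p) =
    ((∏ p ∈ I, wt N D p (ω p) : ℝ) : ℂ) * ∏ p ∈ I, Lp p (1 + w) (ω p) := by
  rw [Complex.ofReal_prod, ← Finset.prod_mul_distrib]
  refine Finset.prod_congr rfl fun p hp => ?_
  unfold Gf
  rw [if_neg (hI p hp).2.1]

lemma wt_prod_le (ω : ℕ → ℝ) : ∏ p ∈ I, wt N D p (ω p) ≤ 2 := by
  refine le_trans ?_ (prod_sq_le I fun p hp => (hI p hp).1.two_le)
  exact Finset.prod_le_prod (fun p hp => wt_nonneg (hI p hp).1.two_le _ _ _)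
    fun p hp => wt_le (hI p hp).1.two_le (hI p hp).2.2 _ _

lemma wt_prod_nonneg (ω : ℕ → ℝ) : 0 ≤ ∏ p ∈ I, wt N D p (ω p) :=
  Finset.prod_nonneg fun p hp => wt_nonneg (hI p hp).1.two_le _ _ _

lemma EE_wt_prod : EE I (fun ω => ∏ p ∈ I, wt N D p (ω p)) = 1 := by
  rw [EE_prod I (fun p x => wt N D p x)]
  exact Finset.prod_eq_one fun p hp => E1_wt_one (hI p hp).1.two_le N D

/-- the block expectation is close to `1` -/
lemma Eb_sub_one (w : ℂ) : ‖Eb N D S c I i w - 1‖ ≤ 2 * √(EE I (fun ω =>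
    ‖(Mi S c i (ffx ω) : ℂ) * (∏ p ∈ I, Lp p (1 + w) (ω p)) - 1‖ ^ 2)) := by
  have hS : ∀ p ∈ I, 1 ≤ p := fun p hp => (hI p hp).1.one_lt.le
  have h1 : EC I (fun ω => ((∏ p ∈ I, wt N D p (ω p) : ℝ) : ℂ)) = 1 := by
    have h := EE_wt_prod (D := D) hI
    apply Complex.ext
    · simp only [EC, Complex.ofReal_re, Complex.one_re]
      exact h
    · simp only [EC, Complex.ofReal_im, Complex.one_im]
      exact EE_const I 0
  have h2 : Eb N D S c I i w - 1 = EC I (fun ω => ((∏ p ∈ I, wt N D p (ω p) : ℝ) : ℂ) *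
      ((Mi S c i (ffx ω) : ℂ) * (∏ p ∈ I, Lp p (1 + w) (ω p)) - 1)) := by
    have e : Eb N D S c I i w - 1 = Eb N D S c I i w -
        EC I (fun ω => ((∏ p ∈ I, wt N D p (ω p) : ℝ) : ℂ)) := by rw [h1]
    rw [e, Eb, ← EC_sub]
    congr 1
    funext ω
    rw [Gf_prod hI]
    ring
  rw [h2]
  refine (norm_EC_le hS _).trans ?_
  have h3 : EE I (fun ω => ‖((∏ p ∈ I, wt N D p (ω p) : ℝ) : ℂ) *
      ((Mi S c i (ffx ω) : ℂ) * (∏ p ∈ I, Lp p (1 + w) (ω p)) - 1)‖) ≤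
      EE I (fun ω => 2 * ‖(Mi S c i (ffx ω) : ℂ) * (∏ p ∈ I, Lp p (1 + w) (ω p)) - 1‖) := by
    refine EE_mono hS fun ω _ => ?_
    rw [norm_mul, Complex.norm_real, Real.norm_of_nonneg (wt_prod_nonneg hI ω)]
    exact mul_le_mul_of_nonneg_right (wt_prod_le hI ω) (norm_nonneg _)
  refine h3.trans ?_
  rw [EE_mul_left]
  have h4 := EE_sq_le hS
    (fun ω => ‖(Mi S c i (ffx ω) : ℂ) * (∏ p ∈ I, Lp p (1 + w) (ω p)) - 1‖)
  have h5 := Real.le_sqrt_of_sq_le h4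
  gcongr

/-- the crude bound for the block expectation -/
lemma norm_Eb_le {w : ℂ} (hw : 0 ≤ w.re) : ‖Eb N D S c I i w‖ ≤
    2 * (√(EE I (fun ω => Mi S c i (ffx ω) ^ 2)) *
      Real.exp (1500 * ∑ p ∈ I, (1 : ℝ) / p)) := by
  have hS : ∀ p ∈ I, 1 ≤ p := fun p hp => (hI p hp).1.one_lt.le
  refine (norm_EC_le hS _).trans ?_
  have h3 : EE I (fun ω => ‖(Mi S c i (ffx ω) : ℂ) * ∏ p ∈ I, Gf N D p (1 + w) (ω p)‖) ≤
      EE I (fun ω => 2 * (|Mi S c i (ffx ω)| * ∏ p ∈ I, ‖Lp p (1 + w) (ω p)‖)) := by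
    refine EE_mono hS fun ω _ => ?_
    rw [Gf_prod hI, norm_mul, norm_mul, Complex.norm_real, Complex.norm_real,
      Real.norm_of_nonneg (wt_prod_nonneg hI ω), norm_prod, Real.norm_eq_abs]
    have h4 : 0 ≤ |Mi S c i (ffx ω)| * ∏ p ∈ I, ‖Lp p (1 + w) (ω p)‖ :=
      mul_nonneg (abs_nonneg _) (Finset.prod_nonneg fun _ _ => norm_nonneg _)
    have := mul_le_mul_of_nonneg_right (wt_prod_le hI (D := D) ω) h4
    linarith
  refine h3.trans ?_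
  rw [EE_mul_left]
  refine mul_le_mul_of_nonneg_left ?_ (by norm_num)
  have h5 := EE_cs hS (fun ω => |Mi S c i (ffx ω)|) (fun ω => ∏ p ∈ I, ‖Lp p (1 + w) (ω p)‖)
  have h6 : EE I (fun ω => (∏ p ∈ I, ‖Lp p (1 + w) (ω p)‖) ^ 2) ≤
      Real.exp (1500 * ∑ p ∈ I, (1 : ℝ) / p) ^ 2 := by
    have e : (fun ω : ℕ → ℝ => (∏ p ∈ I, ‖Lp p (1 + w) (ω p)‖) ^ 2) =
        fun ω => ∏ p ∈ I, (fun (p : ℕ) (x : ℝ) => ‖Lp p (1 + w) x‖ ^ 2) p (ω p) := by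
      funext ω
      rw [← Finset.prod_pow]
    rw [e, EE_prod I (fun (p : ℕ) (x : ℝ) => ‖Lp p (1 + w) x‖ ^ 2), ← Real.exp_nat_mul,
      show ((2 : ℕ) : ℝ) * (1500 * ∑ p ∈ I, (1 : ℝ) / p) = ∑ p ∈ I, 3000 * (1 / (p : ℝ)) by
        rw [← Finset.mul_sum]; push_cast; ring, Real.exp_sum]
    refine Finset.prod_le_prod (fun p hp => ?_) fun p hp => ?_
    · have := E1_mono (hS p hp) (G := fun _ => 0)
        (H := fun x => ‖Lp p (1 + w) x‖ ^ 2) (fun x _ => by positivity)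
      rwa [E1_const] at this
    · obtain ⟨hp1, hp2, -⟩ := hI p hp
      have h7 := E1_Lp2 pfCoef hp1 (three_le hp1 hp2) hw
      have h8 := norm_tt_sq_le (three_le hp1 hp2) hw
      have h9 := Real.add_one_le_exp (3000 * (1 / (p : ℝ)))
      linarith
  have hM0 : 0 ≤ EE I (fun ω => Mi S c i (ffx ω) ^ 2) := EE_nonneg hS fun _ _ => sq_nonneg _
  have h7 : EE I (fun ω => |Mi S c i (ffx ω)| * ∏ p ∈ I, ‖Lp p (1 + w) (ω p)‖) ^ 2 ≤
      (√(EE I (fun ω => Mi S c i (ffx ω) ^ 2)) * Real.exp (1500 * ∑ p ∈ I, (1 : ℝ) / p)) ^ 2 := by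
    rw [mul_pow, Real.sq_sqrt hM0]
    refine h5.trans ?_
    simp only [sq_abs]
    exact mul_le_mul_of_nonneg_left h6 hM0
  exact le_of_sq_le_sq h7 (by positivity)

end

end P004E.H156
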