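import Vale.Agent.P004.H293.Rand

/-!
# P004E, module F3 (part 2): complex valued expectations
-/

open Finset Real

namespace P004E.H156

open P004.H293

/-- complex expectation over the coordinates in `S` -/
noncomputable def EC (S : Finset ℕ) (F : (ℕ → ℝ) → ℂ) : ℂ :=
  ⟨EE S (fun ω => (F ω).re), EE S (fun ω => (F ω).im)⟩

/-- complex expectation over one coordinate -/
noncomputable def EC1 (p : ℕ) (G : ℝ → ℂ) : ℂ := ⟨E1 p (fun x => (G x).re), E1 p (fun x => (G x).im)⟩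

lemma EC1_eq (p : ℕ) (G : ℝ → ℂ) :
    EC1 p G = (1 / p : ℂ) * G 0 + ((1 : ℂ) - 1 / p) / 2 * (G 1 + G (-1)) := by
  have e1 : (1 / p : ℂ) = ((1 / p : ℝ) : ℂ) := by push_cast; rfl
  have e2 : ((1 : ℂ) - 1 / p) / 2 = (((1 - 1 / p) / 2 : ℝ) : ℂ) := by push_cast; rfl
  rw [e2, e1]
  apply Complex.ext
  · simp only [EC1, E1, Complex.add_re, Complex.re_ofReal_mul]
  · simp only [EC1, E1, Complex.add_im, Complex.im_ofReal_mul]

/-- `F` depends only on the coordinates in `S` -/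
def DepC (S : Finset ℕ) (F : (ℕ → ℝ) → ℂ) : Prop :=
  ∀ ω ω' : ℕ → ℝ, (∀ p ∈ S, ω p = ω' p) → F ω = F ω'

lemma DepC.re {S : Finset ℕ} {F : (ℕ → ℝ) → ℂ} (h : DepC S F) : DepOn S (fun ω => (F ω).re) :=
  fun ω ω' hω => by simp only [h ω ω' hω]

lemma DepC.im {S : Finset ℕ} {F : (ℕ → ℝ) → ℂ} (h : DepC S F) : DepOn S (fun ω => (F ω).im) :=
  fun ω ω' hω => by simp only [h ω ω' hω]

lemma DepC.mono {S T : Finset ℕ} {F : (ℕ → ℝ) → ℂ} (h : DepC S F) (hST : S ⊆ T) : DepC T F :=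
  fun ω ω' hω => h ω ω' fun p hp => hω p (hST hp)

lemma DepC.mul {S : Finset ℕ} {F G : (ℕ → ℝ) → ℂ} (hF : DepC S F) (hG : DepC S G) :
    DepC S (fun ω => F ω * G ω) := by
  intro ω ω' h
  simp only [hF ω ω' h, hG ω ω' h]

lemma DepC.prod {ι : Type*} {S : Finset ℕ} (T : Finset ι) {F : ι → (ℕ → ℝ) → ℂ}
    (hF : ∀ i ∈ T, DepC S (F i)) : DepC S (fun ω => ∏ i ∈ T, F i ω) := by
  intro ω ω' h
  exact Finset.prod_congr rfl fun i hi => hF i hi ω ω' h

lemma EC_congr {S : Finset ℕ} {F G : (ℕ → ℝ) → ℂ} (h : ∀ ω, Adm S ω → F ω = G ω) :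
    EC S F = EC S G := by
  unfold EC
  rw [EE_congr (F := fun ω => (F ω).re) (G := fun ω => (G ω).re) fun ω hω => by rw [h ω hω],
    EE_congr (F := fun ω => (F ω).im) (G := fun ω => (G ω).im) fun ω hω => by rw [h ω hω]]

lemma EC_const (S : Finset ℕ) (c : ℂ) : EC S (fun _ => c) = c := by
  unfold EC
  rw [EE_const, EE_const]

lemma EC_add (S : Finset ℕ) (F G : (ℕ → ℝ) → ℂ) :
    EC S (fun ω => F ω + G ω) = EC S F + EC S G := by
  apply Complex.ext
  · simp only [EC, Complex.add_re]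
    exact EE_add _ _ _
  · simp only [EC, Complex.add_im]
    exact EE_add _ _ _

lemma EC_sub (S : Finset ℕ) (F G : (ℕ → ℝ) → ℂ) :
    EC S (fun ω => F ω - G ω) = EC S F - EC S G := by
  apply Complex.ext
  · simp only [EC, Complex.sub_re]
    exact EE_sub _ _ _
  · simp only [EC, Complex.sub_im]
    exact EE_sub _ _ _

lemma EC_mul_left (S : Finset ℕ) (c : ℂ) (F : (ℕ → ℝ) → ℂ) :
    EC S (fun ω => c * F ω) = c * EC S F := by
  apply Complex.ext
  · simp only [EC, Complex.mul_re]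
    rw [EE_sub, EE_mul_left, EE_mul_left]
  · simp only [EC, Complex.mul_im]
    rw [EE_add, EE_mul_left, EE_mul_left]

/-- independence -/
theorem EC_union {S T : Finset ℕ} (hST : Disjoint S T) {F G : (ℕ → ℝ) → ℂ} (hF : DepC S F)
    (hG : DepC T G) : EC (S ∪ T) (fun ω => F ω * G ω) = EC S F * EC T G := by
  apply Complex.ext
  · simp only [EC, Complex.mul_re]
    rw [EE_sub, EE_union hST hF.re hG.re, EE_union hST hF.im hG.im]
  · simp only [EC, Complex.mul_im]
    rw [EE_add, EE_union hST hF.re hG.im, EE_union hST hF.im hG.re]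

/-- independence over a finite family of pairwise disjoint blocks -/
theorem EC_biUnion {ι : Type*} [DecidableEq ι] (J : Finset ι) (I : ι → Finset ℕ)
    (hI : (J : Set ι).PairwiseDisjoint I) (F : ι → (ℕ → ℝ) → ℂ)
    (hF : ∀ i ∈ J, DepC (I i) (F i)) :
    EC (J.biUnion I) (fun ω => ∏ i ∈ J, F i ω) = ∏ i ∈ J, EC (I i) (F i) := by
  classical
  induction J using Finset.induction_on with
  | empty => simp [EC_const]
  | insert i J hi ih =>
    have hI' : (J : Set ι).PairwiseDisjoint I := hI.subset (by simp)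
    rw [Finset.biUnion_insert, Finset.prod_insert hi,
      ← ih hI' (fun j hj => hF j (mem_insert_of_mem hj)), ← EC_union]
    · congr 1
      funext ω
      rw [Finset.prod_insert hi]
    · rw [Finset.disjoint_biUnion_right]
      intro j hj
      exact hI (by simp) (by simp [hj]) (fun h => hi (h ▸ hj))
    · exact hF i (mem_insert_self _ _)
    · refine DepC.prod J fun j hj => (hF j (mem_insert_of_mem hj)).mono ?_
      exact Finset.subset_biUnion_of_mem I hj

lemma EC_singleton (p : ℕ) (G : ℝ → ℂ) : EC {p} (fun ω => G (ω p)) = EC1 p G := by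
  unfold EC EC1
  rw [EE_singleton p (fun x => (G x).re), EE_singleton p (fun x => (G x).im)]

/-- the expectation of a product of functions of single coordinates -/
theorem EC_prod (S : Finset ℕ) (G : ℕ → ℝ → ℂ) :
    EC S (fun ω => ∏ p ∈ S, G p (ω p)) = ∏ p ∈ S, EC1 p (G p) := by
  classical
  have h := EC_biUnion S (fun p => {p}) (by
    intro p _ q _ hpq
    simpa [Function.onFun] using hpq) (fun p ω => G p (ω p)) (by
    intro p _ ω ω' h
    simp only
    rw [h p (by simp)])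
  simp only [EC_singleton] at h
  rw [← h]
  congr 1
  ext p
  simp

/-- coordinates on which the function does not depend can be dropped -/
theorem EC_of_depC {S T : Finset ℕ} (hST : S ⊆ T) {F : (ℕ → ℝ) → ℂ} (hF : DepC S F) :
    EC T F = EC S F := by
  unfold EC
  rw [EE_of_depOn hST hF.re, EE_of_depOn hST hF.im]

/-- the triangle inequality -/
theorem norm_EC_le {S : Finset ℕ} (hS : ∀ p ∈ S, 1 ≤ p) (F : (ℕ → ℝ) → ℂ) :
    ‖EC S F‖ ≤ EE S (fun ω => ‖F ω‖) := by
  set z := EC S F with hz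
  by_cases h0 : z = 0
  · rw [h0, norm_zero]
    exact EE_nonneg hS fun ω _ => norm_nonneg _
  have hn : 0 < ‖z‖ := norm_pos_iff.2 h0
  set u : ℂ := (starRingEnd ℂ) z / ‖z‖ with hu
  have hu1 : ‖u‖ = 1 := by
    rw [hu, norm_div, Complex.norm_conj, Complex.norm_real, Real.norm_of_nonneg hn.le]
    exact div_self hn.ne'
  have h1 : (‖z‖ : ℂ) = u * z := by
    rw [hu, div_mul_eq_mul_div, mul_comm, Complex.mul_conj, Complex.normSq_eq_norm_sq]
    push_cast
    have : (‖z‖ : ℂ) ≠ 0 := by exact_mod_cast hn.ne'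
    field_simp
  have h2 : ‖z‖ = EE S (fun ω => (u * F ω).re) := by
    have h3 : (u * z).re = EE S (fun ω => (u * F ω).re) := by
      rw [hz, ← EC_mul_left]
      rfl
    rw [← h3, ← h1, Complex.ofReal_re]
  rw [h2]
  refine EE_mono hS fun ω _ => ?_
  refine (Complex.re_le_norm _).trans (le_of_eq ?_)
  rw [norm_mul, hu1, one_mul]

/-- Jensen -/
theorem EE_sq_le {S : Finset ℕ} (hS : ∀ p ∈ S, 1 ≤ p) (f : (ℕ → ℝ) → ℝ) :
    EE S f ^ 2 ≤ EE S (fun ω => f ω ^ 2) := by
  set c := EE S f with hc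
  have h1 : 0 ≤ EE S (fun ω => (f ω - c) ^ 2) := EE_nonneg hS fun ω _ => sq_nonneg _
  have h2 : EE S (fun ω => (f ω - c) ^ 2) = EE S (fun ω => f ω ^ 2) - c ^ 2 := by
    have e : (fun ω => (f ω - c) ^ 2) = fun ω => (f ω ^ 2 + (-2 * c) * f ω) + c ^ 2 := by
      funext ω; ring
    rw [e, EE_add, EE_add, EE_mul_left, EE_const, ← hc]
    ring
  linarith [h2 ▸ h1]

/-- Cauchy-Schwarz -/
theorem EE_cs {S : Finset ℕ} (hS : ∀ p ∈ S, 1 ≤ p) (f g : (ℕ → ℝ) → ℝ) :
    EE S (fun ω => f ω * g ω) ^ 2 ≤ EE S (fun ω => f ω ^ 2) * EE S (fun ω => g ω ^ 2) := by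
  set a := EE S (fun ω => f ω ^ 2) with ha
  set b := EE S (fun ω => f ω * g ω) with hb
  set c := EE S (fun ω => g ω ^ 2) with hc
  have ha0 : 0 ≤ a := EE_nonneg hS fun ω _ => sq_nonneg _
  have hc0 : 0 ≤ c := EE_nonneg hS fun ω _ => sq_nonneg _
  have key : ∀ t : ℝ, 0 ≤ a * (t * t) + (2 * b) * t + c := by
    intro t
    have h1 : 0 ≤ EE S (fun ω => (t * f ω + g ω) ^ 2) := EE_nonneg hS fun ω _ => sq_nonneg _
    have e : (fun ω => (t * f ω + g ω) ^ 2) =
        fun ω => (t ^ 2 * f ω ^ 2 + (2 * t) * (f ω * g ω)) + g ω ^ 2 := by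
      funext ω; ring
    rw [e, EE_add, EE_add, EE_mul_left, EE_mul_left, ← ha, ← hb, ← hc] at h1
    nlinarith
  have h := discrim_le_zero key
  unfold discrim at h
  nlinarith

end P004E.H156
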