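import Vale.Agent.P004E.H156.BlkEx

/-!
# P004E, module F3 (part 7): factorisation of the expectation
-/

open Finset Real

namespace P004E.H156

open P004G
open P004.H293 (E1 EE EE_mono EE_nonneg Adm)
open P004G.H293 (Lp QN mem_QN LN_eq ffx)

variable [Crv]

/-- the expectation of the mollified Euler product -/
noncomputable def AAK (N D K : ℕ) (S : ℕ → Finset ℕ) (c : ℕ → ℕ → ℝ) (n : ℕ) (w : ℂ) : ℂ :=
  EC (range K) (fun ω => ((WW N D K (P004.H628.ffx ω) *
    ∏ i ∈ range n, Mi S c i (P004.H628.ffx ω) : ℝ) : ℂ) * LN K (P004.H628.ffx ω) (1 + w))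

lemma WW_LN (N D K : ℕ) (w : ℂ) (ω : ℕ → ℝ) :
    (WW N D K (P004.H628.ffx ω) : ℂ) * LN K (P004.H628.ffx ω) (1 + w) =
      ∏ p ∈ K.primesBelow, Gf N D p (1 + w) (ω p) := by
  unfold WW LN
  rw [Complex.ofReal_prod, ← Finset.prod_mul_distrib]
  refine Finset.prod_congr rfl fun p hp => ?_
  have hpp := Nat.prime_of_mem_primesBelow hp
  rw [P004.H628.ffx_prime ω hpp]
  unfold Gf Lp
  split_ifs <;> rfl

omit [Crv] in
lemma ffx_dep {T : Finset ℕ} {a : ℕ} (ha : a.primeFactors ⊆ T) {ω ω' : ℕ → ℝ}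
    (h : ∀ p ∈ T, ω p = ω' p) : P004.H628.ffx ω a = P004.H628.ffx ω' a := by
  unfold P004.H628.ffx
  exact Finset.prod_congr rfl fun p hp => by rw [h p (ha hp)]

lemma Mi_dep {S : ℕ → Finset ℕ} {c : ℕ → ℕ → ℝ} {i : ℕ} {T : Finset ℕ}
    (hS : ∀ a ∈ S i, ∀ p : ℕ, p.Prime → p ∣ a → p ∈ T) :
    DepC T (fun ω => ((Mi S c i (P004.H628.ffx ω) : ℝ) : ℂ)) := by
  intro ω ω' h
  have e : Mi S c i (P004.H628.ffx ω) = Mi S c i (P004.H628.ffx ω') := by
    unfold Mi
    refine Finset.sum_congr rfl fun a ha => ?_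
    rw [ffx_dep (T := T) (fun p hp => hS a ha p (Nat.prime_of_mem_primeFactors hp)
      (Nat.dvd_of_mem_primeFactors hp)) h]
  simp only [e]

section

variable {C₀ c₀ η θ z L : ℝ} {y N D K : ℕ} {S : ℕ → Finset ℕ} {c : ℕ → ℕ → ℝ}

theorem AAK_eq (hθ : 0 ≤ θ) (hz : 0 < z) (hz1 : z ≤ 1) (h2 : z ^ θ ≤ 1 / 2) (hLz : 1 ≤ L * z)
    (hB : BlkOK C₀ c₀ η (y : ℝ) θ z L S c) (hN : 0 < N) (hNy : N ≤ y) (hyD : y ≤ D)
    (hD : (D : ℝ) ≤ Real.exp (L * z)) (hK : Real.exp (L * z) + 1 ≤ K) (w : ℂ) :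
    AAK N D K S c (nb θ z L + 1) w =
      (∏ p ∈ (y + 1).primesBelow, Ge N D p (1 + w)) *
      (∏ i ∈ range (nb θ z L + 1), Eb N D S c (Ib y θ z L i) i w) *
      ∏ p ∈ LPr K (L * z), EC1 p (fun x => Lp p (1 + w) x) := by
  classical
  set J := range (nb θ z L + 1) with hJ
  set I : ℕ → Finset ℕ := fun i => Ib y θ z L i with hI
  set U := J.biUnion I with hU
  set Q := K.primesBelow with hQ
  have hdisj : (J : Set ℕ).PairwiseDisjoint I := by
    intro i hi j hj hij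
    rw [hJ, Finset.coe_range, Set.mem_Iio] at hi hj
    exact Ib_disj hθ hz hz1 h2 hLz (by omega) (by omega) hij
  have hIle : ∀ i, ∀ p ∈ I i, (p : ℝ) ≤ Real.exp (L * z) := by
    intro i p hp
    have h3 := (mem_Ib.1 hp).1
    refine h3.trans (Real.exp_le_exp.2 ?_)
    have h4 := zi_le hθ hz hz1 i
    have hL0 : 0 < L := by
      by_contra hcon
      rw [not_lt] at hcon
      nlinarith
    gcongr
  have hUQ : U ⊆ Q := by
    intro p hp
    obtain ⟨i, _, hi⟩ := mem_biUnion.1 hp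
    rw [hQ, Nat.mem_primesBelow]
    refine ⟨?_, (mem_Ib.1 hi).2.1⟩
    have h3 : (p : ℝ) < K := by linarith [hIle i p hi]
    exact_mod_cast h3
  have hQr : U ∪ (Q \ U) ⊆ range K := by
    rw [Finset.union_sdiff_of_subset hUQ]
    intro p hp
    exact mem_range.2 (Nat.lt_of_mem_primesBelow hp)
  -- the function
  have hF : ∀ ω : ℕ → ℝ, ((WW N D K (P004.H628.ffx ω) *
      ∏ i ∈ J, Mi S c i (P004.H628.ffx ω) : ℝ) : ℂ) * LN K (P004.H628.ffx ω) (1 + w) =
      (∏ i ∈ J, ((Mi S c i (P004.H628.ffx ω) : ℂ) * ∏ p ∈ I i, Gf N D p (1 + w) (ω p))) *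
        ∏ p ∈ Q \ U, Gf N D p (1 + w) (ω p) := by
    intro ω
    have h3 := WW_LN N D K w ω
    have h4 : ∏ p ∈ U, Gf N D p (1 + w) (ω p) = ∏ i ∈ J, ∏ p ∈ I i, Gf N D p (1 + w) (ω p) := by
      rw [hU, Finset.prod_biUnion hdisj]
    rw [← hQ, ← Finset.prod_sdiff hUQ, h4] at h3
    rw [Finset.prod_mul_distrib]
    push_cast
    linear_combination (∏ i ∈ J, (Mi S c i (P004.H628.ffx ω) : ℂ)) * h3
  have hd1 : ∀ i ∈ J, DepC (I i) (fun ω => (Mi S c i (P004.H628.ffx ω) : ℂ) *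
      ∏ p ∈ I i, Gf N D p (1 + w) (ω p)) := by
    intro i hi
    rw [hJ, mem_range] at hi
    refine DepC.mul (Mi_dep fun a ha p hp hpa => (hB.supp i (by omega) a ha).2.2 p hp hpa) ?_
    intro ω ω' h
    exact Finset.prod_congr rfl fun p hp => by rw [h p hp]
  have hd2 : DepC U (fun ω => ∏ i ∈ J, ((Mi S c i (P004.H628.ffx ω) : ℂ) *
      ∏ p ∈ I i, Gf N D p (1 + w) (ω p))) :=
    DepC.prod J fun i hi => (hd1 i hi).mono (Finset.subset_biUnion_of_mem _ hi)
  have hd3 : DepC (Q \ U) (fun ω => ∏ p ∈ Q \ U, Gf N D p (1 + w) (ω p)) := by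
    intro ω ω' h
    exact Finset.prod_congr rfl fun p hp => by rw [h p hp]
  have h5 : AAK N D K S c (nb θ z L + 1) w =
      (∏ i ∈ J, Eb N D S c (I i) i w) * ∏ p ∈ Q \ U, Ge N D p (1 + w) := by
    unfold AAK
    rw [← hJ]
    simp only [hF]
    rw [EC_of_depC hQr ((hd2.mono subset_union_left).mul (hd3.mono subset_union_right)),
      EC_union disjoint_sdiff hd2 hd3, hU, EC_biUnion J I hdisj _ hd1,
      EC_prod _ (fun p x => Gf N D p (1 + w) x)]
    rfl
  rw [h5]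
  -- the remaining primes
  have h6 : ∏ p ∈ Q \ U, Ge N D p (1 + w) = (∏ p ∈ (y + 1).primesBelow, Ge N D p (1 + w)) *
      ∏ p ∈ LPr K (L * z), EC1 p (fun x => Lp p (1 + w) x) := by
    rw [← Finset.prod_filter_mul_prod_filter_not (Q \ U) (fun p => p ≤ y)]
    have e1 : (Q \ U).filter (fun p => p ≤ y) = (y + 1).primesBelow := by
      ext p
      rw [mem_filter, mem_sdiff, hQ, Nat.mem_primesBelow, Nat.mem_primesBelow]
      constructor
      · rintro ⟨⟨⟨-, hp⟩, -⟩, h⟩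
        exact ⟨by omega, hp⟩
      · rintro ⟨h, hp⟩
        refine ⟨⟨⟨?_, hp⟩, fun hpU => ?_⟩, by omega⟩
        · have h7 : (p : ℝ) < K := by
            have : (p : ℝ) ≤ y := by exact_mod_cast (by omega : p ≤ y)
            have : (y : ℝ) ≤ D := by exact_mod_cast hyD
            linarith
          exact_mod_cast h7
        · obtain ⟨i, _, hi⟩ := mem_biUnion.1 hpU
          have h8 := (mem_Ib.1 hi).2.2.2.1
          have h9 : y < p := by exact_mod_cast h8
          omega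
    have e2 : ∏ p ∈ (Q \ U).filter (fun p => ¬ p ≤ y), Ge N D p (1 + w) =
        ∏ p ∈ LPr K (L * z), Ge N D p (1 + w) := by
      symm
      refine Finset.prod_subset (fun p hp => ?_) fun p hp hp' => ?_
      · have hp' := mem_LPr.1 hp
        rw [mem_filter, mem_sdiff, hQ, Nat.mem_primesBelow]
        refine ⟨⟨⟨hp'.1, hp'.2.1⟩, fun hpU => ?_⟩, ?_⟩
        · obtain ⟨i, _, hi⟩ := mem_biUnion.1 hpU
          linarith [hIle i p hi, hp'.2.2.2]
        · have h7 : (y : ℝ) < p := by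
            have : (y : ℝ) ≤ D := by exact_mod_cast hyD
            linarith [hp'.2.2.2]
          have h8 : y < p := by exact_mod_cast h7
          omega
      · rw [mem_filter, mem_sdiff, hQ, Nat.mem_primesBelow] at hp
        obtain ⟨⟨⟨h7, h8⟩, h9⟩, h10⟩ := hp
        by_cases hb : p ∣ bd
        · exact Ge_bad h8 N D hb _
        · exfalso
          by_cases h11 : Real.exp (L * z) < p
          · exact hp' (mem_LPr.2 ⟨h7, h8, hb, h11⟩)
          · rw [not_lt] at h11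
            obtain ⟨i, hi, hi'⟩ := Ib_cover (y₀ := (y : ℝ)) hθ hz hz1 h2 hLz h8 hb
              (by exact_mod_cast (by omega : y < p)) h11
            exact h9 (mem_biUnion.2 ⟨i, mem_range.2 (by omega), hi'⟩)
    rw [e1, e2]
    congr 1
    refine Finset.prod_congr rfl fun p hp => ?_
    have hp' := mem_LPr.1 hp
    have h7 : (D : ℝ) < p := by linarith [hp'.2.2.2]
    have h8 : D < p := by exact_mod_cast h7
    refine Ge_large (fun hdvd => ?_) h8 hp'.2.2.1 _
    have := Nat.le_of_dvd hN hdvd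
    omega
  rw [h6]
  ring

end

end P004E.H156
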