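import Vale.Agent.P004.H394.Wf
import Vale.Agent.P004.H628.Four

/-!
# P004E, module F3 (part 9): Fourier analysis of the main window
-/

open Real MeasureTheory Set
open scoped FourierTransform

namespace P004E.H156

open P004 (ηf)
open P004.H628 (iteratedDeriv_ofReal pow_aux)

/-- the Fourier coefficient function of `k` -/
noncomputable def gF (k : ℝ → ℝ) (τ : ℝ) : ℂ :=
  ((2 * π : ℝ) : ℂ)⁻¹ * 𝓕 (fun x : ℝ => (k x : ℂ)) (τ * (2 * π)⁻¹)

theorem gF_spec (B : ℕ) {w I₀ I₁ : ℝ} {k : ℝ → ℝ} (hw : 0 < w) (hk : ContDiff ℝ (B + 2 : ℕ) k)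
    (hint : ∀ i ≤ B + 2, Integrable (iteratedDeriv i k)) (h0 : (∫ x, |k x|) ≤ I₀)
    (h1 : (∫ x, |iteratedDeriv (B + 2) k x|) ≤ I₁) :
    Continuous (gF k) ∧ Integrable (gF k) ∧
    (∀ x : ℝ, (k x : ℂ) = ∫ τ : ℝ, gF k τ * Complex.exp (τ * x * Complex.I)) ∧
    Integrable (fun τ => ‖gF k τ‖ * (1 + |τ| * w) ^ B) ∧
    (∫ τ, ‖gF k τ‖ * (1 + |τ| * w) ^ B) ≤ 2 ^ (B + 2) * (I₀ / w + w ^ (B + 1) * I₁) := by
  set f : ℝ → ℂ := fun x => (k x : ℂ) with hf
  have hfc : ContDiff ℝ (B + 2 : ℕ) f := Complex.ofRealCLM.contDiff.comp hk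
  have hder : ∀ n ≤ B + 2, iteratedDeriv n f = fun x => ((iteratedDeriv n k x : ℝ) : ℂ) := by
    intro n hn
    exact iteratedDeriv_ofReal k n (hk.of_le (by exact_mod_cast hn))
  have hfint : ∀ n ≤ B + 2, Integrable (iteratedDeriv n f) := by
    intro n hn
    rw [hder n hn]
    exact (hint n hn).ofReal
  have hfi : Integrable f := by simpa using hfint 0 (Nat.zero_le _)
  set F : ℝ → ℂ := 𝓕 f with hF
  have hFc : Continuous F := by
    have := VectorFourier.fourierIntegral_continuous (e := Real.fourierChar) (μ := volume)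
      (L := innerₗ ℝ) Real.continuous_fourierChar continuous_inner hfi
    exact this
  have hF0 : ∀ t, ‖F t‖ ≤ I₀ := by
    intro t
    refine le_trans (VectorFourier.norm_fourierIntegral_le_integral_norm _ _ _ _ _) ?_
    simpa [hf] using h0
  have hF1 : ∀ t, (2 * π * |t|) ^ (B + 2) * ‖F t‖ ≤ I₁ := by
    intro t
    have h2 : 𝓕 (iteratedDeriv (B + 2) f) t = (2 * π * Complex.I * t) ^ (B + 2) • F t := by
      have := Real.fourier_iteratedDeriv (f := f) (N := ((B + 2 : ℕ) : ℕ∞)) (n := B + 2)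
        (by exact_mod_cast hfc) (fun n hn => hfint n (by exact_mod_cast hn)) (by rfl)
      exact congrFun this t
    have h3 : ‖𝓕 (iteratedDeriv (B + 2) f) t‖ ≤ I₁ := by
      refine le_trans (VectorFourier.norm_fourierIntegral_le_integral_norm _ _ _ _ _) ?_
      rw [hder (B + 2) le_rfl]
      simpa using h1
    rw [h2] at h3
    simpa [norm_smul, abs_of_pos pi_pos] using h3
  have hpi : (0 : ℝ) < 2 * π := by positivity
  have hpc : ((2 * π : ℝ) : ℂ) ≠ 0 := by exact_mod_cast hpi.ne'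
  have hI₀ : 0 ≤ I₀ := le_trans (norm_nonneg _) (hF0 0)
  have hI₁ : 0 ≤ I₁ := le_trans (by positivity) (hF1 0)
  set g : ℝ → ℂ := gF k with hgg
  have hg : g = fun τ => ((2 * π : ℝ) : ℂ)⁻¹ * F (τ * (2 * π)⁻¹) := rfl
  have hgc : Continuous g := by
    rw [hg]
    refine continuous_const.mul (hFc.comp (continuous_id.mul continuous_const))
  have hgn : ∀ τ, ‖g τ‖ = (2 * π)⁻¹ * ‖F (τ * (2 * π)⁻¹)‖ := by
    intro τ
    simp [hg, abs_of_pos pi_pos]
  have key : ∀ τ, ‖g τ‖ * (1 + |τ| * w) ^ B ≤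
      (2 ^ (B + 2) * (2 * π)⁻¹ * (I₀ + w ^ (B + 2) * I₁)) * (1 + (τ * w) ^ 2)⁻¹ := by
    intro τ
    have e1 : ‖g τ‖ ≤ (2 * π)⁻¹ * I₀ := by
      rw [hgn]; gcongr; exact hF0 _
    have e2 : |τ| ^ (B + 2) * ‖g τ‖ ≤ (2 * π)⁻¹ * I₁ := by
      have := hF1 (τ * (2 * π)⁻¹)
      rw [abs_mul, abs_of_pos (inv_pos.mpr hpi), show 2 * π * (|τ| * (2 * π)⁻¹) = |τ| by
        field_simp] at this
      rw [hgn]
      calc |τ| ^ (B + 2) * ((2 * π)⁻¹ * ‖F (τ * (2 * π)⁻¹)‖)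
          = (2 * π)⁻¹ * (|τ| ^ (B + 2) * ‖F (τ * (2 * π)⁻¹)‖) := by ring
        _ ≤ _ := by gcongr
    have e3 : (1 + |τ| * w) ^ (B + 2) * ‖g τ‖ ≤
        2 ^ (B + 2) * (2 * π)⁻¹ * (I₀ + w ^ (B + 2) * I₁) := by
      calc (1 + |τ| * w) ^ (B + 2) * ‖g τ‖
          ≤ (2 ^ (B + 2) * (1 + (|τ| * w) ^ (B + 2))) * ‖g τ‖ := by
            gcongr
            exact pow_aux _ _ (by positivity)
        _ = 2 ^ (B + 2) * (‖g τ‖ + w ^ (B + 2) * (|τ| ^ (B + 2) * ‖g τ‖)) := by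
            rw [mul_pow]; ring
        _ ≤ 2 ^ (B + 2) * ((2 * π)⁻¹ * I₀ + w ^ (B + 2) * ((2 * π)⁻¹ * I₁)) := by
            gcongr
        _ = _ := by ring
    have e4 : (1 + (τ * w) ^ 2) ≤ (1 + |τ| * w) ^ 2 := by
      have : (τ * w) ^ 2 = (|τ| * w) ^ 2 := by rw [mul_pow, mul_pow, sq_abs]
      rw [this]
      have h5 : 0 ≤ |τ| * w := by positivity
      nlinarith
    rw [← div_eq_mul_inv, le_div_iff₀ (by positivity)]
    calc ‖g τ‖ * (1 + |τ| * w) ^ B * (1 + (τ * w) ^ 2)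
        ≤ ‖g τ‖ * (1 + |τ| * w) ^ B * (1 + |τ| * w) ^ 2 := by gcongr
      _ = (1 + |τ| * w) ^ (B + 2) * ‖g τ‖ := by ring
      _ ≤ _ := e3
  have hmi : Integrable (fun τ : ℝ => (1 + (τ * w) ^ 2)⁻¹) := by
    exact (integrable_inv_one_add_sq).comp_mul_right' hw.ne'
  have hmi2 : Integrable (fun τ : ℝ =>
      (2 ^ (B + 2) * (2 * π)⁻¹ * (I₀ + w ^ (B + 2) * I₁)) * (1 + (τ * w) ^ 2)⁻¹) :=
    hmi.const_mul _
  have hGi : Integrable (fun τ => ‖g τ‖ * (1 + |τ| * w) ^ B) := by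
    refine hmi2.mono' ?_ ?_
    · exact (hgc.norm.mul ((continuous_const.add
        (continuous_abs.mul continuous_const)).pow B)).aestronglyMeasurable
    · refine Filter.Eventually.of_forall fun τ => ?_
      rw [Real.norm_of_nonneg (by positivity)]
      exact key τ
  have hgi : Integrable g := by
    refine hGi.mono' hgc.aestronglyMeasurable ?_
    refine Filter.Eventually.of_forall fun τ => ?_
    refine le_mul_of_one_le_right (norm_nonneg _) (one_le_pow₀ ?_)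
    have : 0 ≤ |τ| * w := by positivity
    linarith
  have hFi : Integrable F := by
    have h6 : Integrable (fun t : ℝ => g (t * (2 * π))) := hgi.comp_mul_right' hpi.ne'
    have h7 : (fun t : ℝ => ((2 * π : ℝ) : ℂ) * g (t * (2 * π))) = F := by
      ext t
      simp only [hg]
      rw [← mul_assoc, mul_inv_cancel₀ hpc, one_mul, mul_assoc, mul_inv_cancel₀ hpi.ne', mul_one]
    rw [← h7]
    exact h6.const_mul _
  refine ⟨hgc, hgi, ?_, hGi, ?_⟩
  · intro x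
    have h8 : 𝓕⁻ (𝓕 f) x = f x :=
      hfi.fourierInv_fourier_eq hFi (hfc.continuous.continuousAt)
    rw [← show f x = (k x : ℂ) from rfl, ← h8, Real.fourierInv_eq']
    have h9 := MeasureTheory.Measure.integral_comp_mul_right
      (fun t : ℝ => Complex.exp ((2 * π * (t * x) : ℝ) * Complex.I) * F t) (2 * π)⁻¹
    rw [inv_inv, abs_of_pos hpi] at h9
    have h10 : (∫ v : ℝ, Complex.exp ((2 * π * (v * x) : ℝ) * Complex.I) * F v) =
        ((2 * π : ℝ) : ℂ)⁻¹ * ∫ τ : ℝ, Complex.exp ((2 * π * (τ * (2 * π)⁻¹ * x) : ℝ) * Complex.I) *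
          F (τ * (2 * π)⁻¹) := by
      rw [h9, Complex.real_smul, ← mul_assoc, inv_mul_cancel₀ hpc, one_mul]
    have h11 : (∫ v : ℝ, Complex.exp (((2 * π * inner ℝ v x : ℝ) : ℂ) * Complex.I) • (𝓕 f) v) =
        ∫ v : ℝ, Complex.exp ((2 * π * (v * x) : ℝ) * Complex.I) * F v := by
      refine integral_congr_ae (Filter.Eventually.of_forall fun v => ?_)
      simp [hF, mul_comm]
    rw [h11, h10, ← integral_const_mul]
    refine integral_congr_ae (Filter.Eventually.of_forall fun τ => ?_)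
    have h12 : 2 * π * (τ * (2 * π)⁻¹ * x) = τ * x := by field_simp
    simp only [hg]
    rw [h12]
    push_cast
    ring
  · calc (∫ τ, ‖g τ‖ * (1 + |τ| * w) ^ B)
        ≤ ∫ τ, (2 ^ (B + 2) * (2 * π)⁻¹ * (I₀ + w ^ (B + 2) * I₁)) * (1 + (τ * w) ^ 2)⁻¹ :=
          integral_mono hGi hmi2 key
      _ = (2 ^ (B + 2) * (2 * π)⁻¹ * (I₀ + w ^ (B + 2) * I₁)) * (w⁻¹ * π) := by
          rw [integral_const_mul, MeasureTheory.Measure.integral_comp_mul_right
            (fun y : ℝ => (1 + y ^ 2)⁻¹) w, integral_univ_inv_one_add_sq,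
            abs_of_pos (inv_pos.mpr hw)]
          rfl
      _ = 2 ^ (B + 2) * ((I₀ / w + w ^ (B + 1) * I₁) / 2) := by
          field_simp
          ring
      _ ≤ 2 ^ (B + 2) * (I₀ / w + w ^ (B + 1) * I₁) := by
          gcongr
          have : 0 ≤ I₀ / w + w ^ (B + 1) * I₁ := by positivity
          linarith

/-! ### the window -/

/-- `s ηf(s)` -/
noncomputable def Pf (s : ℝ) : ℝ := s * ηf s

/-- `t ηf(t/ε)` -/
noncomputable def Pe (ε t : ℝ) : ℝ := ε * Pf (ε⁻¹ * t)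

/-- `(1 - ηf(2t/3)) e^{-t}` -/
noncomputable def Vf (t : ℝ) : ℝ := (1 - ηf (t / (3 / 2))) * Real.exp (-1 * t)

/-- the main window, scaled -/
noncomputable def Kw (ε t : ℝ) : ℝ := Pe ε t * Vf t

lemma Pf_smooth (n : ℕ) : ContDiff ℝ n Pf := contDiff_id.mul (P004.Wf.eta_smooth n)

lemma Pe_smooth (ε : ℝ) (n : ℕ) : ContDiff ℝ n (Pe ε) :=
  contDiff_const.mul ((Pf_smooth n).comp (contDiff_const.mul contDiff_id))

lemma Vf_smooth (n : ℕ) : ContDiff ℝ n Vf :=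
  (contDiff_const.sub (P004.Wf.eta_scale_smooth n _)).mul
    (Real.contDiff_exp.comp (contDiff_const.mul contDiff_id))

lemma Kw_smooth (ε : ℝ) (n : ℕ) : ContDiff ℝ n (Kw ε) := (Pe_smooth ε n).mul (Vf_smooth n)

lemma Pf_iter (k : ℕ) (hk : 1 ≤ k) : ∃ C : ℝ, 1 ≤ C ∧ ∀ s, |iteratedDeriv k Pf s| ≤ C := by
  have hc : Continuous (iteratedDeriv k Pf) := (Pf_smooth k).continuous_iteratedDeriv k le_rfl
  obtain ⟨C, hC⟩ := (isCompact_Icc (a := (1 : ℝ)) (b := 2)).exists_bound_of_continuousOn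
    hc.continuousOn
  refine ⟨max C 1, le_max_right _ _, fun t => ?_⟩
  rcases lt_or_ge t 1 with h1 | h1
  · have : Pf =ᶠ[nhds t] fun _ => (0 : ℝ) := by
      filter_upwards [Iio_mem_nhds h1] with s hs
      unfold Pf
      rw [P004.Wf.eta_zero (le_of_lt hs), mul_zero]
    rw [this.iteratedDeriv_eq, iteratedDeriv_const, if_neg (by omega), abs_zero]
    exact le_trans zero_le_one (le_max_right _ _)
  · rcases lt_or_ge 2 t with h2 | h2
    · have : Pf =ᶠ[nhds t] fun s => s := by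
        filter_upwards [Ioi_mem_nhds h2] with s hs
        unfold Pf
        rw [P004.Wf.eta_one (le_of_lt hs), mul_one]
      rw [this.iteratedDeriv_eq]
      obtain ⟨j, rfl⟩ : ∃ j, k = j + 1 := ⟨k - 1, by omega⟩
      rw [iteratedDeriv_succ']
      have h3 : deriv (fun s : ℝ => s) = fun _ => (1 : ℝ) := by
        funext s
        exact (hasDerivAt_id s).deriv
      rw [h3, iteratedDeriv_const]
      split_ifs
      · rw [abs_one]; exact le_max_right _ _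
      · rw [abs_zero]; exact le_trans zero_le_one (le_max_right _ _)
    · exact (hC t ⟨h1, h2⟩).trans (le_max_left _ _)

lemma Pf_two_zero {s : ℝ} (hs : s < 1 ∨ 2 < s) : iteratedDeriv 2 Pf s = 0 := by
  rcases hs with h | h
  · have : Pf =ᶠ[nhds s] fun _ => (0 : ℝ) := by
      filter_upwards [Iio_mem_nhds h] with t ht
      unfold Pf
      rw [P004.Wf.eta_zero (le_of_lt ht), mul_zero]
    rw [this.iteratedDeriv_eq, iteratedDeriv_const, if_neg (by norm_num)]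
  · have : Pf =ᶠ[nhds s] fun s => s := by
      filter_upwards [Ioi_mem_nhds h] with t ht
      unfold Pf
      rw [P004.Wf.eta_one (le_of_lt ht), mul_one]
    rw [this.iteratedDeriv_eq, iteratedDeriv_succ']
    have h3 : deriv (fun s : ℝ => s) = fun _ => (1 : ℝ) := by
      funext s
      exact (hasDerivAt_id s).deriv
    rw [h3, iteratedDeriv_const, if_neg (by norm_num)]

lemma Pe_iter {ε : ℝ} (k : ℕ) (t : ℝ) :
    iteratedDeriv k (Pe ε) t = ε * (ε⁻¹ ^ k * iteratedDeriv k Pf (ε⁻¹ * t)) := by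
  have h1 : Pe ε = fun t => ε * (fun t => Pf (ε⁻¹ * t)) t := rfl
  have h2 : iteratedDeriv k (fun t => Pf (ε⁻¹ * t)) =
      fun t => ε⁻¹ ^ k * iteratedDeriv k Pf (ε⁻¹ * t) := by
    have := iteratedDeriv_comp_const_mul (Pf_smooth k) ε⁻¹
    rw [this]
  rw [h1, iteratedDeriv_const_mul_field, h2]

lemma Pe_bd {ε : ℝ} (hε : 0 < ε) {t : ℝ} (ht : 0 ≤ t) (ht3 : t ≤ 3) : |Pe ε t| ≤ 3 := by
  unfold Pe Pf
  have h1 : ε * (ε⁻¹ * t * ηf (ε⁻¹ * t)) = t * ηf (ε⁻¹ * t) := by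
    field_simp
  rw [h1, abs_mul, abs_of_nonneg ht, abs_of_nonneg (P004.Wf.eta_nonneg _)]
  calc t * ηf (ε⁻¹ * t) ≤ 3 * 1 := by
        gcongr
        · exact P004.Wf.eta_nonneg _
        · exact P004.Wf.eta_le_one _
    _ = 3 := by norm_num

lemma Kw_zero {ε : ℝ} (hε : 0 < ε) {t : ℝ} (ht : t < ε ∨ 3 < t) : Kw ε t = 0 := by
  unfold Kw
  rcases ht with h | h
  · unfold Pe Pf
    rw [P004.Wf.eta_zero (t := ε⁻¹ * t) (by
      rw [inv_mul_le_iff₀ hε]; linarith)]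
    simp
  · unfold Vf
    rw [P004.Wf.eta_one (t := t / (3 / 2)) (by
      rw [le_div_iff₀ (by norm_num)]; linarith)]
    simp

lemma Kw_iter_zero {ε : ℝ} (hε : 0 < ε) (i : ℕ) {t : ℝ} (ht : t < ε ∨ 3 < t) :
    iteratedDeriv i (Kw ε) t = 0 := by
  have hz : Kw ε =ᶠ[nhds t] fun _ => (0 : ℝ) := by
    rcases ht with h | h
    · filter_upwards [Iio_mem_nhds h] with y hy
      exact Kw_zero hε (Or.inl hy)
    · filter_upwards [Ioi_mem_nhds h] with y hy
      exact Kw_zero hε (Or.inr hy)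
  rw [hz.iteratedDeriv_eq, iteratedDeriv_const]
  simp

lemma Vf_bd (n : ℕ) : ∃ C : ℝ, 1 ≤ C ∧ ∀ k ≤ n, ∀ t, 0 ≤ t → t ≤ 3 →
    |iteratedDeriv k Vf t| ≤ C := by
  induction n with
  | zero =>
    have hc : Continuous (iteratedDeriv 0 Vf) := (Vf_smooth 0).continuous_iteratedDeriv 0 le_rfl
    obtain ⟨C, hC⟩ := (isCompact_Icc (a := (0 : ℝ)) (b := 3)).exists_bound_of_continuousOn
      hc.continuousOn
    refine ⟨max C 1, le_max_right _ _, fun k hk t h0 h3 => ?_⟩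
    obtain rfl : k = 0 := by omega
    exact (hC t ⟨h0, h3⟩).trans (le_max_left _ _)
  | succ n ih =>
    obtain ⟨C, h1, h2⟩ := ih
    have hc : Continuous (iteratedDeriv (n + 1) Vf) :=
      (Vf_smooth (n + 1)).continuous_iteratedDeriv (n + 1) le_rfl
    obtain ⟨C', hC'⟩ := (isCompact_Icc (a := (0 : ℝ)) (b := 3)).exists_bound_of_continuousOn
      hc.continuousOn
    refine ⟨max C C', le_max_of_le_left h1, fun k hk t h0 h3 => ?_⟩
    rcases Nat.lt_or_ge k (n + 1) with h | h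
    · exact (h2 k (by omega) t h0 h3).trans (le_max_left _ _)
    · obtain rfl : k = n + 1 := by omega
      exact (hC' t ⟨h0, h3⟩).trans (le_max_right _ _)

lemma Pf_bd (n : ℕ) : ∃ C : ℝ, 1 ≤ C ∧ ∀ k ≤ n, 1 ≤ k → ∀ t, |iteratedDeriv k Pf t| ≤ C := by
  induction n with
  | zero => exact ⟨1, le_rfl, fun k hk hk1 => by omega⟩
  | succ n ih =>
    obtain ⟨C, h1, h2⟩ := ih
    obtain ⟨C', h1', h2'⟩ := Pf_iter (n + 1) (by omega)
    refine ⟨max C C', le_max_of_le_left h1, fun k hk hk1 t => ?_⟩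
    rcases Nat.lt_or_ge k (n + 1) with h | h
    · exact (h2 k (by omega) hk1 t).trans (le_max_left _ _)
    · obtain rfl : k = n + 1 := by omega
      exact (h2' t).trans (le_max_right _ _)

/-- derivatives at the scale `ε` -/
lemma Kw_bd (n : ℕ) : ∃ C : ℝ, 1 ≤ C ∧ ∀ ε : ℝ, 0 < ε → ε ≤ 1 → ∀ i ≤ n, ∀ t,
    |iteratedDeriv i (Kw ε) t| ≤ C * ε⁻¹ ^ i * (Icc (0 : ℝ) 3).indicator (fun _ => 1) t := by
  obtain ⟨CP, hP1, hP⟩ := Pf_bd n
  obtain ⟨CV, hV1, hV⟩ := Vf_bd n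
  refine ⟨2 ^ n * ((3 + CP) * CV), ?_, fun ε hε hε1 i hi t => ?_⟩
  · have : (1 : ℝ) ≤ 2 ^ n := one_le_pow₀ (by norm_num)
    have h2 : 1 ≤ (3 + CP) * CV := by nlinarith
    nlinarith
  have hεi : 1 ≤ ε⁻¹ := (one_le_inv₀ hε).2 hε1
  by_cases ht : t ∈ Icc (0 : ℝ) 3
  · rw [indicator_of_mem ht, mul_one]
    refine P004.Wf.mul_bd (Pe_smooth ε n) (Vf_smooth n) hε (by linarith) (by linarith) t
      (fun k hk => ?_) (fun k hk => ?_) i hi
    · rcases Nat.eq_zero_or_pos k with rfl | hk1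
      · rw [iteratedDeriv_zero, pow_zero, mul_one]
        have := Pe_bd hε ht.1 ht.2
        linarith
      · rw [Pe_iter, abs_mul, abs_mul, abs_of_pos hε, abs_of_pos (by positivity)]
        have h3 := hP k hk hk1 (ε⁻¹ * t)
        calc ε * (ε⁻¹ ^ k * |iteratedDeriv k Pf (ε⁻¹ * t)|) ≤ 1 * (ε⁻¹ ^ k * (3 + CP)) := by
              gcongr
              linarith
          _ = _ := by ring
    · have h3 := hV k hk t ht.1 ht.2
      calc |iteratedDeriv k Vf t| ≤ CV * 1 := by rw [mul_one]; exact h3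
        _ ≤ CV * ε⁻¹ ^ k := by
            gcongr
            exact one_le_pow₀ hεi
  · rw [indicator_of_notMem ht, mul_zero]
    have h3 : t < ε ∨ 3 < t := by
      rw [mem_Icc, not_and_or, not_le, not_le] at ht
      rcases ht with h | h
      · exact Or.inl (h.trans hε)
      · exact Or.inr h
    rw [Kw_iter_zero hε i h3, abs_zero]

lemma ind_int : Integrable (fun t => (Icc (0 : ℝ) 3).indicator (fun _ => (1 : ℝ)) t) := by
  rw [integrable_indicator_iff measurableSet_Icc]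
  exact integrableOn_const (by simp)

lemma ind_int_eq : ∫ t, (Icc (0 : ℝ) 3).indicator (fun _ => (1 : ℝ)) t = 3 := by
  rw [integral_indicator measurableSet_Icc, setIntegral_const]
  simp

lemma Kw_int {ε : ℝ} (hε : 0 < ε) (hε1 : ε ≤ 1) (i : ℕ) : Integrable (iteratedDeriv i (Kw ε)) := by
  obtain ⟨C, -, hC⟩ := Kw_bd i
  refine Integrable.mono' (ind_int.const_mul (C * ε⁻¹ ^ i)) ?_ ?_
  · exact ((Kw_smooth ε i).continuous_iteratedDeriv i le_rfl).aestronglyMeasurable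
  · exact Filter.Eventually.of_forall fun t => by
      rw [Real.norm_eq_abs]
      exact hC ε hε hε1 i le_rfl t

lemma Kw_int_bd (n : ℕ) : ∃ C : ℝ, 1 ≤ C ∧ ∀ ε : ℝ, 0 < ε → ε ≤ 1 → ∀ i ≤ n,
    ∫ t, |iteratedDeriv i (Kw ε) t| ≤ C * ε⁻¹ ^ i := by
  obtain ⟨C, hC1, hC⟩ := Kw_bd n
  refine ⟨3 * C, by linarith, fun ε hε hε1 i hi => ?_⟩
  calc ∫ t, |iteratedDeriv i (Kw ε) t|
      ≤ ∫ t, C * ε⁻¹ ^ i * (Icc (0 : ℝ) 3).indicator (fun _ => 1) t :=
        integral_mono (Kw_int hε hε1 i).abs (ind_int.const_mul _) (hC ε hε hε1 i hi)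
    _ = 3 * C * ε⁻¹ ^ i := by
        rw [integral_const_mul, ind_int_eq]
        ring

/-- the second derivative has a bounded integral -/
lemma Kw_two : ∃ C : ℝ, 1 ≤ C ∧ ∀ ε : ℝ, 0 < ε → ε ≤ 1 →
    ∫ t, |iteratedDeriv 2 (Kw ε) t| ≤ C := by
  obtain ⟨CP, hP1, hP⟩ := Pf_bd 2
  obtain ⟨CV, hV1, hV⟩ := Vf_bd 2
  refine ⟨3 * ((3 + 2 * CP) * CV) + CV * (2 * CP), by nlinarith, fun ε hε hε1 => ?_⟩
  have hεi : 0 < ε⁻¹ := inv_pos.2 hε
  have hpt : ∀ t, |iteratedDeriv 2 (Kw ε) t| ≤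
      (3 + 2 * CP) * CV * (Icc (0 : ℝ) 3).indicator (fun _ => 1) t +
      CV * (ε⁻¹ * (CP * (Icc (0 : ℝ) 2).indicator (fun _ => 1) (ε⁻¹ * t))) := by
    intro t
    have hind : ∀ s : ℝ, 0 ≤ (Icc (0 : ℝ) 2).indicator (fun _ => (1 : ℝ)) s := fun s =>
      indicator_nonneg (fun _ _ => zero_le_one) s
    by_cases ht : t ∈ Icc (0 : ℝ) 3
    · rw [indicator_of_mem ht, mul_one]
      have h0 : iteratedDeriv 2 (Kw ε) t = ∑ l ∈ Finset.range (2 + 1),
          (Nat.choose 2 l : ℝ) * iteratedDeriv l (Pe ε) t * iteratedDeriv (2 - l) Vf t :=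
        iteratedDeriv_mul (Pe_smooth ε 2).contDiffAt (Vf_smooth 2).contDiffAt
      rw [h0]
      simp only [Finset.sum_range_succ, Finset.sum_range_zero, zero_add]
      have c0 : (Nat.choose 2 0 : ℝ) = 1 := by norm_num
      have c1 : (Nat.choose 2 1 : ℝ) = 2 := by norm_num
      have c2 : (Nat.choose 2 2 : ℝ) = 1 := by norm_num
      rw [c0, c1, c2, one_mul, one_mul]
      have a0 : |iteratedDeriv 0 (Pe ε) t| ≤ 3 := by
        rw [iteratedDeriv_zero]; exact Pe_bd hε ht.1 ht.2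
      have a1 : |iteratedDeriv 1 (Pe ε) t| ≤ CP := by
        rw [Pe_iter, pow_one, ← mul_assoc, mul_inv_cancel₀ hε.ne', one_mul]
        exact hP 1 (by norm_num) le_rfl _
      have a2 : |iteratedDeriv 2 (Pe ε) t| ≤
          ε⁻¹ * (CP * (Icc (0 : ℝ) 2).indicator (fun _ => 1) (ε⁻¹ * t)) := by
        rw [Pe_iter]
        have e : ε * (ε⁻¹ ^ 2 * iteratedDeriv 2 Pf (ε⁻¹ * t)) =
            ε⁻¹ * iteratedDeriv 2 Pf (ε⁻¹ * t) := by
          field_simp
        rw [e, abs_mul, abs_of_pos hεi]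
        refine mul_le_mul_of_nonneg_left ?_ hεi.le
        by_cases hs : ε⁻¹ * t ∈ Icc (0 : ℝ) 2
        · rw [indicator_of_mem hs, mul_one]
          exact hP 2 le_rfl (by norm_num) _
        · rw [indicator_of_notMem hs, mul_zero, Pf_two_zero, abs_zero]
          right
          by_contra hcon
          exact hs ⟨by have := ht.1; positivity, not_lt.1 hcon⟩
      have b0 := hV 2 le_rfl t ht.1 ht.2
      have b1 := hV 1 (by norm_num) t ht.1 ht.2
      have b2 := hV 0 (by norm_num) t ht.1 ht.2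
      have hR : 0 ≤ ε⁻¹ * (CP * (Icc (0 : ℝ) 2).indicator (fun _ => 1) (ε⁻¹ * t)) := by
        have := hind (ε⁻¹ * t)
        positivity
      have m0 : |iteratedDeriv 0 (Pe ε) t * iteratedDeriv (2 - 0) Vf t| ≤ 3 * CV := by
        rw [abs_mul]; exact mul_le_mul a0 b0 (abs_nonneg _) (by norm_num)
      have m1 : |2 * iteratedDeriv 1 (Pe ε) t * iteratedDeriv (2 - 1) Vf t| ≤ 2 * CP * CV := by
        rw [abs_mul, abs_mul, abs_of_pos (by norm_num : (0 : ℝ) < 2)]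
        have : 2 * |iteratedDeriv 1 (Pe ε) t| ≤ 2 * CP := by linarith
        exact mul_le_mul this b1 (abs_nonneg _) (by linarith)
      have m2 : |iteratedDeriv 2 (Pe ε) t * iteratedDeriv (2 - 2) Vf t| ≤
          (ε⁻¹ * (CP * (Icc (0 : ℝ) 2).indicator (fun _ => 1) (ε⁻¹ * t))) * CV := by
        rw [abs_mul]; exact mul_le_mul a2 b2 (abs_nonneg _) hR
      calc _ ≤ |iteratedDeriv 0 (Pe ε) t * iteratedDeriv (2 - 0) Vf t| +
            |2 * iteratedDeriv 1 (Pe ε) t * iteratedDeriv (2 - 1) Vf t| +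
            |iteratedDeriv 2 (Pe ε) t * iteratedDeriv (2 - 2) Vf t| :=
            abs_add_three _ _ _
        _ ≤ 3 * CV + 2 * CP * CV +
            (ε⁻¹ * (CP * (Icc (0 : ℝ) 2).indicator (fun _ => 1) (ε⁻¹ * t))) * CV := by
            linarith
        _ = _ := by ring
    · rw [indicator_of_notMem ht]
      have h3 : t < ε ∨ 3 < t := by
        rw [mem_Icc, not_and_or, not_le, not_le] at ht
        rcases ht with h | h
        · exact Or.inl (h.trans hε)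
        · exact Or.inr h
      rw [Kw_iter_zero hε 2 h3, abs_zero]
      have := hind (ε⁻¹ * t)
      positivity
  have hi2 : Integrable (fun t => (Icc (0 : ℝ) 2).indicator (fun _ => (1 : ℝ)) t) := by
    rw [integrable_indicator_iff measurableSet_Icc]
    exact integrableOn_const (by simp)
  have hi3 : Integrable (fun t => (Icc (0 : ℝ) 2).indicator (fun _ => (1 : ℝ)) (ε⁻¹ * t)) :=
    hi2.comp_mul_left' hεi.ne'
  have he3 : ∫ t, (Icc (0 : ℝ) 2).indicator (fun _ => (1 : ℝ)) (ε⁻¹ * t) = ε * 2 := by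
    rw [MeasureTheory.Measure.integral_comp_mul_left
      (fun t => (Icc (0 : ℝ) 2).indicator (fun _ => (1 : ℝ)) t) ε⁻¹, inv_inv,
      abs_of_pos hε, integral_indicator measurableSet_Icc, setIntegral_const]
    simp
  calc ∫ t, |iteratedDeriv 2 (Kw ε) t|
      ≤ ∫ t, ((3 + 2 * CP) * CV * (Icc (0 : ℝ) 3).indicator (fun _ => 1) t +
        CV * (ε⁻¹ * (CP * (Icc (0 : ℝ) 2).indicator (fun _ => 1) (ε⁻¹ * t)))) :=
        integral_mono (Kw_int hε hε1 2).abs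
          ((ind_int.const_mul _).add (((hi3.const_mul _).const_mul _).const_mul _)) hpt
    _ = (3 + 2 * CP) * CV * 3 + CV * (ε⁻¹ * (CP * (ε * 2))) := by
        rw [integral_add (ind_int.const_mul _) (((hi3.const_mul _).const_mul _).const_mul _),
          integral_const_mul, integral_const_mul, integral_const_mul, integral_const_mul,
          ind_int_eq, he3]
    _ = _ := by
        field_simp

/-- the properties of the Fourier transform of the main window -/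
theorem Kw_spec : ∃ C₁ : ℝ, 1 ≤ C₁ ∧ ∀ B : ℕ, ∃ C : ℝ, 1 ≤ C ∧ ∀ ε : ℝ, 0 < ε → ε ≤ 1 →
    Continuous (gF (Kw ε)) ∧ Integrable (gF (Kw ε)) ∧
    (∀ x : ℝ, (Kw ε x : ℂ) = ∫ τ : ℝ, gF (Kw ε) τ * Complex.exp (τ * x * Complex.I)) ∧
    (∫ τ, ‖gF (Kw ε) τ‖) ≤ C₁ ∧
    Integrable (fun τ => ‖gF (Kw ε) τ‖ * (1 + |τ| * ε) ^ B) ∧
    (∫ τ, ‖gF (Kw ε) τ‖ * (1 + |τ| * ε) ^ B) ≤ C / ε := by
  obtain ⟨D, hD1, hD⟩ := Kw_two
  obtain ⟨D', hD1', hD'⟩ := Kw_int_bd 2
  refine ⟨4 * (D' + D), by linarith, fun B => ?_⟩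
  obtain ⟨E, hE1, hE⟩ := Kw_int_bd (B + 2)
  refine ⟨2 ^ (B + 2) * (2 * E), ?_, fun ε hε hε1 => ?_⟩
  · have : (1 : ℝ) ≤ 2 ^ (B + 2) := one_le_pow₀ (by norm_num)
    nlinarith
  have h1 := hE ε hε hε1 (B + 2) le_rfl
  have h0 := hE ε hε hε1 0 (by omega)
  rw [iteratedDeriv_zero, pow_zero, mul_one] at h0
  obtain ⟨g1, g2, g3, g4, g5⟩ := gF_spec B hε (Kw_smooth ε (B + 2))
    (fun i _ => Kw_int hε hε1 i) h0 h1
  refine ⟨g1, g2, g3, ?_, g4, g5.trans (le_of_eq ?_)⟩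
  · have h0' := hD' ε hε hε1 0 (by omega)
    rw [iteratedDeriv_zero, pow_zero, mul_one] at h0'
    obtain ⟨-, -, -, -, g6⟩ := gF_spec 0 one_pos (Kw_smooth ε 2)
      (fun i _ => Kw_int hε hε1 i) h0' (hD ε hε hε1)
    simp only [pow_zero, mul_one, zero_add, one_pow, one_mul, div_one] at g6
    refine g6.trans (le_of_eq ?_)
    norm_num
  · rw [inv_pow]
    field_simp
    ring

end P004E.H156
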