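import Vale.Agent.P004E.H156.Spec
import Vale.Agent.P004G.H128.Pass3
import Vale.Agent.P004.H628.Bridge
import Vale.Agent.P004G.H293.RA

/-!
# P004E, module F3 (part 1): the weighted random model
-/

open Real MeasureTheory Set Filter Topology
open scoped ENNReal

namespace P004E.H156

open P004 (EN Xf wp CM)
open P004.H293 (E1 EE)

/-- the density of the weighted model at the prime `p` -/
noncomputable def wt (N D p : ℕ) (x : ℝ) : ℝ :=
  if p ∣ N then (if x = 1 then 2 * (p : ℝ) / (p - 1) else 0)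
  else if p ≤ D then (if x = 0 then (p : ℝ) / (p + 1) else (p : ℝ) ^ 2 / ((p : ℝ) ^ 2 - 1))
  else 1

/-- the local moment -/
noncomputable def mom (N D p k : ℕ) : ℝ :=
  if k = 0 then 1 else if p ∣ N then 1 else if Even k then
      (if p ≤ D then (p : ℝ) / (p + 1) else 1 - 1 / (p : ℝ)) else 0

lemma wt_nonneg {p : ℕ} (hp : 2 ≤ p) (N D : ℕ) (x : ℝ) : 0 ≤ wt N D p x := by
  have h2 : (2 : ℝ) ≤ p := by exact_mod_cast hp
  unfold wt
  split_ifs
  · have : (0 : ℝ) < p - 1 := by linarith
    positivity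
  · exact le_rfl
  · positivity
  · have : (0 : ℝ) < (p : ℝ) ^ 2 - 1 := by nlinarith
    positivity
  · norm_num

lemma wt_le {p : ℕ} (hp : 2 ≤ p) {N : ℕ} (hN : ¬ p ∣ N) (D : ℕ) (x : ℝ) :
    wt N D p x ≤ (p : ℝ) ^ 2 / ((p : ℝ) ^ 2 - 1) := by
  have h2 : (2 : ℝ) ≤ p := by exact_mod_cast hp
  have h3 : (0 : ℝ) < (p : ℝ) ^ 2 - 1 := by nlinarith
  have h4 : 1 ≤ (p : ℝ) ^ 2 / ((p : ℝ) ^ 2 - 1) := by
    rw [le_div_iff₀ h3]; linarith
  unfold wt
  rw [if_neg hN]
  split_ifs
  · refine le_trans ?_ h4
    rw [div_le_one (by positivity)]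
    linarith
  · exact le_rfl
  · exact h4

lemma E1_wt {p : ℕ} (hp : 2 ≤ p) (N D k : ℕ) :
    E1 p (fun x => wt N D p x * x ^ k) = mom N D p k := by
  have h2 : (2 : ℝ) ≤ p := by exact_mod_cast hp
  have hp0 : (p : ℝ) ≠ 0 := by positivity
  have hp1 : (p : ℝ) - 1 ≠ 0 := by
    have : (0 : ℝ) < p - 1 := by linarith
    exact this.ne'
  have hp2 : (p : ℝ) ^ 2 - 1 ≠ 0 := by
    have : (0 : ℝ) < (p : ℝ) ^ 2 - 1 := by nlinarith
    exact this.ne'
  have hp3 : (p : ℝ) + 1 ≠ 0 := by positivity
  have hm1 : (-1 : ℝ) ≠ 1 := by norm_num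
  unfold E1 wt mom
  by_cases hN : p ∣ N
  · simp only [hN, if_true, zero_ne_one, if_false, hm1, one_pow, zero_mul, mul_zero, zero_add,
      mul_one, add_zero, ite_self]
    field_simp
  · simp only [hN, if_false]
    have e1 : (p : ℝ) ^ 2 - 1 = (p - 1) * (p + 1) := by ring
    by_cases hD : p ≤ D
    · simp only [hD, if_true, one_ne_zero, if_false, neg_eq_zero, one_pow]
      rcases Nat.eq_zero_or_pos k with rfl | hk
      · simp only [pow_zero, if_true]
        rw [e1]
        field_simp
        ring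
      · rw [if_neg hk.ne', zero_pow hk.ne']
        by_cases he : Even k
        · rw [he.neg_one_pow, if_pos he, e1]
          field_simp
          ring
        · rw [(Nat.not_even_iff_odd.1 he).neg_one_pow, if_neg he]
          ring
    · simp only [hD, if_false, one_mul, one_pow]
      rcases Nat.eq_zero_or_pos k with rfl | hk
      · simp only [pow_zero, if_true]
        ring
      · rw [if_neg hk.ne', zero_pow hk.ne']
        by_cases he : Even k
        · rw [he.neg_one_pow, if_pos he]
          ring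
        · rw [(Nat.not_even_iff_odd.1 he).neg_one_pow, if_neg he]
          ring

lemma E1_wt_one {p : ℕ} (hp : 2 ≤ p) (N D : ℕ) : E1 p (fun x => wt N D p x) = 1 := by
  have := E1_wt hp N D 0
  simpa [mom] using this

/-- the density of the weighted model -/
noncomputable def WW (N D K : ℕ) (X : ℕ → ℝ) : ℝ := ∏ p ∈ K.primesBelow, wt N D p (X p)

lemma WW_nonneg (N D K : ℕ) (X : ℕ → ℝ) : 0 ≤ WW N D K X :=
  Finset.prod_nonneg fun _ hp => wt_nonneg (Nat.prime_of_mem_primesBelow hp).two_le _ _ _

lemma prod_range_primes (K : ℕ) (f : ℕ → ℝ) :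
    ∏ p ∈ K.primesBelow, f p = ∏ p ∈ Finset.range K, if p.Prime then f p else 1 := by
  rw [Nat.primesBelow, Finset.prod_filter]

theorem EN_WW (N D K : ℕ) {n : ℕ} (hn : n ∈ Nat.smoothNumbers K) :
    EN K (fun X => WW N D K X * X n) = rhoN N D n := by
  have hn0 : n ≠ 0 := Nat.ne_zero_of_mem_smoothNumbers hn
  rw [P004.H628.EN_eq]
  have h1 : ∀ ω : ℕ → ℝ, WW N D K (P004.H628.ffx ω) * P004.H628.ffx ω n =
      ∏ p ∈ Finset.range K,
        (fun (p : ℕ) (x : ℝ) => if p.Prime then wt N D p x * x ^ n.factorization p else 1)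
          p (ω p) := by
    intro ω
    have e1 : P004.H628.ffx ω n = ∏ p ∈ K.primesBelow, ω p ^ n.factorization p := by
      unfold P004.H628.ffx
      refine Finset.prod_subset (fun p hp => ?_) fun p _ hp => ?_
      · rw [Nat.mem_primesBelow]
        exact ⟨hn.2 p (Nat.mem_primeFactorsList'.2 ((Nat.mem_primeFactors.1 hp))),
          Nat.prime_of_mem_primeFactors hp⟩
      · rw [Finsupp.notMem_support_iff.1 (by rwa [Nat.support_factorization]), pow_zero]
    rw [e1]
    unfold WW
    rw [← Finset.prod_mul_distrib, prod_range_primes]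
    refine Finset.prod_congr rfl fun p _ => ?_
    by_cases hp : p.Prime
    · simp only [hp, if_true]
      rw [P004.H628.ffx_prime ω hp]
    · simp only [hp, if_false]
  simp only [h1]
  rw [P004.H293.EE_prod (Finset.range K)
    (fun (p : ℕ) (x : ℝ) => if p.Prime then wt N D p x * x ^ n.factorization p else 1)]
  have h2 : ∀ p ∈ Finset.range K, E1 p (fun x => if p.Prime then wt N D p x *
      x ^ n.factorization p else 1) = if p.Prime then mom N D p (n.factorization p) else 1 := by
    intro p _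
    by_cases hp : p.Prime
    · simp only [hp, if_true]
      exact E1_wt hp.two_le N D _
    · simp only [hp, if_false]
      exact P004.H293.E1_const p 1
  rw [Finset.prod_congr rfl h2, ← prod_range_primes]
  unfold rhoN
  rw [if_neg hn0]
  symm
  have h3 : ∀ p ∈ n.primeFactors, (if p ∣ N then (1 : ℝ) else if Even (n.factorization p) then
      (if p ≤ D then (p : ℝ) / (p + 1) else 1 - 1 / (p : ℝ)) else 0) =
      mom N D p (n.factorization p) := by
    intro p hp
    have h4 : n.factorization p ≠ 0 := by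
      rw [← Nat.support_factorization] at hp
      exact Finsupp.mem_support_iff.1 hp
    unfold mom
    rw [if_neg h4]
  rw [Finset.prod_congr rfl h3]
  refine Finset.prod_subset (fun p hp => ?_) fun p _ hp => ?_
  · rw [Nat.mem_primesBelow]
    exact ⟨hn.2 p (Nat.mem_primeFactorsList'.2 ((Nat.mem_primeFactors.1 hp))),
      Nat.prime_of_mem_primeFactors hp⟩
  · rw [Finsupp.notMem_support_iff.1 (by rwa [Nat.support_factorization])]
    unfold mom
    rw [if_pos rfl]

theorem EN_WW_one (N D K : ℕ) : EN K (fun X => WW N D K X) = 1 := by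
  rcases Nat.eq_zero_or_pos K with rfl | hK
  · unfold EN WW
    rw [Fintype.sum_unique]
    simp [Nat.primesBelow]
  have h := EN_WW N D K (n := 1) (by
    refine ⟨one_ne_zero, fun p hp => ?_⟩
    simp at hp)
  have e : EN K (fun X => WW N D K X * X 1) = EN K (fun X => WW N D K X) :=
    P004.H128.EN_congr fun ω => by rw [P004.H128.Xf_one, mul_one]
  rw [e] at h
  rw [h]
  simp [rhoN]

/-- the linear form in the weighted model -/
lemma EN_lin_eq {β : ℕ → ℝ} (hβ : Summable fun n => |β n|) (A : Finset ℕ) (m : ℕ → ℝ)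
    (N D K : ℕ) :
    EN K (fun X => WW N D K X * ((∑ a ∈ A, m a * X a) * ∑' n : ℕ, β n * X n)) =
      ∑ a ∈ A, m a * ∑' n : ℕ, β n * EN K (fun X => WW N D K X * (X a * X n)) := by
  have hsX : ∀ ω : Fin K → SignType, Summable fun n => β n * Xf ω n := fun ω => by
    refine Summable.of_norm_bounded hβ fun n => ?_
    rw [norm_mul, Real.norm_eq_abs, Real.norm_eq_abs]
    exact mul_le_of_le_one_right (abs_nonneg _) (P004.H128.abs_Xf_le ω n)
  have h1 : EN K (fun X => WW N D K X * ((∑ a ∈ A, m a * X a) * ∑' n : ℕ, β n * X n)) =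
      EN K (fun X => ∑ a ∈ A, ∑' n : ℕ, m a * (β n * (WW N D K X * (X a * X n)))) := by
    refine P004.H128.EN_congr fun ω => ?_
    rw [Finset.sum_mul, Finset.mul_sum]
    refine Finset.sum_congr rfl fun a _ => ?_
    rw [← tsum_mul_left, ← tsum_mul_left]
    exact tsum_congr fun n => by ring
  rw [h1, P004.H128.EN_sum K A (fun a X => ∑' n : ℕ, m a * (β n * (WW N D K X * (X a * X n))))]
  refine Finset.sum_congr rfl fun a _ => ?_
  have hs2 : ∀ ω : Fin K → SignType,
      Summable fun n => m a * (β n * (WW N D K (Xf ω) * (Xf ω a * Xf ω n))) := fun ω => by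
    refine ((hsX ω).mul_left (m a * (WW N D K (Xf ω) * Xf ω a))).congr fun n => ?_
    ring
  rw [P004.H128.EN_tsum (F := fun (n : ℕ) X => m a * (β n * (WW N D K X * (X a * X n)))) hs2,
    ← tsum_mul_left]
  refine tsum_congr fun n => ?_
  rw [P004.H128.EN_const_mul K (m a) (fun X => β n * (WW N D K X * (X a * X n))),
    P004.H128.EN_const_mul K (β n) (fun X => WW N D K X * (X a * X n))]

/-- convergence of the linear form of the weighted model -/
theorem tendsto_lin {β : ℕ → ℝ} (hβ : Summable fun n => |β n|) (hβ0 : β 0 = 0) {A : Finset ℕ}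
    (hA : ∀ a ∈ A, a ≠ 0) (m : ℕ → ℝ) (N D : ℕ) :
    Tendsto (fun K => EN K (fun X => WW N D K X * ((∑ a ∈ A, m a * X a) * ∑' n : ℕ, β n * X n)))
      atTop (𝓝 (∑ a ∈ A, m a * ∑' n : ℕ, β n * rhoN N D (a * n))) := by
  simp only [EN_lin_eq hβ]
  refine tendsto_finsetSum _ fun a ha => ?_
  refine Tendsto.const_mul _ ?_
  refine tendsto_tsum_of_dominated_convergence hβ (fun n => ?_)
    (Eventually.of_forall fun K n => ?_)
  · by_cases hn : n = 0
    · simp only [hn, hβ0, zero_mul]
      exact tendsto_const_nhds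
    · have ha0 := hA a ha
      refine Tendsto.const_mul _ ?_
      have hn0 : a * n ≠ 0 := Nat.mul_ne_zero ha0 hn
      refine tendsto_const_nhds.congr' ?_
      filter_upwards [eventually_gt_atTop (a * n)] with K hK
      rw [← EN_WW N D K (Nat.mem_smoothNumbers_of_lt (Nat.pos_of_ne_zero hn0) hK)]
      refine P004.H128.EN_congr fun ω => ?_
      rw [P004.H128.Xf_mul ω ha0 hn]
  · rw [norm_mul, Real.norm_eq_abs]
    refine mul_le_of_le_one_right (abs_nonneg _) ?_
    rw [Real.norm_eq_abs, abs_le]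
    have hb : ∀ ω : Fin K → SignType, |Xf ω a * Xf ω n| ≤ 1 := fun ω => by
      rw [abs_mul]
      have := P004.H128.abs_Xf_le ω a
      have := P004.H128.abs_Xf_le ω n
      calc |Xf ω a| * |Xf ω n| ≤ 1 * 1 := by gcongr
        _ = 1 := by norm_num
    constructor
    · rw [← EN_WW_one N D K, ← neg_one_mul, ← P004.H128.EN_const_mul]
      refine P004.H128.EN_mono fun ω => ?_
      have h1 := (abs_le.1 (hb ω)).1
      have h2 := WW_nonneg N D K (Xf ω)
      nlinarith
    · rw [← EN_WW_one N D K]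
      refine P004.H128.EN_mono fun ω => ?_
      have h1 := (abs_le.1 (hb ω)).2
      have h2 := WW_nonneg N D K (Xf ω)
      nlinarith

end P004E.H156
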