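import Vale.Agent.P004E.H156.Fact
import Vale.Agent.P004E.H156.Four
import Vale.Agent.P004E.H156.Model

/-!
# P004E, module F3 (part 10): the linear form of the model as an integral
-/

open Real MeasureTheory Set Filter Topology
open scoped ENNReal

namespace P004E.H156

open P004G
open P004G.H128 (TX_eq bet_eq norm_LN_le measurable_LN DX)
open P004.H128 (Xf_CM EN_congr EN_integral EN_integrable sl sl_re Kf norm_Kf_le continuous_Kf)
open P004 (EN Xf)

variable [Crv]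

/-- the linear form of the model -/
noncomputable def TK (N D K : ℕ) (S : ℕ → Finset ℕ) (c : ℕ → ℕ → ℝ) (n : ℕ) (f : ℝ → ℝ) : ℝ :=
  EN K (fun X => WW N D K X * ((∏ i ∈ Finset.range n, Mi S c i X) * ∑' n : ℕ, bet f n * X n))

theorem TK_sub_le {N D K : ℕ} {S : ℕ → Finset ℕ} {c : ℕ → ℕ → ℝ} {n Y : ℕ} (hY : 1 ≤ Y) {σ : ℝ}
    (h0 : 0 < σ) (h1 : σ ≤ 2) {h : ℝ → ℝ} {g : ℝ → ℂ} (hg : Continuous g) (hgi : Integrable g)
    (hrep : ∀ x : ℝ, (h x * Real.exp (-σ * x) : ℂ) =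
      ∫ τ : ℝ, g τ * Complex.exp (τ * x * Complex.I)) {a : ℝ} {Bd : ℝ → ℝ}
    (hBd : ∀ τ : ℝ, ‖AAK N D K S c n (σ + τ * Complex.I) - a‖ ≤ Bd τ)
    (hBi : Integrable (fun τ => ‖g τ‖ * Bd τ)) :
    |TK N D K S c n (cfY Y h) - a * bet (cfY Y h) 1| ≤
      4 * (Y : ℝ) ^ σ * ∫ τ, ‖g τ‖ * Bd τ := by
  have hYσ : 0 ≤ (Y : ℝ) ^ σ := by positivity
  have hKc := continuous_Kf (Y := Y) hY h0 hg
  -- the integrand
  set F : (ℕ → ℝ) → ℝ → ℝ := fun X τ => ((4 * Kf Y σ g τ) *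
    ((((WW N D K X * ∏ i ∈ Finset.range n, Mi S c i X : ℝ)) : ℂ) * LN K X (sl σ τ))).re with hF
  have hKi : Integrable (Kf Y σ g) := by
    refine Integrable.mono' (hgi.norm.mul_const ((Y : ℝ) ^ σ)) hKc.aestronglyMeasurable
      (Eventually.of_forall fun τ => norm_Kf_le hY h0 h1 g τ)
  have hLi : ∀ ω : Fin K → SignType,
      Integrable fun τ => 4 * (Kf Y σ g τ * LN K (Xf ω) (sl σ τ)) := by
    intro ω
    refine Integrable.mono' (hgi.norm.const_mul (4 * (Y : ℝ) ^ σ * DX σ (Xf ω))) ?_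
      (Eventually.of_forall fun τ => ?_)
    · exact (measurable_const.mul (hKc.measurable.mul (measurable_LN K _ σ))).aestronglyMeasurable
    · have h2 := norm_Kf_le hY h0 h1 g τ
      have h3 := norm_LN_le pfCoef ω h0 τ
      calc ‖4 * (Kf Y σ g τ * LN K (Xf ω) (sl σ τ))‖ =
          4 * (‖Kf Y σ g τ‖ * ‖LN K (Xf ω) (sl σ τ)‖) := by
            rw [norm_mul, norm_mul]; norm_num
        _ ≤ 4 * ((‖g τ‖ * (Y : ℝ) ^ σ) * DX σ (Xf ω)) := by gcongr
        _ = _ := by ring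
  have hFi : ∀ ω : Fin K → SignType, Integrable (F (Xf ω)) := by
    intro ω
    have h2 := ((hLi ω).const_mul
      (((WW N D K (Xf ω) * ∏ i ∈ Finset.range n, Mi S c i (Xf ω) : ℝ)) : ℂ)).re
    refine h2.congr (Eventually.of_forall fun τ => ?_)
    simp only [hF]
    change (_ : ℂ).re = _
    congr 1
    ring
  have hpt : ∀ ω : Fin K → SignType, WW N D K (Xf ω) *
      ((∏ i ∈ Finset.range n, Mi S c i (Xf ω)) * ∑' n : ℕ, bet (cfY Y h) n * Xf ω n) =
      ∫ τ, F (Xf ω) τ := by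
    intro ω
    have h2 := TX_eq pfCoef ω hY h0 h1 hg hgi hrep
    have h3 : ((WW N D K (Xf ω) *
      ((∏ i ∈ Finset.range n, Mi S c i (Xf ω)) * ∑' n : ℕ, bet (cfY Y h) n * Xf ω n) : ℝ) : ℂ) =
      ∫ τ, (((WW N D K (Xf ω) * ∏ i ∈ Finset.range n, Mi S c i (Xf ω) : ℝ)) : ℂ) *
        (4 * (Kf Y σ g τ * LN K (Xf ω) (sl σ τ))) := by
      rw [integral_const_mul, ← h2]
      push_cast
      ring
    have h4 := congrArg Complex.re h3
    rw [Complex.ofReal_re] at h4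
    rw [h4]
    have h5 : (∫ τ, (((WW N D K (Xf ω) * ∏ i ∈ Finset.range n, Mi S c i (Xf ω) : ℝ)) : ℂ) *
        (4 * (Kf Y σ g τ * LN K (Xf ω) (sl σ τ)))).re =
        ∫ τ, ((((WW N D K (Xf ω) * ∏ i ∈ Finset.range n, Mi S c i (Xf ω) : ℝ)) : ℂ) *
        (4 * (Kf Y σ g τ * LN K (Xf ω) (sl σ τ)))).re := by
      have h6 := integral_re (𝕜 := ℂ) (μ := volume) ((hLi ω).const_mul
        (((WW N D K (Xf ω) * ∏ i ∈ Finset.range n, Mi S c i (Xf ω) : ℝ)) : ℂ))
      exact h6.symm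
    rw [h5]
    refine integral_congr_ae (Eventually.of_forall fun τ => ?_)
    simp only [hF]
    congr 1
    ring
  have hT : TK N D K S c n (cfY Y h) = ∫ τ, EN K (fun X => F X τ) := by
    unfold TK
    rw [← EN_integral hFi]
    exact EN_congr hpt
  have hE : ∀ τ, EN K (fun X => F X τ) =
      ((4 * Kf Y σ g τ) * AAK N D K S c n (σ + τ * Complex.I)).re := by
    intro τ
    rw [P004.H628.EN_eq]
    unfold AAK
    rw [← EC_mul_left]
    have e : (1 : ℂ) + (σ + τ * Complex.I) = sl σ τ := by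
      unfold P004.H128.sl
      ring
    rw [e]
    rfl
  have hb1 : bet (cfY Y h) 1 = ∫ τ, (4 * Kf Y σ g τ).re := by
    have h2 := bet_eq hY h0 hg hgi hrep (n := 1) le_rfl
    have h3 : (∫ τ : ℝ, 4 * (ca 1 : ℂ) * (Kf Y σ g τ * ((1 : ℕ) : ℂ) ^ (-sl σ τ))) =
        ∫ τ : ℝ, 4 * Kf Y σ g τ := by
      refine integral_congr_ae (Eventually.of_forall fun τ => ?_)
      simp only
      rw [pfCoef.one, Nat.cast_one, Complex.one_cpow]
      push_cast
      ring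
    rw [h3] at h2
    have h4 := congrArg Complex.re h2
    rw [Complex.ofReal_re] at h4
    rw [h4]
    have h6 := integral_re (𝕜 := ℂ) (μ := volume) (hKi.const_mul 4)
    exact h6.symm
  have hI1 : Integrable (fun τ => EN K (fun X => F X τ)) := EN_integrable hFi
  have hI2 : Integrable (fun τ => (4 * Kf Y σ g τ).re) := (hKi.const_mul 4).re
  have hD : TK N D K S c n (cfY Y h) - a * bet (cfY Y h) 1 =
      ∫ τ, (EN K (fun X => F X τ) - a * (4 * Kf Y σ g τ).re) := by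
    rw [hT, hb1, integral_sub hI1 (hI2.const_mul a), integral_const_mul]
  rw [hD, ← Real.norm_eq_abs, ← integral_const_mul]
  refine norm_integral_le_of_norm_le (hBi.const_mul _) (Eventually.of_forall fun τ => ?_)
  rw [hE]
  have e : ((4 * Kf Y σ g τ) * AAK N D K S c n (σ + τ * Complex.I)).re -
      a * (4 * Kf Y σ g τ).re =
      ((4 * Kf Y σ g τ) * (AAK N D K S c n (σ + τ * Complex.I) - a)).re := by
    rw [mul_sub, Complex.sub_re, mul_comm (4 * Kf Y σ g τ) (a : ℂ), Complex.re_ofReal_mul]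
  rw [e, Real.norm_eq_abs]
  refine (Complex.abs_re_le_norm _).trans ?_
  rw [norm_mul, norm_mul]
  have h2 := norm_Kf_le hY h0 h1 g τ
  have h3 := hBd τ
  have h4 : ‖(4 : ℂ)‖ = 4 := by norm_num
  rw [h4]
  calc 4 * ‖Kf Y σ g τ‖ * ‖AAK N D K S c n (σ + τ * Complex.I) - a‖ ≤
      4 * (‖g τ‖ * (Y : ℝ) ^ σ) * Bd τ := by gcongr
    _ = _ := by ring

end P004E.H156
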