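import Vale.Agent.P004E.H156.Loc
import Vale.Agent.P004E.H3.Abel

/-!
# P004E, module F3 (part 4): the product over the large primes
-/

open Finset Real

namespace P004E.H156

open P004G
open P004.H293 (E1 EE E1_mono E1_const E1_mul_left sum_rpow_tail')
open P004G.H293 (Lp tt norm_tt_le norm_tt_le' norm_tt abs_lam_le three_le norm_tt_sq)

variable [Crv]

/-- the good primes in `(exp u₀, K)` -/
noncomputable def LPr (K : ℕ) (u₀ : ℝ) : Finset ℕ :=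
  K.primesBelow.filter (fun p => ¬ p ∣ bd ∧ Real.exp u₀ < p)

lemma mem_LPr {K : ℕ} {u₀ : ℝ} {p : ℕ} :
    p ∈ LPr K u₀ ↔ p < K ∧ p.Prime ∧ ¬ p ∣ bd ∧ Real.exp u₀ < p := by
  unfold LPr
  rw [mem_filter, Nat.mem_primesBelow]
  tauto

omit [Crv] in
lemma inv_sq_sum {S : Finset ℕ} {x : ℝ} (hx : 2 ≤ x) (hS : ∀ p ∈ S, x < p) :
    ∑ p ∈ S, 1 / (p : ℝ) ^ 2 ≤ 2 / x := by
  obtain ⟨b, hb⟩ : ∃ b, ∀ p ∈ S, p ≤ b := ⟨S.sup id, fun p hp => Finset.le_sup (f := id) hp⟩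
  have hf : 2 ≤ ⌊x⌋₊ := Nat.le_floor (by exact_mod_cast hx)
  have hsub : S ⊆ Ioc ⌊x⌋₊ (max b ⌊x⌋₊) := by
    intro p hp
    rw [mem_Ioc]
    refine ⟨?_, (hb p hp).trans (le_max_left _ _)⟩
    have h1 : (⌊x⌋₊ : ℝ) < p := (Nat.floor_le (by linarith)).trans_lt (hS p hp)
    exact_mod_cast h1
  calc ∑ p ∈ S, 1 / (p : ℝ) ^ 2 ≤ ∑ p ∈ Ioc ⌊x⌋₊ (max b ⌊x⌋₊), 1 / (p : ℝ) ^ 2 :=
        Finset.sum_le_sum_of_subset_of_nonneg hsub fun _ _ _ => by positivity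
    _ = ∑ p ∈ Ioc ⌊x⌋₊ (max b ⌊x⌋₊), ((p : ℝ) ^ 2)⁻¹ := by simp only [one_div]
    _ ≤ (⌊x⌋₊ : ℝ)⁻¹ - ((max b ⌊x⌋₊ : ℕ) : ℝ)⁻¹ :=
        sum_Ioc_inv_sq_le_sub (by omega) (le_max_right _ _)
    _ ≤ (⌊x⌋₊ : ℝ)⁻¹ := by
        have : 0 ≤ (((max b ⌊x⌋₊ : ℕ) : ℝ))⁻¹ := by positivity
        linarith
    _ ≤ 2 / x := by
        have h1 : x < ⌊x⌋₊ + 1 := Nat.lt_floor_add_one x
        have h2 : (2 : ℝ) ≤ ⌊x⌋₊ := by exact_mod_cast hf
        rw [inv_eq_one_div, div_le_div_iff₀ (by linarith) (by linarith)]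
        linarith

/-- the terms of `StMert` -/
noncomputable def cM (k : ℕ) : ℝ :=
  if k.Prime ∧ ¬ k ∣ bd then (lam k ^ 2 - 1) * Real.log k / k else 0

lemma mert_cM {C : ℝ} (hC : ∀ x : ℝ, 1 ≤ x →
    |∑ p ∈ gp x, (lam p ^ 2 - 1) * Real.log p / p| ≤ C) :
    ∀ x : ℝ, 1 ≤ x → |∑ k ∈ Finset.Icc 0 ⌊x⌋₊, cM k| ≤ C := by
  intro x hx
  have h1 : ∑ k ∈ Finset.Icc 0 ⌊x⌋₊, cM k = ∑ p ∈ gp x, (lam p ^ 2 - 1) * Real.log p / p := by
    unfold gp cM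
    rw [Finset.sum_filter]
    have e : Finset.Icc 0 ⌊x⌋₊ = Finset.range (⌊x⌋₊ + 1) := by
      ext k
      simp only [mem_Icc, mem_range]
      omega
    rw [e]
  rw [h1]
  exact hC x hx

omit [Crv] in
lemma tt_sq_eq {p : ℕ} (hp : p.Prime) (w : ℂ) :
    tt p w ^ 2 = Complex.exp (-(2 * w) * (Real.log p : ℝ)) * ((1 / p : ℝ) : ℂ) := by
  have hp0 : (p : ℂ) ≠ 0 := by exact_mod_cast hp.ne_zero
  unfold tt
  rw [← Complex.cpow_nat_mul]
  have e1 : ((2 : ℕ) : ℂ) * (-(1 / 2) - w) = -(2 * w) + (-1) := by push_cast; ring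
  rw [e1, Complex.cpow_add _ _ hp0, Complex.cpow_neg_one]
  congr 1
  · rw [Complex.cpow_def_of_ne_zero hp0, ← Complex.natCast_log]
    congr 1
    ring
  · push_cast
    rw [one_div]

/-- the first order term -/
lemma large_sum {C : ℝ} (hC : ∀ x : ℝ, 1 ≤ x →
    |∑ p ∈ gp x, (lam p ^ 2 - 1) * Real.log p / p| ≤ C) {w : ℂ} (hw : 0 < w.re) {u₀ : ℝ}
    (h0 : 0 < u₀) {K : ℕ} (hK : Real.exp u₀ + 1 ≤ K) :
    ‖∑ p ∈ LPr K u₀, ((lam p ^ 2 - 1 : ℝ) : ℂ) * tt p w ^ 2‖ ≤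
      C * (3 / u₀ + 2 * ‖w‖ * Real.log (1 + 1 / (2 * w.re * u₀))) := by
  have hK1 : Real.exp u₀ ≤ ((K - 1 : ℕ) : ℝ) := by
    have h1 : 1 ≤ K := by
      have : (1 : ℝ) ≤ K := by
        have := Real.exp_pos u₀
        linarith
      exact_mod_cast this
    push_cast [Nat.cast_sub h1]
    linarith
  have hK0 : (0 : ℝ) < ((K - 1 : ℕ) : ℝ) := (Real.exp_pos _).trans_le hK1
  set u₁ := Real.log ((K - 1 : ℕ) : ℝ) with hu₁
  have hu1e : Real.exp u₁ = ((K - 1 : ℕ) : ℝ) := Real.exp_log hK0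
  have h01 : u₀ ≤ u₁ := by
    rw [hu₁, Real.le_log_iff_exp_le hK0]
    exact hK1
  have h1 := Abel.prime_norm (mert_cM hC) (w := 2 * w) (by
    simp only [Complex.mul_re, Complex.re_ofNat, Complex.im_ofNat, zero_mul, sub_zero]
    linarith) h0 h01
  have h2 : ∑ k ∈ Finset.Ioc ⌊Real.exp u₀⌋₊ ⌊Real.exp u₁⌋₊,
      Complex.exp (-(2 * w) * (Real.log k : ℝ)) * ((Real.log k : ℝ) : ℂ)⁻¹ * (cM k : ℂ) =
      ∑ p ∈ LPr K u₀, ((lam p ^ 2 - 1 : ℝ) : ℂ) * tt p w ^ 2 := by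
    rw [hu1e, Nat.floor_natCast]
    have hsub : LPr K u₀ ⊆ Finset.Ioc ⌊Real.exp u₀⌋₊ (K - 1) := by
      intro p hp
      have hp' := mem_LPr.1 hp
      rw [mem_Ioc]
      refine ⟨(Nat.floor_lt (Real.exp_pos _).le).2 hp'.2.2.2, ?_⟩
      omega
    rw [← Finset.sum_subset hsub]
    · refine Finset.sum_congr rfl fun p hp => ?_
      have hp' := mem_LPr.1 hp
      have hpp := hp'.2.1
      have hlog : Real.log p ≠ 0 := (Real.log_pos (by exact_mod_cast hpp.one_lt)).ne'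
      have hlogc : ((Real.log p : ℝ) : ℂ) ≠ 0 := by exact_mod_cast hlog
      have hp0 : (p : ℂ) ≠ 0 := by exact_mod_cast hpp.ne_zero
      rw [tt_sq_eq hpp]
      unfold cM
      rw [if_pos ⟨hpp, hp'.2.2.1⟩]
      have e4 : (((lam p ^ 2 - 1) * Real.log p / p : ℝ) : ℂ) =
          ((lam p ^ 2 - 1 : ℝ) : ℂ) * ((Real.log p : ℝ) : ℂ) * ((1 / p : ℝ) : ℂ) := by
        rw [← Complex.ofReal_mul, ← Complex.ofReal_mul]
        congr 1
        ring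
      rw [e4]
      have e5 := inv_mul_cancel₀ hlogc
      linear_combination (Complex.exp (-(2 * w) * ((Real.log p : ℝ) : ℂ)) *
        ((lam p ^ 2 - 1 : ℝ) : ℂ) * ((1 / p : ℝ) : ℂ)) * e5
    · intro k hk hk'
      rw [mem_Ioc] at hk
      unfold cM
      rw [if_neg]
      · simp
      · rintro ⟨hkp, hkb⟩
        refine hk' (mem_LPr.2 ⟨by omega, hkp, hkb, ?_⟩)
        exact (Nat.floor_lt (Real.exp_pos _).le).1 hk.1
  rw [h2] at h1
  have e2 : ‖(2 : ℂ) * w‖ = 2 * ‖w‖ := by rw [norm_mul]; norm_num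
  have e3 : ((2 : ℂ) * w).re = 2 * w.re := by
    simp only [Complex.mul_re, Complex.re_ofNat, Complex.im_ofNat, zero_mul, sub_zero]
  rw [e2, e3] at h1
  exact h1

lemma norm_lam_le {p : ℕ} (hp : p.Prime) : ‖((lam p ^ 2 - 1 : ℝ) : ℂ)‖ ≤ 3 := by
  have h2 := abs_le.1 (abs_lam_le pfCoef hp)
  rw [Complex.norm_real, Real.norm_eq_abs, abs_le]
  constructor <;> nlinarith

/-- the large primes, near `s = 1` -/
lemma large_near {C : ℝ} (hC : ∀ x : ℝ, 1 ≤ x →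
    |∑ p ∈ gp x, (lam p ^ 2 - 1) * Real.log p / p| ≤ C) {w : ℂ} (hw : 0 < w.re) {u₀ δ : ℝ}
    (h0 : 5 ≤ u₀) (hδ : δ ≤ 1)
    (hδ1 : C * (3 / u₀ + 2 * ‖w‖ * Real.log (1 + 1 / (2 * w.re * u₀))) + 1092 / Real.exp u₀ ≤ δ)
    {K : ℕ} (hK : Real.exp u₀ + 1 ≤ K) :
    ‖∏ p ∈ LPr K u₀, EC1 p (fun x => Lp p (1 + w) x) - 1‖ ≤ 2 * δ := by
  have hx : (100 : ℝ) ≤ Real.exp u₀ := by
    have h1 : Real.exp 5 ≤ Real.exp u₀ := Real.exp_le_exp.2 h0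
    have h2 : Real.exp 5 = (Real.exp 1) ^ 5 := by rw [← Real.exp_nat_mul]; norm_num
    have h3 : (2.7 : ℝ) ^ 5 ≤ (Real.exp 1) ^ 5 := by
      have := Real.exp_one_gt_d9
      gcongr
      linarith
    rw [h2] at h1
    refine le_trans ?_ (h3.trans h1)
    norm_num
  set v : ℕ → ℂ := fun p => EC1 p (fun x => Lp p (1 + w) x) - 1 with hv
  have hmain : ∀ p ∈ LPr K u₀,
      ‖v p - ((lam p ^ 2 - 1 : ℝ) : ℂ) * tt p w ^ 2‖ ≤ 482 / (p : ℝ) ^ 2 ∧ ‖v p‖ ≤ 8 / p := by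
    intro p hp
    have hp' := mem_LPr.1 hp
    have hpp := hp'.2.1
    have hp100 : (100 : ℝ) ≤ p := hx.trans hp'.2.2.2.le
    have h1 := EC1_Lp hpp hp'.2.2.1 hw.le
    have e1 : v p - ((lam p ^ 2 - 1 : ℝ) : ℂ) * tt p w ^ 2 =
        EC1 p (fun x => Lp p (1 + w) x) - (1 + ((lam p ^ 2 - 1 : ℝ) : ℂ) * tt p w ^ 2) := by
      simp only [hv]; ring
    rw [e1]
    refine ⟨h1, ?_⟩
    have e2 : v p = (EC1 p (fun x => Lp p (1 + w) x) -
        (1 + ((lam p ^ 2 - 1 : ℝ) : ℂ) * tt p w ^ 2)) + ((lam p ^ 2 - 1 : ℝ) : ℂ) * tt p w ^ 2 := by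
      simp only [hv]; ring
    rw [e2]
    have h3 : ‖((lam p ^ 2 - 1 : ℝ) : ℂ) * tt p w ^ 2‖ ≤ 3 * (1 / p) := by
      rw [norm_mul, norm_pow]
      have := norm_lam_le hpp
      have := norm_tt_sq_le (three_le hpp hp'.2.2.1) hw.le
      gcongr
    have h4 : 482 / (p : ℝ) ^ 2 ≤ 5 * (1 / p) := by
      rw [mul_one_div, div_le_div_iff₀ (by positivity) (by positivity)]
      nlinarith
    calc _ ≤ 482 / (p : ℝ) ^ 2 + 3 * (1 / p) := (norm_add_le _ _).trans (by gcongr)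
      _ ≤ 5 * (1 / p) + 3 * (1 / p) := by gcongr
      _ = 8 / p := by ring
  have hlog : ∀ p ∈ LPr K u₀,
      ‖Complex.log (1 + v p) - ((lam p ^ 2 - 1 : ℝ) : ℂ) * tt p w ^ 2‖ ≤ 546 * (1 / (p : ℝ) ^ 2) ∧
      1 + v p ≠ 0 := by
    intro p hp
    obtain ⟨h1, h2⟩ := hmain p hp
    have hp' := mem_LPr.1 hp
    have hp100 : (100 : ℝ) ≤ p := hx.trans hp'.2.2.2.le
    have h3 : 8 / (p : ℝ) ≤ 8 / 100 := by gcongr
    have hv1 : ‖v p‖ < 1 := by linarith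
    have h4 := Complex.norm_log_one_add_sub_self_le hv1
    have h5 : (1 - ‖v p‖)⁻¹ ≤ 2 := by
      rw [show (2 : ℝ) = (1 / 2)⁻¹ by norm_num]
      exact inv_anti₀ (by norm_num) (by linarith)
    have h6 : ‖v p‖ ^ 2 * (1 - ‖v p‖)⁻¹ / 2 ≤ 64 * (1 / (p : ℝ) ^ 2) := by
      calc ‖v p‖ ^ 2 * (1 - ‖v p‖)⁻¹ / 2 ≤ (8 / p) ^ 2 * 2 / 2 := by gcongr
        _ = 64 * (1 / (p : ℝ) ^ 2) := by rw [div_pow]; ring
    refine ⟨?_, ?_⟩
    · have e : Complex.log (1 + v p) - ((lam p ^ 2 - 1 : ℝ) : ℂ) * tt p w ^ 2 =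
        (Complex.log (1 + v p) - v p) + (v p - ((lam p ^ 2 - 1 : ℝ) : ℂ) * tt p w ^ 2) := by ring
      rw [e]
      refine (norm_add_le _ _).trans ?_
      have e7 : 482 / (p : ℝ) ^ 2 = 482 * (1 / (p : ℝ) ^ 2) := by ring
      linarith
    · intro h
      have : v p = -1 := by linear_combination h
      rw [this, norm_neg, norm_one] at hv1
      exact lt_irrefl _ hv1
  set W : ℂ := ∑ p ∈ LPr K u₀, Complex.log (1 + v p) with hW
  have hWn : ‖W‖ ≤ δ := by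
    have e : W = ∑ p ∈ LPr K u₀, ((lam p ^ 2 - 1 : ℝ) : ℂ) * tt p w ^ 2 +
        ∑ p ∈ LPr K u₀, (Complex.log (1 + v p) - ((lam p ^ 2 - 1 : ℝ) : ℂ) * tt p w ^ 2) := by
      rw [hW, ← Finset.sum_add_distrib]
      refine Finset.sum_congr rfl fun p _ => ?_
      ring
    rw [e]
    refine (norm_add_le _ _).trans (le_trans ?_ hδ1)
    have h1 := large_sum hC hw (by linarith : 0 < u₀) hK
    have h2 : ‖∑ p ∈ LPr K u₀, (Complex.log (1 + v p) -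
        ((lam p ^ 2 - 1 : ℝ) : ℂ) * tt p w ^ 2)‖ ≤ 1092 / Real.exp u₀ := by
      refine (norm_sum_le _ _).trans ?_
      calc ∑ p ∈ LPr K u₀, ‖Complex.log (1 + v p) - ((lam p ^ 2 - 1 : ℝ) : ℂ) * tt p w ^ 2‖
          ≤ ∑ p ∈ LPr K u₀, 546 * (1 / (p : ℝ) ^ 2) :=
            Finset.sum_le_sum fun p hp => (hlog p hp).1
        _ = 546 * ∑ p ∈ LPr K u₀, 1 / (p : ℝ) ^ 2 := by rw [Finset.mul_sum]
        _ ≤ 546 * (2 / Real.exp u₀) := by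
            have := inv_sq_sum (S := LPr K u₀) (x := Real.exp u₀) (by linarith)
              (fun p hp => (mem_LPr.1 hp).2.2.2)
            gcongr
        _ = 1092 / Real.exp u₀ := by ring
    linarith
  have hprod : ∏ p ∈ LPr K u₀, EC1 p (fun x => Lp p (1 + w) x) = Complex.exp W := by
    rw [hW, Complex.exp_sum]
    refine Finset.prod_congr rfl fun p hp => ?_
    rw [Complex.exp_log (hlog p hp).2]
    simp only [hv]
    ring
  rw [hprod]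
  refine (Complex.norm_exp_sub_one_le (hWn.trans hδ)).trans ?_
  gcongr

/-- the large primes, everywhere -/
lemma large_far {w : ℂ} {L u₀ : ℝ} (hL : 2 ≤ L) (hw : w.re = 1 / L) (h0 : 1 ≤ u₀) (K : ℕ) :
    ‖∏ p ∈ LPr K u₀, EC1 p (fun x => Lp p (1 + w) x)‖ ≤
      Real.exp (1000 + 792 * (1 + Real.log (1 + L / (2 * u₀)))) := by
  have hL0 : 0 < L := by linarith
  have hw0 : 0 ≤ w.re := by rw [hw]; positivity
  have hx : (2 : ℝ) ≤ Real.exp u₀ := by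
    have := Real.add_one_le_exp u₀
    linarith
  rw [norm_prod]
  have h1 : ∀ p ∈ LPr K u₀, ‖EC1 p (fun x => Lp p (1 + w) x)‖ ≤
      Real.exp (482 * (1 / (p : ℝ) ^ 2) + 3 * (p : ℝ) ^ (-1 - 2 / L)) := by
    intro p hp
    have hp' := mem_LPr.1 hp
    have hpp := hp'.2.1
    have h2 := EC1_Lp hpp hp'.2.2.1 hw0
    have e : EC1 p (fun x => Lp p (1 + w) x) = (EC1 p (fun x => Lp p (1 + w) x) -
        (1 + ((lam p ^ 2 - 1 : ℝ) : ℂ) * tt p w ^ 2)) +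
        (1 + ((lam p ^ 2 - 1 : ℝ) : ℂ) * tt p w ^ 2) := by ring
    rw [e]
    have h3 : ‖(1 : ℂ) + ((lam p ^ 2 - 1 : ℝ) : ℂ) * tt p w ^ 2‖ ≤
        1 + 3 * (p : ℝ) ^ (-1 - 2 / L) := by
      refine (norm_add_le _ _).trans ?_
      rw [norm_one, norm_mul, norm_pow, norm_tt_sq hpp.pos, hw]
      have := norm_lam_le hpp
      have e2 : (-1 - 2 * (1 / L) : ℝ) = -1 - 2 / L := by ring
      rw [e2]
      gcongr
    refine (norm_add_le _ _).trans ?_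
    have h4 := Real.add_one_le_exp (482 * (1 / (p : ℝ) ^ 2) + 3 * (p : ℝ) ^ (-1 - 2 / L))
    have e3 : 482 / (p : ℝ) ^ 2 = 482 * (1 / (p : ℝ) ^ 2) := by ring
    linarith
  calc ∏ p ∈ LPr K u₀, ‖EC1 p (fun x => Lp p (1 + w) x)‖
      ≤ ∏ p ∈ LPr K u₀, Real.exp (482 * (1 / (p : ℝ) ^ 2) + 3 * (p : ℝ) ^ (-1 - 2 / L)) :=
        Finset.prod_le_prod (fun _ _ => norm_nonneg _) h1
    _ = Real.exp (482 * (∑ p ∈ LPr K u₀, 1 / (p : ℝ) ^ 2) +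
          3 * ∑ p ∈ LPr K u₀, (p : ℝ) ^ (-1 - 2 / L)) := by
        rw [← Real.exp_sum, Finset.sum_add_distrib, Finset.mul_sum, Finset.mul_sum]
    _ ≤ _ := by
        apply Real.exp_le_exp.2
        have h5 := inv_sq_sum (S := LPr K u₀) (x := Real.exp u₀) hx
          (fun p hp => (mem_LPr.1 hp).2.2.2)
        have h6 : 2 / Real.exp u₀ ≤ 1 := by
          rw [div_le_one (by linarith)]; exact hx
        have h7 := sum_rpow_tail' (S := LPr K u₀) (fun p hp => (mem_LPr.1 hp).2.1) hx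
          (σ := 2 / L) (by positivity) (by rw [div_le_one hL0]; exact hL)
          (fun p hp => (mem_LPr.1 hp).2.2.2.le)
        rw [Real.log_exp] at h7
        have h8 : Real.exp (-(2 / L) * u₀) ≤ 1 := by
          apply Real.exp_le_one_iff.2
          have : 0 ≤ 2 / L * u₀ := by positivity
          linarith
        have h9 : 1 / (2 / L * u₀) = L / (2 * u₀) := by field_simp
        rw [h9] at h7
        have h10 : 0 ≤ Real.log (1 + L / (2 * u₀)) := by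
          apply Real.log_nonneg
          have : 0 ≤ L / (2 * u₀) := by positivity
          linarith
        have h11 : 264 * Real.exp (-(2 / L) * u₀) * (1 + Real.log (1 + L / (2 * u₀))) ≤
            264 * 1 * (1 + Real.log (1 + L / (2 * u₀))) := by gcongr
        linarith

end P004E.H156
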