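import Vale.Agent.P004E.H156.Model
import Vale.Agent.P004E.H156.CEx

/-!
# P004E, module F3 (part 3): one Euler factor in the weighted model
-/

open Finset Real

namespace P004E.H156

open P004G
open P004.H293 (E1 EE E1_mono E1_const E1_mul_left)
open P004G.H293 (Lp tt norm_tt_le norm_tt_le' norm_tt abs_lam_le den_lower' Lp_eq inv_sqrt_sq
  three_le)

variable [Crv]

/-- the Euler factor with the density -/
noncomputable def Gf (N D p : ℕ) (s : ℂ) (x : ℝ) : ℂ :=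
  (wt N D p x : ℂ) * (if p ∣ bd then 1 else Lp p s x)

/-- its expectation -/
noncomputable def Ge (N D p : ℕ) (s : ℂ) : ℂ := EC1 p (fun x => Gf N D p s x)

lemma norm_tt_sq_le {p : ℕ} (hp : 3 ≤ p) {z : ℂ} (hz : 0 ≤ z.re) : ‖tt p z‖ ^ 2 ≤ 1 / p := by
  rw [← inv_sqrt_sq (by omega : 0 < p)]
  exact pow_le_pow_left₀ (norm_nonneg _) (norm_tt_le' hp hz) 2

/-- a bound for one Euler factor -/
lemma norm_Lp_le {p : ℕ} (hp : p.Prime) (hp3 : 3 ≤ p) {z : ℂ} (hz : 0 ≤ z.re) {x : ℝ}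
    (hx : x = 0 ∨ x = 1 ∨ x = -1) : ‖Lp p (1 + z) x‖ ≤ 25 / 4 := by
  rw [Lp_eq hp.pos, norm_inv]
  have h1 : ‖(x : ℂ) * tt p z‖ ≤ 3 / 5 := by
    rw [norm_mul, Complex.norm_real]
    have h2 : ‖x‖ ≤ 1 := by rcases hx with h | h | h <;> simp [h]
    calc ‖x‖ * ‖tt p z‖ ≤ 1 * (3 / 5) := by
          gcongr
          exact norm_tt_le hp3 hz
      _ = _ := one_mul _
  have h3 := den_lower' (abs_lam_le pfCoef hp) h1
  rw [show (25 / 4 : ℝ) = (4 / 25)⁻¹ by norm_num]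
  exact inv_anti₀ (by norm_num) h3

omit [Crv] in
lemma EC1_congr {p : ℕ} {F G : ℝ → ℂ} (h : ∀ x, x = 0 ∨ x = 1 ∨ x = -1 → F x = G x) :
    EC1 p F = EC1 p G := by
  rw [EC1_eq, EC1_eq, h 0 (Or.inl rfl), h 1 (Or.inr (Or.inl rfl)), h (-1) (Or.inr (Or.inr rfl))]

omit [Crv] in
lemma norm_EC1_le {p : ℕ} (hp : 1 ≤ p) (F : ℝ → ℂ) : ‖EC1 p F‖ ≤ E1 p (fun x => ‖F x‖) := by
  rw [← EC_singleton, ← P004.H293.EE_singleton p (fun x => ‖F x‖)]
  exact norm_EC_le (fun q hq => by rw [mem_singleton.1 hq]; exact hp) _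

/-- the crude bound -/
lemma norm_Ge_le {p : ℕ} (hp : p.Prime) (N D : ℕ) {z : ℂ} (hz : 0 ≤ z.re) :
    ‖Ge N D p (1 + z)‖ ≤ 25 / 4 := by
  refine (norm_EC1_le hp.one_lt.le _).trans ?_
  have h1 : E1 p (fun x => ‖Gf N D p (1 + z) x‖) ≤ E1 p (fun x => 25 / 4 * wt N D p x) := by
    refine E1_mono hp.one_lt.le fun x hx => ?_
    unfold Gf
    rw [norm_mul, Complex.norm_real, Real.norm_of_nonneg (wt_nonneg hp.two_le N D x), mul_comm]
    refine mul_le_mul_of_nonneg_right ?_ (wt_nonneg hp.two_le N D x)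
    split_ifs with hb
    · rw [norm_one]; norm_num
    · exact norm_Lp_le hp (three_le hp hb) hz hx
  refine h1.trans ?_
  rw [E1_mul_left, E1_wt_one hp.two_le, mul_one]

/-- the factor at a bad prime -/
lemma Ge_bad {p : ℕ} (hp : p.Prime) (N D : ℕ) (hb : p ∣ bd) (s : ℂ) : Ge N D p s = 1 := by
  unfold Ge
  have h1 : EC1 p (fun x => Gf N D p s x) = EC1 p (fun x => ((wt N D p x : ℝ) : ℂ)) := by
    refine EC1_congr fun x _ => ?_
    unfold Gf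
    rw [if_pos hb, mul_one]
  rw [h1]
  have h2 := E1_wt_one hp.two_le N D
  apply Complex.ext
  · simp only [EC1, Complex.ofReal_re, Complex.one_re]
    exact h2
  · simp only [EC1, Complex.ofReal_im, Complex.one_im]
    exact E1_const p 0

/-- a large prime -/
lemma Ge_large {p : ℕ} {N D : ℕ} (hN : ¬ p ∣ N) (hD : D < p) (hb : ¬ p ∣ bd)
    (s : ℂ) : Ge N D p s = EC1 p (fun x => Lp p s x) := by
  unfold Ge
  refine EC1_congr fun x _ => ?_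
  unfold Gf wt
  rw [if_neg hb, if_neg hN, if_neg (by omega)]
  simp

/-- the expectation of one Euler factor -/
lemma EC1_Lp {p : ℕ} (hp : p.Prime) (hb : ¬ p ∣ bd) {z : ℂ} (hz : 0 ≤ z.re) :
    ‖EC1 p (fun x => Lp p (1 + z) x) - (1 + ((lam p ^ 2 - 1 : ℝ) : ℂ) * tt p z ^ 2)‖ ≤
      482 / (p : ℝ) ^ 2 := by
  have hp3 := three_le hp hb
  have hl := abs_lam_le pfCoef hp
  set l : ℂ := (lam p : ℂ) with hl_def
  have hln : ‖l‖ ≤ 2 := by simpa [hl_def] using hl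
  set t := tt p z with ht_def
  have ht : ‖t‖ ≤ 3 / 5 := norm_tt_le hp3 hz
  have ht2 : ‖t‖ ^ 2 ≤ 1 / p := norm_tt_sq_le hp3 hz
  have hpR : (3 : ℝ) ≤ p := by exact_mod_cast hp3
  have hp0 : (p : ℂ) ≠ 0 := by exact_mod_cast hp.ne_zero
  set Dp : ℂ := 1 - l * t + t ^ 2 with hDp
  set Dm : ℂ := 1 + l * t + t ^ 2 with hDm
  have hDpn : 4 / 25 ≤ ‖Dp‖ := den_lower' hl ht
  have hDmn : 4 / 25 ≤ ‖Dm‖ := by
    have := den_lower' hl (t := -t) (by rwa [norm_neg])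
    rw [hDm]
    convert this using 2
    ring
  have hDp0 : Dp ≠ 0 := by
    intro h; rw [h, norm_zero] at hDpn; norm_num at hDpn
  have hDm0 : Dm ≠ 0 := by
    intro h; rw [h, norm_zero] at hDmn; norm_num at hDmn
  have e0 : Lp p (1 + z) 0 = 1 := by rw [Lp_eq hp.pos]; simp
  have e1 : Lp p (1 + z) 1 = Dp⁻¹ := by
    rw [Lp_eq hp.pos, hDp]
    congr 1
    push_cast
    ring
  have e2 : Lp p (1 + z) (-1) = Dm⁻¹ := by
    rw [Lp_eq hp.pos, hDm]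
    congr 1
    push_cast
    ring
  rw [EC1_eq, e0, e1, e2]
  set A : ℂ := (Dp⁻¹ + Dm⁻¹) / 2 with hA
  have hlam : ((lam p ^ 2 - 1 : ℝ) : ℂ) = l ^ 2 - 1 := by rw [hl_def]; push_cast; ring
  rw [hlam]
  have hnum : A - (1 + (l ^ 2 - 1) * t ^ 2) =
      -(t ^ 4 * (1 + (l ^ 2 - 1) * (2 - l ^ 2) + (l ^ 2 - 1) * t ^ 2)) * (Dp⁻¹ * Dm⁻¹) := by
    rw [hA]
    field_simp
    rw [hDp, hDm]
    ring
  have hl2 : ‖l ^ 2 - 1‖ ≤ 3 := by
    have h1 : l ^ 2 - 1 = ((lam p ^ 2 - 1 : ℝ) : ℂ) := hlam.symm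
    rw [h1, Complex.norm_real, Real.norm_eq_abs, abs_le]
    have h2 := abs_le.1 hl
    constructor <;> nlinarith
  have hl3 : ‖2 - l ^ 2‖ ≤ 2 := by
    have h1 : 2 - l ^ 2 = ((2 - lam p ^ 2 : ℝ) : ℂ) := by rw [hl_def]; push_cast; ring
    rw [h1, Complex.norm_real, Real.norm_eq_abs, abs_le]
    have h2 := abs_le.1 hl
    constructor <;> nlinarith
  have hbr : ‖1 + (l ^ 2 - 1) * (2 - l ^ 2) + (l ^ 2 - 1) * t ^ 2‖ ≤ 9 := by
    calc ‖1 + (l ^ 2 - 1) * (2 - l ^ 2) + (l ^ 2 - 1) * t ^ 2‖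
        ≤ ‖(1 : ℂ)‖ + ‖(l ^ 2 - 1) * (2 - l ^ 2)‖ + ‖(l ^ 2 - 1) * t ^ 2‖ := norm_add₃_le
      _ ≤ 1 + 3 * 2 + 3 * (3 / 5) ^ 2 := by
          rw [norm_one, norm_mul, norm_mul, norm_pow t]
          gcongr
      _ ≤ 9 := by norm_num
  have hinv : ‖Dp⁻¹ * Dm⁻¹‖ ≤ (25 / 4) * (25 / 4) := by
    rw [norm_mul, norm_inv, norm_inv]
    have h1 : ‖Dp‖⁻¹ ≤ 25 / 4 := by
      rw [show (25 / 4 : ℝ) = (4 / 25)⁻¹ by norm_num]; exact inv_anti₀ (by norm_num) hDpn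
    have h2 : ‖Dm‖⁻¹ ≤ 25 / 4 := by
      rw [show (25 / 4 : ℝ) = (4 / 25)⁻¹ by norm_num]; exact inv_anti₀ (by norm_num) hDmn
    gcongr
  have hA4 : ‖A - (1 + (l ^ 2 - 1) * t ^ 2)‖ ≤ 352 * (‖t‖ ^ 2) ^ 2 := by
    rw [hnum, norm_mul, norm_neg, norm_mul, norm_pow]
    calc ‖t‖ ^ 4 * ‖1 + (l ^ 2 - 1) * (2 - l ^ 2) + (l ^ 2 - 1) * t ^ 2‖ * ‖Dp⁻¹ * Dm⁻¹‖
        ≤ ‖t‖ ^ 4 * 9 * ((25 / 4) * (25 / 4)) := by gcongr
      _ ≤ 352 * (‖t‖ ^ 2) ^ 2 := by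
          have : (‖t‖ ^ 2) ^ 2 = ‖t‖ ^ 4 := by ring
          rw [this]
          have h4 : 0 ≤ ‖t‖ ^ 4 := by positivity
          nlinarith
  have hA1 : ‖A - 1‖ ≤ 130 * ‖t‖ ^ 2 := by
    have h1 : A - 1 = (A - (1 + (l ^ 2 - 1) * t ^ 2)) + (l ^ 2 - 1) * t ^ 2 := by ring
    rw [h1]
    refine (norm_add_le _ _).trans ?_
    rw [norm_mul, norm_pow t]
    have h2 : ‖t‖ ^ 2 ≤ 9 / 25 := by
      calc ‖t‖ ^ 2 ≤ (3 / 5) ^ 2 := by gcongr
        _ = 9 / 25 := by norm_num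
    have h3 : ‖l ^ 2 - 1‖ * ‖t‖ ^ 2 ≤ 3 * ‖t‖ ^ 2 := by gcongr
    have h4 : (‖t‖ ^ 2) ^ 2 ≤ 9 / 25 * ‖t‖ ^ 2 := by
      rw [sq (‖t‖ ^ 2)]; gcongr
    have h5 : 0 ≤ ‖t‖ ^ 2 := by positivity
    linarith
  have hfin : (1 / p : ℂ) * 1 + ((1 : ℂ) - 1 / p) / 2 * (Dp⁻¹ + Dm⁻¹) -
      (1 + (l ^ 2 - 1) * t ^ 2) = (A - (1 + (l ^ 2 - 1) * t ^ 2)) - (1 / p : ℂ) * (A - 1) := by
    rw [hA]
    ring
  rw [hfin]
  have h1p : ‖(1 / p : ℂ)‖ = 1 / p := by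
    rw [norm_div, norm_one, Complex.norm_natCast]
  calc ‖(A - (1 + (l ^ 2 - 1) * t ^ 2)) - (1 / p : ℂ) * (A - 1)‖
      ≤ ‖A - (1 + (l ^ 2 - 1) * t ^ 2)‖ + ‖(1 / p : ℂ) * (A - 1)‖ := norm_sub_le _ _
    _ ≤ 352 * (‖t‖ ^ 2) ^ 2 + 1 / p * (130 * ‖t‖ ^ 2) := by
        rw [norm_mul, h1p]
        gcongr
    _ ≤ 352 * (1 / p) ^ 2 + 1 / p * (130 * (1 / p)) := by gcongr
    _ = 482 / (p : ℝ) ^ 2 := by
        field_simp
        ring

/-! ### the point `s = 1` -/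

/-- the Euler factor at `s = 1` -/
noncomputable def lp1 (p : ℕ) (x : ℝ) : ℝ := (1 - (ca p : ℝ) * x / p + x ^ 2 / p)⁻¹

lemma Lp_one (p : ℕ) (x : ℝ) : Lp p 1 x = ((lp1 p x : ℝ) : ℂ) := by
  unfold Lp lp1
  have h1 : (p : ℂ) ^ (-1 : ℂ) = ((p : ℝ) : ℂ)⁻¹ := by
    rw [Complex.cpow_neg_one]
    push_cast
    rfl
  have h2 : (p : ℂ) ^ (1 - 2 * (1 : ℂ)) = ((p : ℝ) : ℂ)⁻¹ := by
    rw [show (1 : ℂ) - 2 * 1 = -1 by ring]; exact h1
  rw [h1, h2]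
  push_cast
  congr 1

lemma lp1_pos {p : ℕ} (hp : p.Prime) (hb : ¬ p ∣ bd) {x : ℝ} (hx : x = 0 ∨ x = 1 ∨ x = -1) :
    0 < lp1 p x := by
  unfold lp1
  rw [inv_pos]
  have hp3 := three_le hp hb
  have hpR : (3 : ℝ) ≤ p := by exact_mod_cast hp3
  have hs : 0 < √(p : ℝ) := Real.sqrt_pos.2 (by linarith)
  have hs2 : √(p : ℝ) ^ 2 = p := Real.sq_sqrt (by linarith)
  have hs1 : 1 < √(p : ℝ) := by nlinarith
  have hca : |(ca p : ℝ)| ≤ 2 * √(p : ℝ) := by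
    have := abs_lam_le pfCoef hp
    unfold lam at this
    rw [abs_div, abs_of_pos hs, div_le_iff₀ hs] at this
    exact this
  have hx2 : x ^ 2 = 0 ∨ x ^ 2 = 1 := by rcases hx with h | h | h <;> simp [h]
  have hxa : |x| ≤ 1 := by rcases hx with h | h | h <;> simp [h]
  rcases hx with h | h
  · rw [h]; norm_num
  · have hx2' : x ^ 2 = 1 := by rcases h with h | h <;> simp [h]
    rw [hx2']
    have h3 : (ca p : ℝ) * x ≤ 2 * √(p : ℝ) := by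
      calc (ca p : ℝ) * x ≤ |(ca p : ℝ) * x| := le_abs_self _
        _ = |(ca p : ℝ)| * |x| := abs_mul _ _
        _ ≤ (2 * √(p : ℝ)) * 1 := by gcongr
        _ = _ := mul_one _
    have h4 : 0 < (p : ℝ) - (ca p : ℝ) * x + 1 := by nlinarith
    have h5 : 1 - (ca p : ℝ) * x / p + 1 / p = ((p : ℝ) - (ca p : ℝ) * x + 1) / p := by
      field_simp
    rw [h5]
    positivity

/-- the expectation at `s = 1` -/
noncomputable def ge1 (N D p : ℕ) : ℝ :=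
  E1 p (fun x => wt N D p x * (if p ∣ bd then 1 else lp1 p x))

lemma Ge_one (N D p : ℕ) : Ge N D p 1 = ((ge1 N D p : ℝ) : ℂ) := by
  unfold Ge ge1
  have h1 : ∀ x : ℝ, Gf N D p 1 x = ((wt N D p x * (if p ∣ bd then 1 else lp1 p x) : ℝ) : ℂ) := by
    intro x
    unfold Gf
    split_ifs
    · push_cast; rfl
    · rw [Lp_one]; push_cast; rfl
  simp only [h1]
  apply Complex.ext
  · simp only [EC1, Complex.ofReal_re]
  · simp only [EC1, Complex.ofReal_im]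
    exact E1_const p 0

lemma ge1_pos {p : ℕ} (hp : p.Prime) (N D : ℕ) : 0 < ge1 N D p := by
  unfold ge1 E1
  have hp2 : (2 : ℝ) ≤ p := by exact_mod_cast hp.two_le
  have h1 : 0 < (1 - 1 / (p : ℝ)) / 2 := by
    have : 1 / (p : ℝ) ≤ 1 / 2 := by
      apply one_div_le_one_div_of_le (by norm_num) hp2
    linarith
  have hl : ∀ x : ℝ, x = 0 ∨ x = 1 ∨ x = -1 → 0 < (if p ∣ bd then (1 : ℝ) else lp1 p x) := by
    intro x hx
    split_ifs with hb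
    · norm_num
    · exact lp1_pos hp hb hx
  have hw1 : 0 < wt N D p 1 := by
    have a1 : (0 : ℝ) < p - 1 := by linarith
    have a2 : (0 : ℝ) < (p : ℝ) ^ 2 - 1 := by nlinarith
    unfold wt
    by_cases b1 : p ∣ N
    · rw [if_pos b1, if_pos rfl]
      positivity
    · rw [if_neg b1]
      by_cases b2 : p ≤ D
      · rw [if_pos b2, if_neg one_ne_zero]
        positivity
      · rw [if_neg b2]
        norm_num
  have h0 := mul_nonneg (wt_nonneg hp.two_le N D 0) (hl 0 (Or.inl rfl)).le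
  have h2 := mul_pos hw1 (hl 1 (Or.inr (Or.inl rfl)))
  have h3 := mul_nonneg (wt_nonneg hp.two_le N D (-1)) (hl (-1) (Or.inr (Or.inr rfl))).le
  have h4 : (0 : ℝ) ≤ 1 / p := by positivity
  have h5 := mul_nonneg h4 h0
  have h6 := mul_pos h1 (by linarith : 0 < wt N D p 1 * (if p ∣ bd then (1 : ℝ) else lp1 p 1) +
    wt N D p (-1) * (if p ∣ bd then (1 : ℝ) else lp1 p (-1)))
  linarith

/-- continuity at `s = 1` -/
lemma Ge_cont {p : ℕ} (hp : p.Prime) (N D : ℕ) :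
    ContinuousAt (fun s : ℂ => Ge N D p s) 1 := by
  by_cases hb : p ∣ bd
  · simp only [Ge_bad hp N D hb]
    exact continuousAt_const
  have h1 : ∀ x : ℝ, x = 0 ∨ x = 1 ∨ x = -1 → ContinuousAt (fun s : ℂ => Gf N D p s x) 1 := by
    intro x hx
    unfold Gf
    simp only [hb, if_false]
    refine ContinuousAt.mul continuousAt_const ?_
    unfold Lp
    have hp0 : (p : ℂ) ≠ 0 := by exact_mod_cast hp.ne_zero
    refine ContinuousAt.inv₀ ?_ ?_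
    · refine ContinuousAt.add (ContinuousAt.sub continuousAt_const ?_) ?_
      · exact continuousAt_const.mul (ContinuousAt.const_cpow (by fun_prop) (Or.inl hp0))
      · exact continuousAt_const.mul (ContinuousAt.const_cpow (by fun_prop) (Or.inl hp0))
    · have h2 := Lp_one p x
      have h3 := lp1_pos hp hb hx
      intro h
      unfold Lp at h2
      rw [h, inv_zero] at h2
      have h4 : lp1 p x = 0 := by exact_mod_cast h2.symm
      exact h3.ne' h4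
  unfold Ge
  simp only [EC1_eq]
  exact (continuousAt_const.mul (h1 0 (Or.inl rfl))).add (continuousAt_const.mul
    ((h1 1 (Or.inr (Or.inl rfl))).add (h1 (-1) (Or.inr (Or.inr rfl)))))

/-- the product over the small primes at `s = 1` -/
noncomputable def AA0 (N y : ℕ) : ℝ := ∏ p ∈ (y + 1).primesBelow, ge1 N y p

lemma AA0_pos (N y : ℕ) : 0 < AA0 N y :=
  Finset.prod_pos fun _ hp => ge1_pos (Nat.prime_of_mem_primesBelow hp) _ _

lemma Gf_small {N D y p : ℕ} (hp : p ≤ y) (hD : y ≤ D) (s : ℂ) (x : ℝ) :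
    Gf N D p s x = Gf N y p s x := by
  unfold Gf wt
  rw [if_pos (hp.trans hD), if_pos hp]

lemma Ge_small {N D y p : ℕ} (hp : p ≤ y) (hD : y ≤ D) (s : ℂ) : Ge N D p s = Ge N y p s := by
  unfold Ge
  simp only [Gf_small hp hD]

/-- the small primes near `s = 1` -/
lemma small_near (N y : ℕ) {δ : ℝ} (hδ : 0 < δ) : ∃ r : ℝ, 0 < r ∧ ∀ D : ℕ, y ≤ D → ∀ z : ℂ,
    ‖z‖ ≤ r → ‖∏ p ∈ (y + 1).primesBelow, Ge N D p (1 + z) - AA0 N y‖ ≤ δ := by
  have hc : ContinuousAt (fun s : ℂ => ∏ p ∈ (y + 1).primesBelow, Ge N y p s) 1 := by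
    refine tendsto_finsetProd _ fun p hp => ?_
    exact Ge_cont (Nat.prime_of_mem_primesBelow hp) N y
  have h1 : (∏ p ∈ (y + 1).primesBelow, Ge N y p 1) = ((AA0 N y : ℝ) : ℂ) := by
    simp only [Ge_one]
    unfold AA0
    push_cast
    rfl
  rw [Metric.continuousAt_iff] at hc
  obtain ⟨r, hr, hr'⟩ := hc δ hδ
  refine ⟨r / 2, by positivity, fun D hD z hz => ?_⟩
  have h2 := hr' (x := 1 + z) (by
    rw [dist_eq_norm]
    have : (1 : ℂ) + z - 1 = z := by ring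
    rw [this]
    linarith)
  rw [h1, dist_eq_norm] at h2
  rw [Finset.prod_congr rfl fun p hp => Ge_small (N := N) (D := D) (y := y)
    (by have := Nat.lt_of_mem_primesBelow hp; omega) hD (1 + z)]
  exact h2.le

/-- the small primes, everywhere -/
lemma small_far (N y D : ℕ) {z : ℂ} (hz : 0 ≤ z.re) :
    ‖∏ p ∈ (y + 1).primesBelow, Ge N D p (1 + z)‖ ≤ (25 / 4) ^ (y + 1) := by
  rw [norm_prod]
  calc ∏ p ∈ (y + 1).primesBelow, ‖Ge N D p (1 + z)‖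
      ≤ ∏ p ∈ (y + 1).primesBelow, (25 / 4 : ℝ) :=
        Finset.prod_le_prod (fun _ _ => norm_nonneg _) fun p hp =>
          norm_Ge_le (Nat.prime_of_mem_primesBelow hp) N D hz
    _ = (25 / 4 : ℝ) ^ ((y + 1).primesBelow).card := by rw [Finset.prod_const]
    _ ≤ (25 / 4) ^ (y + 1) := by
        refine pow_le_pow_right₀ (by norm_num) ?_
        refine (Finset.card_filter_le _ _).trans ?_
        rw [Finset.card_range]

end P004E.H156
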