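import Vale.Agent.P004E.H156.Intg

/-!
# P004E, module F3 (part 11): the main window
-/

open Real MeasureTheory Set Filter Topology
open scoped ENNReal

namespace P004E.H156

open P004 (ηf)
open P004.Wf (eta_zero eta_one eta_nonneg eta_le_one eta_smooth)
open P004G

variable {Y : ℕ} {ε : ℝ}

lemma hmain_neg (hY : 1 < (Y : ℝ)) (hε : 0 < ε) {x : ℝ} (hx : x ≤ 0) : hmain ε Y x = 0 := by
  have hL : 0 < Real.log Y := Real.log_pos hY
  unfold hmain
  rw [eta_zero (t := x / (ε * Real.log Y))]
  · ring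
  · exact (div_nonpos_of_nonpos_of_nonneg hx (by positivity)).trans zero_le_one

lemma hmain_nonneg (hY : 1 < (Y : ℝ)) (hε : 0 < ε) (x : ℝ) : 0 ≤ hmain ε Y x := by
  have hL : 0 < Real.log Y := Real.log_pos hY
  rcases le_or_gt x 0 with h | h
  · rw [hmain_neg hY hε h]
  · unfold hmain
    have h1 := eta_nonneg (x / (ε * Real.log Y))
    have h2 := eta_le_one (x / (3 / 2 * Real.log Y))
    have h3 : 0 ≤ 1 - ηf (x / (3 / 2 * Real.log Y)) := by linarith
    positivity

lemma hmain_le (hY : 1 < (Y : ℝ)) (hε : 0 < ε) (x : ℝ) : hmain ε Y x ≤ 3 := by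
  have hL : 0 < Real.log Y := Real.log_pos hY
  rcases le_or_gt x 0 with h | h
  · rw [hmain_neg hY hε h]; norm_num
  · rcases le_or_gt x (3 * Real.log Y) with h3 | h3
    · unfold hmain
      have h1 := eta_nonneg (x / (ε * Real.log Y))
      have h1' := eta_le_one (x / (ε * Real.log Y))
      have h2 := eta_le_one (x / (3 / 2 * Real.log Y))
      have h2' := eta_nonneg (x / (3 / 2 * Real.log Y))
      have h4 : 0 ≤ 1 - ηf (x / (3 / 2 * Real.log Y)) := by linarith
      have h4' : 1 - ηf (x / (3 / 2 * Real.log Y)) ≤ 1 := by linarith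
      have h5 : x / Real.log Y ≤ 3 := by rw [div_le_iff₀ hL]; exact h3
      calc x / Real.log Y * (ηf (x / (ε * Real.log Y)) * (1 - ηf (x / (3 / 2 * Real.log Y)))) ≤
          3 * (1 * 1) := by gcongr
        _ = 3 := by norm_num
    · unfold hmain
      rw [eta_one (t := x / (3 / 2 * Real.log Y))]
      · simp
      · rw [le_div_iff₀ (by positivity)]; linarith

lemma hmain_cont (Y : ℕ) (ε : ℝ) : Continuous (hmain ε Y) := by
  have he : Continuous ηf := (eta_smooth 0).continuous
  unfold hmain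
  exact (continuous_id.div_const _).mul ((he.comp (continuous_id.div_const _)).mul
    (continuous_const.sub (he.comp (continuous_id.div_const _))))

lemma hmain_Kw (hY : 1 < (Y : ℝ)) (hε : 0 < ε) (x : ℝ) :
    hmain ε Y x * Real.exp (-(1 / Real.log Y) * x) = Kw ε (x / Real.log Y) := by
  have hL : 0 < Real.log Y := Real.log_pos hY
  unfold hmain Kw Pe Pf Vf
  have e1 : x / (ε * Real.log Y) = ε⁻¹ * (x / Real.log Y) := by field_simp
  have e2 : x / (3 / 2 * Real.log Y) = x / Real.log Y / (3 / 2) := by field_simp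
  have e3 : -(1 / Real.log Y) * x = -1 * (x / Real.log Y) := by ring
  rw [e1, e2, e3]
  field_simp

/-- the Fourier representation of the main window -/
lemma hmain_rep (hY : 1 < (Y : ℝ)) (hε : 0 < ε)
    (hinv : ∀ x : ℝ, (Kw ε x : ℂ) = ∫ τ : ℝ, gF (Kw ε) τ * Complex.exp (τ * x * Complex.I))
    (x : ℝ) : ((hmain ε Y x : ℝ) * (Real.exp (-(1 / Real.log Y) * x) : ℝ) : ℂ) =
      ∫ τ : ℝ, ((Real.log Y : ℝ) * gF (Kw ε) (Real.log Y * τ)) *
        Complex.exp (τ * x * Complex.I) := by
  have hL : 0 < Real.log Y := Real.log_pos hY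
  rw [← Complex.ofReal_mul, hmain_Kw hY hε, hinv]
  have h1 := MeasureTheory.Measure.integral_comp_mul_left
    (fun t : ℝ => gF (Kw ε) t * Complex.exp (t * ((x / Real.log Y : ℝ) : ℂ) * Complex.I))
    (Real.log Y)
  rw [abs_of_pos (inv_pos.2 hL), Complex.real_smul] at h1
  have hLc : ((Real.log Y : ℝ) : ℂ) ≠ 0 := by exact_mod_cast hL.ne'
  have h2 : (∫ τ : ℝ, gF (Kw ε) τ * Complex.exp (τ * ((x / Real.log Y : ℝ) : ℂ) * Complex.I)) =
      ((Real.log Y : ℝ) : ℂ) * ∫ t : ℝ, gF (Kw ε) (Real.log Y * t) *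
        Complex.exp (((Real.log Y * t : ℝ) : ℂ) * ((x / Real.log Y : ℝ) : ℂ) * Complex.I) := by
    rw [h1, Complex.ofReal_inv, ← mul_assoc, mul_inv_cancel₀ hLc, one_mul]
  rw [h2, ← integral_const_mul]
  refine integral_congr_ae (Eventually.of_forall fun τ => ?_)
  simp only
  have e : (((Real.log Y * τ : ℝ) : ℂ) * ((x / Real.log Y : ℝ) : ℂ) * Complex.I) =
      (τ * x * Complex.I) := by
    rw [← Complex.ofReal_mul, ← Complex.ofReal_mul]
    congr 2
    field_simp
  rw [e]
  ring

variable [Crv]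

/-- the value at `n = 1` -/
lemma bet_one_ge (hL : 2 ≤ Real.log Y) (hε : 0 < ε) (hε1 : ε ≤ 1 / 2) :
    4 * Real.exp (-2 * π) ≤ bet (cfY Y (hmain ε Y)) 1 := by
  have hY : 1 < (Y : ℝ) := by
    by_contra hcon
    rw [not_lt] at hcon
    have := Real.log_nonpos (Nat.cast_nonneg Y) hcon
    linarith
  have hY0 : (0 : ℝ) < Y := by linarith
  have hL0 : 0 < Real.log Y := by linarith
  unfold bet
  rw [pfCoef.one, Int.cast_one, mul_one]
  have hm : Measurable (cfY Y (hmain ε Y)) := by
    unfold cfY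
    exact (hmain_cont Y ε).measurable.comp (Real.measurable_log.comp (measurable_id.mul_const _))
  have hint : IntegrableOn (fun u => Real.exp (-π * (1 : ℕ) * u) * cfY Y (hmain ε Y) u) (Ioi 0) := by
    have h1 : IntegrableOn (fun u : ℝ => Real.exp (-π * u)) (Ioi 0) :=
      integrableOn_exp_mul_Ioi (by linarith [Real.pi_pos]) 0
    refine Integrable.mono' (h1.mul_const 3) ?_ (Eventually.of_forall fun u => ?_)
    · exact ((by fun_prop : Measurable fun u : ℝ => Real.exp (-π * (1 : ℕ) * u)).mul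
        hm).aestronglyMeasurable
    · rw [norm_mul, Real.norm_eq_abs, Real.norm_eq_abs, abs_of_pos (Real.exp_pos _),
        Nat.cast_one, mul_one]
      have h2 : |cfY Y (hmain ε Y) u| ≤ 3 := by
        unfold cfY
        rw [abs_of_nonneg (hmain_nonneg hY hε _)]
        exact hmain_le hY hε _
      gcongr
  have hsub : Icc (1 : ℝ) 2 ⊆ Ioi 0 := fun u hu => lt_of_lt_of_le one_pos hu.1
  have h1 : ∫ u in Icc (1 : ℝ) 2, Real.exp (-π * (1 : ℕ) * u) * cfY Y (hmain ε Y) u ≤
      ∫ u in Ioi 0, Real.exp (-π * (1 : ℕ) * u) * cfY Y (hmain ε Y) u := by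
    refine setIntegral_mono_set hint ?_ (Eventually.of_forall hsub)
    refine Eventually.of_forall fun u => ?_
    have := hmain_nonneg hY hε (Real.log (u * Y))
    unfold cfY
    change 0 ≤ _
    positivity
  have h2 : ∫ u in Icc (1 : ℝ) 2, Real.exp (-2 * π) ≤
      ∫ u in Icc (1 : ℝ) 2, Real.exp (-π * (1 : ℕ) * u) * cfY Y (hmain ε Y) u := by
    refine setIntegral_mono_on (integrableOn_const (by simp)) (hint.mono_set hsub)
      measurableSet_Icc fun u hu => ?_
    have hu0 : 0 < u := lt_of_lt_of_le one_pos hu.1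
    have e1 : Real.exp (-2 * π) ≤ Real.exp (-π * (1 : ℕ) * u) := by
      apply Real.exp_le_exp.2
      rw [Nat.cast_one, mul_one]
      nlinarith [Real.pi_pos, hu.2]
    have hlog : Real.log (u * Y) = Real.log u + Real.log Y := Real.log_mul hu0.ne' hY0.ne'
    have hl0 : 0 ≤ Real.log u := Real.log_nonneg hu.1
    have hl1 : Real.log u ≤ 1 := by
      have := Real.log_le_sub_one_of_pos hu0
      linarith [hu.2]
    have e2 : 1 ≤ cfY Y (hmain ε Y) u := by
      unfold cfY hmain
      rw [hlog, eta_one, eta_zero]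
      · rw [sub_zero, mul_one, mul_one, le_div_iff₀ hL0]
        linarith
      · rw [div_le_iff₀ (by positivity)]
        linarith
      · rw [le_div_iff₀ (by positivity)]
        nlinarith
    calc Real.exp (-2 * π) = Real.exp (-2 * π) * 1 := by ring
      _ ≤ _ := by gcongr
  have h3 : ∫ u in Icc (1 : ℝ) 2, Real.exp (-2 * π) = Real.exp (-2 * π) := by
    rw [setIntegral_const]
    simp
    norm_num
  rw [h3] at h2
  linarith

lemma bet_summable (hY : 1 < (Y : ℝ)) (hε : 0 < ε) :
    Summable fun n => |bet (cfY Y (hmain ε Y)) n| := by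
  have hY0 : (0 : ℝ) < Y := by linarith
  refine P004G.H128.summable_bet pfCoef (U := 1 / Y) (b := 3) (by positivity) (fun u _ => ?_)
    fun u hu hu1 => ?_
  · unfold cfY
    rw [abs_of_nonneg (hmain_nonneg hY hε _)]
    exact hmain_le hY hε _
  · unfold cfY
    refine hmain_neg hY hε (Real.log_nonpos (by positivity) ?_)
    rw [lt_div_iff₀ hY0] at hu1
    exact hu1.le

end P004E.H156
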