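import Vale.Agent.P004E.H156.Fact

/-!
# P004E, module F3 (part 8): the product of the blocks, near and far from `s = 1`
-/

open Finset Real

namespace P004E.H156

open P004G
open P004.H293 (E1 EE EE_mono EE_nonneg Adm)
open P004G.H293 (Lp ffx)

lemma sqrt_add3_le {a b c : ℝ} (ha : 0 ≤ a) (hb : 0 ≤ b) (hc : 0 ≤ c) :
    √(a + b + c) ≤ √a + √b + √c := by
  refine (Real.sqrt_le_left (by positivity)).2 ?_
  have h1 := Real.sq_sqrt ha
  have h2 := Real.sq_sqrt hb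
  have h3 := Real.sq_sqrt hc
  have h4 := Real.sqrt_nonneg a
  have h5 := Real.sqrt_nonneg b
  have h6 := Real.sqrt_nonneg c
  nlinarith [mul_nonneg h4 h5, mul_nonneg h4 h6, mul_nonneg h5 h6]

variable [Crv]

section

variable {C₀ c₀ η θ z L : ℝ} {y N D : ℕ} {S : ℕ → Finset ℕ} {c : ℕ → ℕ → ℝ}

/-- the bound for one block -/
noncomputable def xb (C₀ c₀ θ z L : ℝ) (y : ℕ) (τ : ℝ) (i : ℕ) : ℝ :=
  2 * √C₀ * (zi θ z i ^ (θ * c₀ / 2) + 3 * (τ * zi θ z i) + bI y θ z L i)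

lemma xb_nonneg (hz : 0 < z) {τ : ℝ} (hτ : 0 ≤ τ) (i : ℕ) : 0 ≤ xb C₀ c₀ θ z L y τ i := by
  have := zi_pos (θ := θ) hz i
  have h2 : 0 ≤ bI y θ z L i := Real.sqrt_nonneg _
  unfold xb
  positivity

lemma Ib_prop (hNy : N ≤ y) (hN : 0 < N) {i : ℕ} :
    ∀ p ∈ Ib y θ z L i, p.Prime ∧ ¬ p ∣ bd ∧ ¬ p ∣ N := by
  intro p hp
  have hp' := mem_Ib.1 hp
  refine ⟨hp'.2.1, hp'.2.2.1, fun hdvd => ?_⟩
  have h1 : y < p := by exact_mod_cast hp'.2.2.2.1
  have := Nat.le_of_dvd hN hdvd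
  omega

lemma Eb_near (hC₀ : 0 ≤ C₀) (hθ : 0 ≤ θ) (hz : 0 < z) (hz1 : z ≤ 1)
    (hLz : 1 ≤ L * z) (hB : BlkOK C₀ c₀ η (y : ℝ) θ z L S c) (hN : 0 < N) (hNy : N ≤ y)
    {w : ℂ} (hw0 : 0 ≤ w.re) (hw1 : w.re ≤ 1) {τ : ℝ} (hτ : ‖w‖ * L ≤ τ) {i : ℕ}
    (hi : i ≤ nb θ z L) (hτi : τ * zi θ z i ≤ 1) :
    ‖Eb N D S c (Ib y θ z L i) i w - 1‖ ≤ xb C₀ c₀ θ z L y τ i := by
  have hL0 : 0 < L := by
    by_contra hcon
    rw [not_lt] at hcon
    nlinarith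
  have hzi := zi_pos (θ := θ) hz i
  refine (Eb_sub_one (Ib_prop hNy hN) w).trans ?_
  have e1 : (1 : ℂ) + w - 1 = w := by ring
  have h1 := hB.close i hi (1 + w) (by simpa using hw0) (by
    rw [Complex.add_re, Complex.one_re]; linarith) (by
    rw [e1, ← mul_assoc]
    exact (mul_le_mul_of_nonneg_right hτ hzi.le).trans hτi)
  rw [e1] at h1
  have h2 := sum_log_sq (y₀ := (y : ℝ)) hz hLz hi
  have hsq : ‖w‖ ^ 2 * (∑ p ∈ Ib y θ z L i, Real.log p ^ 2 / p) ≤ (3 * (τ * zi θ z i)) ^ 2 := by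
    calc ‖w‖ ^ 2 * (∑ p ∈ Ib y θ z L i, Real.log p ^ 2 / p)
        ≤ ‖w‖ ^ 2 * (8 * (L * zi θ z i) ^ 2) := by gcongr
      _ = 8 * ((‖w‖ * L) * zi θ z i) ^ 2 := by ring
      _ ≤ 8 * (τ * zi θ z i) ^ 2 := by gcongr
      _ ≤ (3 * (τ * zi θ z i)) ^ 2 := by nlinarith [sq_nonneg (τ * zi θ z i)]
  have hτ0 : 0 ≤ τ := le_trans (by positivity) hτ
  have hexp : Real.exp (-c₀ * li θ z i) = (zi θ z i ^ (θ * c₀ / 2)) ^ 2 := by
    rw [← Real.rpow_natCast, ← Real.rpow_mul hzi.le, Real.rpow_def_of_pos hzi]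
    unfold li
    rw [one_div, Real.log_inv]
    congr 1
    push_cast
    ring
  set Sg := ∑ p ∈ Ib y θ z L i, (p : ℝ) ^ (-3 / 2 : ℝ) with hSg
  have hSg0 : 0 ≤ Sg := Finset.sum_nonneg fun p _ => by positivity
  have h3 : EE (Ib y θ z L i) (fun ω =>
      ‖(Mi S c i (ffx ω) : ℂ) * (∏ p ∈ Ib y θ z L i, Lp p (1 + w) (ω p)) - 1‖ ^ 2) ≤
      C₀ * ((zi θ z i ^ (θ * c₀ / 2)) ^ 2 + (3 * (τ * zi θ z i)) ^ 2 + Sg) := by
    refine h1.trans ?_
    rw [hexp]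
    gcongr
  have h4 := Real.sqrt_le_sqrt h3
  rw [Real.sqrt_mul hC₀] at h4
  have h5 := sqrt_add3_le (a := (zi θ z i ^ (θ * c₀ / 2)) ^ 2) (b := (3 * (τ * zi θ z i)) ^ 2)
    (c := Sg) (by positivity) (by positivity) hSg0
  rw [Real.sqrt_sq (by positivity), Real.sqrt_sq (by positivity)] at h5
  calc 2 * √(EE (Ib y θ z L i) (fun ω =>
      ‖(Mi S c i (ffx ω) : ℂ) * (∏ p ∈ Ib y θ z L i, Lp p (1 + w) (ω p)) - 1‖ ^ 2))
      ≤ 2 * (√C₀ * (zi θ z i ^ (θ * c₀ / 2) + 3 * (τ * zi θ z i) + √Sg)) := by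
        gcongr
        exact h4.trans (by gcongr)
    _ = xb C₀ c₀ θ z L y τ i := by
        unfold xb bI
        ring

lemma sum_xb (hθ : 0 ≤ θ) (hc₀ : 0 ≤ c₀) (hz : 0 < z) (hz1 : z ≤ 1)
    (h2 : z ^ θ ≤ 1 / 2) (h3 : z ^ (θ * (θ * c₀ / 2)) ≤ 1 / 2) (hLz : 1 ≤ L * z)
    (hy : 2 ≤ y) {τ b : ℝ} (hτ : 0 ≤ τ) (hb : 0 ≤ b) {R : Finset ℕ}
    (hR : R ⊆ range (nb θ z L + 1)) (hRb : ∀ i ∈ R, τ * zi θ z i ≤ b) :
    ∑ i ∈ R, xb C₀ c₀ θ z L y τ i ≤
      2 * √C₀ * (2 * z ^ (θ * c₀ / 2) + 6 * b + 600 * (y : ℝ) ^ (-1 / 8 : ℝ)) := by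
  have hα : 0 ≤ θ * c₀ / 2 := by positivity
  unfold xb
  rw [← Finset.mul_sum, Finset.sum_add_distrib, Finset.sum_add_distrib, ← Finset.mul_sum]
  have s1 : ∑ i ∈ R, zi θ z i ^ (θ * c₀ / 2) ≤ 2 * z ^ (θ * c₀ / 2) := by
    refine sum_geom_le (a := fun i => zi θ z i ^ (θ * c₀ / 2)) (fun i => ?_) (fun i => ?_)
      (by positivity) R fun i _ => ?_
    · have hzi := zi_pos (θ := θ) hz i
      rw [zi_succ hz, Real.mul_rpow hzi.le (by positivity)]
      have h4 : (zi θ z i ^ θ) ^ (θ * c₀ / 2) ≤ 1 / 2 := by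
        rw [← Real.rpow_mul hzi.le]
        exact (Real.rpow_le_rpow hzi.le (zi_le hθ hz hz1 i) (by positivity)).trans h3
      have h5 : 0 < zi θ z i ^ (θ * c₀ / 2) := Real.rpow_pos_of_pos hzi _
      nlinarith
    · have hzi := zi_pos (θ := θ) hz i
      positivity
    · exact Real.rpow_le_rpow (zi_pos hz i).le (zi_le hθ hz hz1 i) hα
  have s2 : ∑ i ∈ R, τ * zi θ z i ≤ 2 * b := by
    refine sum_geom_le (a := fun i => τ * zi θ z i) (fun i => ?_) (fun i => ?_) hb R hRb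
    · have := zi_half hθ hz hz1 h2 i
      nlinarith
    · have := zi_pos (θ := θ) hz i
      positivity
  have s3 : ∑ i ∈ R, bI y θ z L i ≤ 600 * (y : ℝ) ^ (-1 / 8 : ℝ) := by
    refine le_trans ?_ (sum_bI (y₀ := (y : ℝ)) hθ hz hz1 h2 hLz (by exact_mod_cast hy))
    exact Finset.sum_le_sum_of_subset_of_nonneg hR fun i _ _ => Real.sqrt_nonneg _
  have hC := Real.sqrt_nonneg C₀
  refine mul_le_mul_of_nonneg_left ?_ (by positivity)
  linarith

/-- the blocks near `s = 1` -/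
theorem blocks_near (hC₀ : 1 ≤ C₀) (hθ : 0 ≤ θ) (hc₀ : 0 ≤ c₀) (hz : 0 < z) (hz1 : z ≤ 1)
    (h2 : z ^ θ ≤ 1 / 2) (h3 : z ^ (θ * (θ * c₀ / 2)) ≤ 1 / 2) (hLz : 1 ≤ L * z)
    (hB : BlkOK C₀ c₀ η (y : ℝ) θ z L S c) (hN : 0 < N) (hNy : N ≤ y) (hy : 2 ≤ y)
    {w : ℂ} (hw0 : 0 ≤ w.re) (hw1 : w.re ≤ 1) {τ δ : ℝ} (hτ : ‖w‖ * L ≤ τ) (hδ1 : δ ≤ 1)
    (hδ : 2 * √C₀ * (2 * z ^ (θ * c₀ / 2) + 6 * (τ * z) + 600 * (y : ℝ) ^ (-1 / 8 : ℝ)) ≤ δ) :
    ‖∏ i ∈ range (nb θ z L + 1), Eb N D S c (Ib y θ z L i) i w - 1‖ ≤ 2 * δ := by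
  have hL0 : 0 < L := by
    by_contra hcon
    rw [not_lt] at hcon
    nlinarith
  have hτ0 : 0 ≤ τ := le_trans (by positivity) hτ
  have hτz : τ * z ≤ 1 := by
    have hs : 1 ≤ √C₀ := Real.one_le_sqrt.2 hC₀
    have a1 : 0 ≤ z ^ (θ * c₀ / 2) := by positivity
    have a2 : 0 ≤ (y : ℝ) ^ (-1 / 8 : ℝ) := by positivity
    have a3 : 0 ≤ τ * z := by positivity
    have a4 : 12 * (τ * z) ≤
        2 * √C₀ * (2 * z ^ (θ * c₀ / 2) + 6 * (τ * z) + 600 * (y : ℝ) ^ (-1 / 8 : ℝ)) := by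
      calc 12 * (τ * z) = 2 * 1 * (2 * 0 + 6 * (τ * z) + 600 * 0) := by ring
        _ ≤ _ := by gcongr
    linarith
  set v : ℕ → ℂ := fun i => Eb N D S c (Ib y θ z L i) i w - 1 with hv
  have e : ∏ i ∈ range (nb θ z L + 1), Eb N D S c (Ib y θ z L i) i w =
      ∏ i ∈ range (nb θ z L + 1), (1 + v i) := by
    refine Finset.prod_congr rfl fun i _ => ?_
    simp only [hv]; ring
  rw [e]
  refine (Finset.norm_prod_one_add_sub_one_le _ v).trans ?_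
  have h4 : ∑ i ∈ range (nb θ z L + 1), ‖v i‖ ≤ δ := by
    refine le_trans (Finset.sum_le_sum fun i hi => Eb_near (c := c) (S := S) (by linarith) hθ hz
      hz1 hLz hB hN hNy hw0 hw1 hτ (by rw [mem_range] at hi; omega)
      ((mul_le_mul_of_nonneg_left (zi_le hθ hz hz1 i) hτ0).trans hτz)) ?_
    refine (sum_xb hθ hc₀ hz hz1 h2 h3 hLz hy hτ0 (b := τ * z) (by positivity) subset_rfl
      fun i _ => ?_).trans hδ
    have := zi_le hθ hz hz1 i
    gcongr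
  have h5 : 0 ≤ ∑ i ∈ range (nb θ z L + 1), ‖v i‖ := Finset.sum_nonneg fun _ _ => norm_nonneg _
  set x := ∑ i ∈ range (nb θ z L + 1), ‖v i‖ with hx
  have h6 : |Real.exp x - 1 - x| ≤ x ^ 2 := Real.abs_exp_sub_one_sub_id_le (by
    rw [abs_of_nonneg h5]; linarith)
  have h7 := (abs_le.1 h6).2
  nlinarith

/-- the blocks, everywhere -/
theorem blocks_far (hC₀ : 1 ≤ C₀) (hη : η ≤ 1) (hθ : 0 < θ) (hθ1 : θ ≤ 1)
    (hc₀ : 0 ≤ c₀) (hz : 0 < z)
    (hz1 : z ≤ 1 / 2) (h2 : z ^ θ ≤ 1 / 2) (h3 : z ^ (θ * (θ * c₀ / 2)) ≤ 1 / 2)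
    (h4 : 1 ≤ θ * Real.log (1 / z)) (hLz : 1 ≤ L * z)
    (hB : BlkOK C₀ c₀ η (y : ℝ) θ z L S c) (hN : 0 < N) (hNy : N ≤ y) (hy : 2 ≤ y)
    {w : ℂ} (hw0 : 0 ≤ w.re) (hw1 : w.re ≤ 1) {τ : ℝ} (hτ1 : 1 ≤ τ) (hτ : ‖w‖ * L ≤ τ) :
    ‖∏ i ∈ range (nb θ z L + 1), Eb N D S c (Ib y θ z L i) i w‖ ≤
      Real.exp (1216 * √C₀) * τ ^ (4 * (24001 + C₀)) := by
  have hz1' : z ≤ 1 := by linarith
  have hL0 : 0 < L := by
    by_contra hcon
    rw [not_lt] at hcon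
    nlinarith
  have hlogz : 0 < Real.log (1 / z) := Real.log_pos (by rw [lt_div_iff₀ hz]; linarith)
  have hlogτ : 0 ≤ Real.log τ := Real.log_nonneg hτ1
  rw [norm_prod, ← Finset.prod_filter_mul_prod_filter_not (range (nb θ z L + 1))
    (fun i => τ * zi θ z i ≤ 1)]
  set R1 := (range (nb θ z L + 1)).filter (fun i => τ * zi θ z i ≤ 1) with hR1
  set R2 := (range (nb θ z L + 1)).filter (fun i => ¬ τ * zi θ z i ≤ 1) with hR2
  have p1 : ∏ i ∈ R1, ‖Eb N D S c (Ib y θ z L i) i w‖ ≤ Real.exp (1216 * √C₀) := by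
    calc ∏ i ∈ R1, ‖Eb N D S c (Ib y θ z L i) i w‖
        ≤ ∏ i ∈ R1, Real.exp (xb C₀ c₀ θ z L y τ i) := by
          refine Finset.prod_le_prod (fun _ _ => norm_nonneg _) fun i hi => ?_
          rw [hR1, mem_filter, mem_range] at hi
          have h5 := Eb_near (D := D) (c := c) (S := S) (by linarith) hθ.le hz hz1' hLz hB
            hN hNy hw0 hw1 hτ (i := i) (by omega) hi.2
          have h6 : ‖Eb N D S c (Ib y θ z L i) i w‖ ≤
              ‖Eb N D S c (Ib y θ z L i) i w - 1‖ + ‖(1 : ℂ)‖ := by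
            have := norm_add_le (Eb N D S c (Ib y θ z L i) i w - 1) 1
            rwa [sub_add_cancel] at this
          rw [norm_one] at h6
          linarith [Real.add_one_le_exp (xb C₀ c₀ θ z L y τ i)]
      _ = Real.exp (∑ i ∈ R1, xb C₀ c₀ θ z L y τ i) := by rw [Real.exp_sum]
      _ ≤ Real.exp (1216 * √C₀) := by
          apply Real.exp_le_exp.2
          refine (sum_xb hθ.le hc₀ hz hz1' h2 h3 hLz hy (by linarith) (b := 1) zero_le_one
            (Finset.filter_subset _ _) fun i hi => (mem_filter.1 hi).2).trans ?_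
          have h7 : z ^ (θ * c₀ / 2) ≤ 1 := Real.rpow_le_one hz.le hz1' (by positivity)
          have h8 : (y : ℝ) ^ (-1 / 8 : ℝ) ≤ 1 :=
            Real.rpow_le_one_of_one_le_of_nonpos (by exact_mod_cast (by omega : 1 ≤ y))
              (by norm_num)
          have h9 := Real.sqrt_nonneg C₀
          calc 2 * √C₀ * (2 * z ^ (θ * c₀ / 2) + 6 * 1 + 600 * (y : ℝ) ^ (-1 / 8 : ℝ))
              ≤ 2 * √C₀ * (2 * 1 + 6 * 1 + 600 * 1) := by gcongr
            _ = _ := by ring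
  have p2 : ∏ i ∈ R2, ‖Eb N D S c (Ib y θ z L i) i w‖ ≤ τ ^ (4 * (24001 + C₀)) := by
    have hterm : ∀ i ∈ R2, ‖Eb N D S c (Ib y θ z L i) i w‖ ≤
        Real.exp (2 * (24001 + C₀) * li θ z i) := by
      intro i hi
      rw [hR2, mem_filter, mem_range] at hi
      have hin : i ≤ nb θ z L := by omega
      have hli : 1 ≤ li θ z i := by
        rw [li_eq hz]
        have h5 : (1 : ℝ) ≤ (1 + θ) ^ i := one_le_pow₀ (by linarith)
        calc (1 : ℝ) ≤ θ * (1 * Real.log (1 / z)) := by rw [one_mul]; exact h4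
          _ ≤ _ := by gcongr
      refine (norm_Eb_le (Ib_prop hNy hN) hw0).trans ?_
      have h5 := hB.two i hin
      have h6 := sum_inv_Ib (y₀ := (y : ℝ)) hθ.le hz h2 hLz hz1' hin
      have h7 : √(EE (Ib y θ z L i) (fun ω => Mi S c i (ffx ω) ^ 2)) ≤
          Real.exp (((1 + η) * li θ z i + C₀) / 2) := by
        refine (Real.sqrt_le_sqrt h5).trans (le_of_eq ?_)
        rw [← Real.exp_half]
      calc 2 * (√(EE (Ib y θ z L i) (fun ω => Mi S c i (ffx ω) ^ 2)) *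
            Real.exp (1500 * ∑ p ∈ Ib y θ z L i, (1 : ℝ) / p))
          ≤ Real.exp 1 * (Real.exp (((1 + η) * li θ z i + C₀) / 2) *
            Real.exp (1500 * (16 + 8 * li θ z i))) := by
            have : (2 : ℝ) ≤ Real.exp 1 := by linarith [Real.add_one_le_exp (1 : ℝ)]
            gcongr
        _ = Real.exp (1 + (((1 + η) * li θ z i + C₀) / 2 + 1500 * (16 + 8 * li θ z i))) := by
            rw [← Real.exp_add, ← Real.exp_add]
        _ ≤ _ := by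
            apply Real.exp_le_exp.2
            nlinarith
    calc ∏ i ∈ R2, ‖Eb N D S c (Ib y θ z L i) i w‖
        ≤ ∏ i ∈ R2, Real.exp (2 * (24001 + C₀) * li θ z i) :=
          Finset.prod_le_prod (fun _ _ => norm_nonneg _) hterm
      _ = Real.exp (2 * (24001 + C₀) * ∑ i ∈ R2, li θ z i) := by
          rw [← Real.exp_sum, Finset.mul_sum]
      _ ≤ Real.exp (2 * (24001 + C₀) * (2 * Real.log τ)) := by
          have h5 : ∑ i ∈ R2, li θ z i ≤ 2 * Real.log τ := by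
            have h6 : ∑ i ∈ R2, li θ z i = θ * Real.log (1 / z) * ∑ i ∈ R2, (1 + θ) ^ i := by
              rw [Finset.mul_sum]
              refine Finset.sum_congr rfl fun i _ => ?_
              rw [li_eq hz]; ring
            have h7 := sum_geom_incr (q := 1 + θ) (Λ := Real.log τ / Real.log (1 / z))
              (by linarith) (by positivity) R2 (fun i hi => by
                rw [hR2, mem_filter, not_le] at hi
                rw [le_div_iff₀ hlogz, ← log_zi hz]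
                apply Real.log_le_log (by have := zi_pos (θ := θ) hz i; positivity)
                rw [div_le_iff₀ (zi_pos hz i)]
                exact hi.2.le)
            rw [h6]
            calc θ * Real.log (1 / z) * ∑ i ∈ R2, (1 + θ) ^ i
                ≤ θ * Real.log (1 / z) *
                  ((1 + θ) * (Real.log τ / Real.log (1 / z)) / (1 + θ - 1)) := by gcongr
              _ = (1 + θ) * Real.log τ := by
                  rw [add_sub_cancel_left]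
                  field_simp
              _ ≤ 2 * Real.log τ := by nlinarith
          gcongr
      _ = τ ^ (4 * (24001 + C₀)) := by
          rw [Real.rpow_def_of_pos (by linarith)]
          congr 1
          ring
  exact mul_le_mul p1 p2 (Finset.prod_nonneg fun _ _ => norm_nonneg _) (Real.exp_pos _).le

end

end P004E.H156
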