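import Vale.Agent.P004E.H156.Main

/-!
# P004E, module F3: proof of `StMainVal`
-/

open Real MeasureTheory Set Filter Topology
open scoped ENNReal

namespace P004E.H156

open P004G
open P004 (EN Xf)

lemma exists_y (N : ℕ) (a : ℝ) {b : ℝ} (hb : 0 < b) :
    ∃ y : ℕ, 2 ≤ y ∧ N ≤ y ∧ a * (y : ℝ) ^ (-1 / 8 : ℝ) ≤ b := by
  have h1 : Tendsto (fun y : ℕ => a * (y : ℝ) ^ (-1 / 8 : ℝ)) atTop (𝓝 (a * 0)) := by
    refine Tendsto.const_mul _ ?_
    have h2 := (tendsto_rpow_neg_atTop (y := 1 / 8) (by norm_num)).comp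
      (tendsto_natCast_atTop_atTop (R := ℝ))
    refine h2.congr fun y => ?_
    simp only [Function.comp]
    congr 1
    norm_num
  rw [mul_zero] at h1
  have h2 := h1.eventually_le_const hb
  obtain ⟨y, h3, h4, h5⟩ := (h2.and ((eventually_ge_atTop 2).and (eventually_ge_atTop N))).exists
  exact ⟨y, h4, h5, h3⟩

lemma tendsto_rpow_zero {α : ℝ} (hα : 0 < α) :
    Tendsto (fun z : ℝ => z ^ α) (𝓝[>] 0) (𝓝 0) := by
  have h := (Real.continuousAt_rpow_const 0 α (Or.inr hα.le)).tendsto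
  rw [Real.zero_rpow hα.ne'] at h
  exact h.mono_left nhdsWithin_le_nhds

lemma exists_z {θ c₀ η₁ a b M κ : ℝ} (hθ : 0 < θ) (hc₀ : 0 < c₀) (hη₁ : 0 < η₁)
    (hη₁' : η₁ ≤ 1 / 4) (hb : 0 < b) (hκ : 0 < κ) :
    ∃ z₀ : ℝ, 0 < z₀ ∧ ∀ z : ℝ, 0 < z → z ≤ z₀ → z ≤ 1 / 2 ∧ z ^ θ ≤ 1 / 2 ∧
      z ^ (θ * (θ * c₀ / 2)) ≤ 1 / 2 ∧ 1 ≤ θ * Real.log (1 / z) ∧
      a * (2 * z ^ (θ * c₀ / 2) + 6 * ((1 + z ^ (-1 + η₁ / 2)) * z)) ≤ b ∧
      z ^ (1 - η₁) ≤ 1 / 2 ∧ M * z ^ 3 / z ^ (1 - η₁) ≤ κ := by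
  have hhalf : (0 : ℝ) < 1 / 2 := by norm_num
  have e1 : ∀ᶠ z : ℝ in 𝓝[>] 0, z ≤ 1 / 2 := by
    have h := (tendsto_rpow_zero one_pos).eventually_le_const hhalf
    filter_upwards [h] with z hz
    rwa [Real.rpow_one] at hz
  have e2 := (tendsto_rpow_zero hθ).eventually_le_const hhalf
  have e3 := (tendsto_rpow_zero (α := θ * (θ * c₀ / 2)) (by positivity)).eventually_le_const hhalf
  have e4 : ∀ᶠ z : ℝ in 𝓝[>] 0, 1 ≤ θ * Real.log (1 / z) := by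
    have h := Real.tendsto_log_nhdsGT_zero.eventually_le_atBot (-(1 / θ))
    filter_upwards [h] with z hz
    rw [one_div, Real.log_inv]
    have h1 : θ * (1 / θ) = 1 := by field_simp
    nlinarith
  have e5 : ∀ᶠ z : ℝ in 𝓝[>] 0,
      a * (2 * z ^ (θ * c₀ / 2) + 6 * ((1 + z ^ (-1 + η₁ / 2)) * z)) ≤ b := by
    have h1 : Tendsto (fun z : ℝ => a * (2 * z ^ (θ * c₀ / 2) + 6 * (z ^ (1 : ℝ) + z ^ (η₁ / 2))))
        (𝓝[>] 0) (𝓝 (a * (2 * 0 + 6 * (0 + 0)))) :=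
      (((tendsto_rpow_zero (by positivity)).const_mul 2).add
        (((tendsto_rpow_zero one_pos).add
          (tendsto_rpow_zero (by positivity))).const_mul 6)).const_mul a
    have h2 : a * (2 * 0 + 6 * (0 + 0)) = 0 := by ring
    rw [h2] at h1
    filter_upwards [h1.eventually_le_const hb, self_mem_nhdsWithin] with z hz hz0
    have hz0' : 0 < z := hz0
    have h3 : (1 + z ^ (-1 + η₁ / 2)) * z = z ^ (1 : ℝ) + z ^ (η₁ / 2) := by
      have h4 : z ^ (-1 + η₁ / 2) * z = z ^ (η₁ / 2) := by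
        calc z ^ (-1 + η₁ / 2) * z = z ^ (-1 + η₁ / 2) * z ^ (1 : ℝ) := by rw [Real.rpow_one]
          _ = _ := by
            rw [← Real.rpow_add hz0']
            congr 1
            ring
      rw [add_mul, h4, one_mul, Real.rpow_one]
    rw [h3]
    exact hz
  have e6 := (tendsto_rpow_zero (α := 1 - η₁) (by linarith)).eventually_le_const hhalf
  have e7 : ∀ᶠ z : ℝ in 𝓝[>] 0, M * z ^ 3 / z ^ (1 - η₁) ≤ κ := by
    have h1 : Tendsto (fun z : ℝ => M * z ^ (2 + η₁)) (𝓝[>] 0) (𝓝 (M * 0)) :=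
      (tendsto_rpow_zero (by linarith)).const_mul M
    rw [mul_zero] at h1
    filter_upwards [h1.eventually_le_const hκ, self_mem_nhdsWithin] with z hz hz0
    have hz0' : 0 < z := hz0
    have h3 : M * z ^ 3 / z ^ (1 - η₁) = M * z ^ (2 + η₁) := by
      rw [mul_div_assoc]
      congr 1
      rw [← Real.rpow_natCast z 3, ← Real.rpow_sub hz0']
      congr 1
      push_cast
      ring
    rw [h3]
    exact hz
  have h := ((((((e1.and e2).and e3).and e4).and e5).and e6).and e7)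
  obtain ⟨z₀, hz₀, hs⟩ := mem_nhdsGT_iff_exists_Ioc_subset.1 h
  refine ⟨z₀, hz₀, fun z hz hz1 => ?_⟩
  obtain ⟨⟨⟨⟨⟨⟨f1, f2⟩, f3⟩, f4⟩, f5⟩, f6⟩, f7⟩ := hs ⟨hz, hz1⟩
  exact ⟨f1, f2, f3, f4, f5, f6, f7⟩

lemma exists_L {z D T r δ C ℓ : ℝ} (hz : 0 < z) (hr : 0 < r) (hδ : 0 < δ) :
    ∀ᶠ L : ℝ in atTop, 5 ≤ L * z ∧ D ≤ Real.exp (L * z) ∧ (1 + T) / L ≤ r ∧
      C * (3 / (L * z) + 2 * ((1 + T) / L) * ℓ) + 1092 / Real.exp (L * z) ≤ δ := by
  have h1 : Tendsto (fun L : ℝ => L * z) atTop atTop := tendsto_id.atTop_mul_const hz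
  have h2 : Tendsto (fun L : ℝ => Real.exp (L * z)) atTop atTop := Real.tendsto_exp_atTop.comp h1
  have h3 : Tendsto (fun L : ℝ => (1 + T) / L) atTop (𝓝 0) :=
    tendsto_const_nhds.div_atTop tendsto_id
  have h4 : Tendsto (fun L : ℝ => C * (3 / (L * z) + 2 * ((1 + T) / L) * ℓ) +
      1092 / Real.exp (L * z)) atTop (𝓝 (C * (0 + 2 * 0 * ℓ) + 0)) :=
    (((tendsto_const_nhds.div_atTop h1).add ((h3.const_mul 2).mul_const ℓ)).const_mul C).add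
      (tendsto_const_nhds.div_atTop h2)
  have h5 : C * (0 + 2 * 0 * ℓ) + 0 = 0 := by ring
  rw [h5] at h4
  exact (h1.eventually_ge_atTop 5).and ((h2.eventually_ge_atTop D).and
    ((h3.eventually_le_const hr).and (h4.eventually_le_const hδ)))

variable [Crv]

/-- Module F3 : the main value. -/
theorem pfMainVal (hM : StMert) : StMainVal := by
  intro C₀ c₀ η hC₀ hc₀ hη0 hη N hN
  obtain ⟨C, hC1, hC⟩ := hM
  obtain ⟨C₁, hC₁, hspec⟩ := Kw_spec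
  have he : 0 < Real.exp 1 := Real.exp_pos 1
  have he2 : 0 < Real.exp (-2 * π) := Real.exp_pos _
  set δ : ℝ := Real.exp (-2 * π) / (68 * Real.exp 1 * C₁) with hδ
  have hδ0 : 0 < δ := by positivity
  have hδ1 : δ ≤ 1 := by
    rw [hδ, div_le_one (by positivity)]
    have h1 : Real.exp (-2 * π) ≤ 1 := Real.exp_le_one_iff.2 (by linarith [Real.pi_pos])
    have h2 : 1 ≤ Real.exp 1 := Real.one_le_exp zero_le_one
    nlinarith
  have k1 : 4 * Real.exp 1 * (17 * δ * C₁) ≤ Real.exp (-2 * π) := by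
    rw [hδ]
    apply le_of_eq
    field_simp
    ring
  obtain ⟨y, hy2, hNy, hyb⟩ := exists_y N (2 * √C₀ * 600) (b := δ / 2) (by positivity)
  have hAA := AA0_pos N y
  refine ⟨2 * Real.exp (-2 * π) * AA0 N y, y, by positivity, by exact_mod_cast hy2,
    by exact_mod_cast hNy, fun θ η₁ hθ hθ1 hη₁ hη₁' => ?_⟩
  obtain ⟨r, hr0, hr⟩ := small_near N y (δ := δ * AA0 N y) (by positivity)
  set A : ℝ := 4 * (24001 + C₀) with hA
  obtain ⟨B, hB⟩ := exists_nat_ge (A + 2 * (A + 795) / η₁)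
  obtain ⟨C₂, hC₂, hsp⟩ := hspec B
  set G : ℝ := (25 / 4) ^ (y + 1) * Real.exp (1216 * √C₀) * Real.exp 1792 with hG
  obtain ⟨z₀, hz₀, hz⟩ := exists_z (θ := θ) (c₀ := c₀) (η₁ := η₁) (a := 2 * √C₀) (b := δ / 2)
    (M := 4 * Real.exp 1 * ((G + AA0 N y) * 2 ^ A * C₂)) (κ := Real.exp (-2 * π) * AA0 N y)
    hθ hc₀ hη₁ hη₁' (by positivity) (by positivity)
  refine ⟨z₀, hz₀, fun z hz0 hzz₀ D hyD => ?_⟩
  obtain ⟨f1, f2, f3, f4, f5, f6, f7⟩ := hz z hz0 hzz₀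
  have hLev := exists_L (z := z) (D := D) (T := z ^ (-1 + η₁ / 2)) (r := r) (δ := δ) (C := C)
    (ℓ := Real.log (1 + 1 / (2 * z))) hz0 hr0 hδ0
  obtain ⟨Y₀, hY₀⟩ := eventually_atTop.1
    ((Real.tendsto_log_atTop.comp (tendsto_natCast_atTop_atTop (R := ℝ))).eventually hLev)
  refine ⟨Y₀, fun Y S c hY hBlk A' m hA' hprod => ?_⟩
  obtain ⟨l1, l2, l3, l4⟩ := hY₀ Y hY
  simp only [Function.comp] at l1 l2 l3 l4
  set L := Real.log Y with hL
  have hε0 : 0 < z ^ (1 - η₁) := by positivity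
  obtain ⟨g1, g2, g3, g4, g5, g6⟩ := hsp (z ^ (1 - η₁)) hε0 (by linarith)
  have hYR : 1 < (Y : ℝ) := by
    by_contra hcon
    rw [not_lt] at hcon
    have h1 := Real.log_nonpos (Nat.cast_nonneg Y) hcon
    rw [← hL] at h1
    nlinarith
  have hδb : 2 * √C₀ * (2 * z ^ (θ * c₀ / 2) + 6 * ((1 + z ^ (-1 + η₁ / 2)) * z) +
      600 * (y : ℝ) ^ (-1 / 8 : ℝ)) ≤ δ := by
    calc _ = 2 * √C₀ * (2 * z ^ (θ * c₀ / 2) + 6 * ((1 + z ^ (-1 + η₁ / 2)) * z)) +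
          2 * √C₀ * 600 * (y : ℝ) ^ (-1 / 8 : ℝ) := by ring
      _ ≤ δ / 2 + δ / 2 := by gcongr
      _ = δ := by ring
  have k2 : 4 * Real.exp 1 * (((G + AA0 N y) * 2 ^ A * z ^ 3) * (C₂ / z ^ (1 - η₁))) ≤
      Real.exp (-2 * π) * AA0 N y := by
    refine le_trans (le_of_eq ?_) f7
    ring
  -- the limit
  have hlim := tendsto_lin (bet_summable hYR hε0) (P004G.H128.bet_zero pfCoef _) hA' m N D
  refine ge_of_tendsto hlim ?_
  have hKev := (tendsto_natCast_atTop_atTop (R := ℝ)).eventually_ge_atTop (Real.exp (L * z) + 1)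
  filter_upwards [hKev] with K hK
  have hfin := TK_ge (K := K) (D := D) hC (by linarith) hC₀ hη hθ (by linarith) hc₀.le hη₁ hη₁' hz0
    f1 f2 f3 f4 hL l1 hBlk hN hNy hy2 (by exact_mod_cast hyD) l2 hK hδ0.le hδ1 hr rfl l3 hδb l4 rfl
    f6 hA hB g1 g2 g3 g4 g5 g6 k1 k2
  refine hfin.trans (le_of_eq ?_)
  unfold TK
  refine P004.H128.EN_congr fun ω => ?_
  rw [hprod _ (P004.H128.Xf_CM ω)]

end P004E.H156
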